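import Mathlib

/-!
P309: memory-bounded learners for noiseless Gaussian linear regression: the model.
-/

open MeasureTheory ProbabilityTheory Metric
open scoped ENNReal RealInnerProductSpace

namespace P309

/-- `ℝ^d` with the Euclidean norm. -/
abbrev E (d : ℕ) : Type := EuclideanSpace ℝ (Fin d)

/-- The unit sphere `S^{d-1}` of `ℝ^d`. -/
abbrev Sph (d : ℕ) : Type := sphere (0 : E d) 1

/-- A learner with `n` persistent states (`n ≤ 2^M` is the memory bound).  `Ω` is the probability
space of all the learner's private randomness (a random seed that, to be generous to the learner,
may be re-read at every step; fresh randomness at every step is the special case of a seed that is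
a sequence).
* `init` is the initial state;
* `step t` is the rule used on the pair number `t` (counted from `0`): it sees the seed, the current
  state, the row and the label, and returns the new state and the stopping decision
  (`true` = stop now);
* `out τ` is the output rule used when `τ` pairs have been read: it sees only the seed and the
  final state. -/
structure Learner (d : ℕ) (Ω : Type) [MeasurableSpace Ω] (n : ℕ) where
  init : Ω → Fin n
  step : ℕ → Ω × Fin n × E d × ℝ → Fin n × Bool
  out : ℕ → Ω × Fin n → Sph d
  measurable_init : Measurable init
  measurable_step : ∀ t, Measurable (step t)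
  measurable_out : ∀ τ, Measurable (out τ)

namespace Learner

variable {d n : ℕ} {Ω : Type} [MeasurableSpace Ω]

/-- The pair (state, stopping time) after `t` steps on the signal `s` and the rows `x 0, x 1, …`
with exact labels `⟪x t, s⟫`; the second component is `some τ` once the learner has stopped, where
`τ` is the number of pairs it has read. -/
noncomputable def run (A : Learner d Ω n) (ω : Ω) (s : Sph d) (x : ℕ → E d) :
    ℕ → Fin n × Option ℕ
  | 0 => (A.init ω, none)
  | t + 1 =>
    match run A ω s x t with
    | (v, some τ) => (v, some τ)
    | (v, none) =>
      ((A.step t (ω, v, x t, ⟪x t, (s : E d)⟫)).1,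
        if (A.step t (ω, v, x t, ⟪x t, (s : E d)⟫)).2 then some (t + 1) else none)

/-- The output with horizon `T`: the learner outputs when it stops, and at the latest after `T`
samples. -/
noncomputable def output (A : Learner d Ω n) (T : ℕ) (ω : Ω) (s : Sph d) (x : ℕ → E d) : Sph d :=
  A.out ((A.run ω s x T).2.getD T) (ω, (A.run ω s x T).1)

end Learner

/-- The uniform probability measure on the unit sphere. -/
noncomputable def unif (d : ℕ) : Measure (Sph d) :=
  ((volume : Measure (E d)).toSphere Set.univ)⁻¹ • (volume : Measure (E d)).toSphere

/-- The law of the rows `x 0, x 1, …`: independent standard Gaussian vectors of `ℝ^d`. -/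
noncomputable def rows (d : ℕ) : Measure (ℕ → E d) :=
  Measure.infinitePi fun _ : ℕ => stdGaussian (E d)

/-- The learner succeeds at accuracy `ε` with horizon `T`: with probability at least `2/3` over an
independent seed, uniform signal and rows, the angle between output and signal is at most `ε`. -/
def Learner.Succeeds {d n : ℕ} {Ω : Type} [MeasurableSpace Ω] (A : Learner d Ω n)
    (P : Measure Ω) (T : ℕ) (ε : ℝ) : Prop :=
  2 / 3 ≤ (P.prod ((unif d).prod (rows d)))
    {w | Real.arccos ⟪((A.output T w.1 w.2.1 w.2.2 : Sph d) : E d), (w.2.1 : E d)⟫ ≤ ε}

end P309
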