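import Mathlib
import Vale.Agent.P309.Learner

/-!
P309: auxiliary definitions for the proof (ellipsoids, size functional, potential).
-/

open MeasureTheory ProbabilityTheory Metric Matrix Filter Topology
open scoped ENNReal RealInnerProductSpace

namespace P309

/-- quadratic form `x ↦ xᵀ H x`. -/
noncomputable def qf {d : ℕ} (H : Matrix (Fin d) (Fin d) ℝ) (x : E d) : ℝ :=
  x.ofLp ⬝ᵥ (H *ᵥ x.ofLp)

/-- the closed ellipsoid `{s : (s-z)ᵀ H (s-z) ≤ 1}`. -/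
def ell {d : ℕ} (z : E d) (H : Matrix (Fin d) (Fin d) ℝ) : Set (E d) := {s | qf H (s - z) ≤ 1}

/-- square of the size functional: `det (H + t) / (t^κ det H)`. -/
noncomputable def size2 {d : ℕ} (κ : ℕ) (H : Matrix (Fin d) (Fin d) ℝ) (t : ℝ) : ℝ :=
  (H + t • (1 : Matrix (Fin d) (Fin d) ℝ)).det / (t ^ κ * H.det)

/-- admissible: positive definite and `H ≤ ε⁻²`. -/
structure Adm {d : ℕ} (ε : ℝ) (H : Matrix (Fin d) (Fin d) ℝ) : Prop where
  posDef : H.PosDef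
  le : (((ε⁻¹) ^ 2) • (1 : Matrix (Fin d) (Fin d) ℝ) - H).PosSemidef

/-- the potential: `g` is `W`-bounded. -/
def WBdd {d : ℕ} (σ : Measure (E d)) (κ : ℕ) (ε W : ℝ) (g : E d → ℝ≥0∞) : Prop :=
  ∀ (z : E d) (H : Matrix (Fin d) (Fin d) ℝ), Adm ε H → ∀ t : ℝ, 0 < t →
    ∫⁻ s in ell z H, g s ∂σ ≤ ENNReal.ofReal (W * √(size2 κ H t))

/-- volume of the unit ball of `ℝ^k`. -/
noncomputable def vb (k : ℕ) : ℝ := (volume (closedBall (0 : E k) 1)).toReal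

/-- `k × d` matrix with rows `X l`. -/
noncomputable def rowMat {k d : ℕ} (X : Fin k → E d) : Matrix (Fin k) (Fin d) ℝ :=
  Matrix.of fun l => (X l).ofLp

/-- `det (X H⁻¹ Xᵀ)`. -/
noncomputable def vol2 {k d : ℕ} (H : Matrix (Fin d) (Fin d) ℝ) (X : Fin k → E d) : ℝ :=
  (rowMat X * H⁻¹ * (rowMat X)ᵀ).det

/-- matrix of the orthogonal projection onto `Dᗮ`. -/
noncomputable def perpMat {d : ℕ} (D : Submodule ℝ (E d)) : Matrix (Fin d) (Fin d) ℝ :=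
  (Matrix.toEuclideanCLM (n := Fin d) (𝕜 := ℝ)).symm (Dᗮ.starProjection)

/-- `inf_{τ>0} det(H + τ P) / (τ^k det H)`. -/
noncomputable def Ek {d : ℕ} (H P : Matrix (Fin d) (Fin d) ℝ) (k : ℕ) : ℝ :=
  ⨅ τ : Set.Ioi (0 : ℝ), (H + (τ : ℝ) • P).det / ((τ : ℝ) ^ k * H.det)

/-- span of the vectors of index `< i`. -/
def Dlt {d q : ℕ} (δ : Fin q → E d) (i : Fin q) : Submodule ℝ (E d) :=
  Submodule.span ℝ (δ '' {j | j < i})

/-- distance of `δ i` to the span of the previous vectors. -/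
noncomputable def dst {d q : ℕ} (δ : Fin q → E d) (i : Fin q) : ℝ :=
  ‖(Dlt δ i)ᗮ.starProjection (δ i)‖

/-- constant of one replica. -/
noncomputable def c1 (q d : ℕ) : ℝ := vb q * (2 * √(q : ℝ)) ^ q * √2 ^ d

/-- the two facts on the uniform measure of the sphere used in the proof. -/
structure SphLike {d : ℕ} (σ : Measure (E d)) : Prop where
  prob : IsProbabilityMeasure σ
  norm_one : ∀ᵐ s ∂σ, ‖s‖ = 1
  thick : ∀ (K U : Set (E d)), MeasurableSet K → ∀ ρ : ℝ, 0 < ρ → ρ ≤ 1 →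
    (∀ s ∈ K, ‖s‖ = 1 → ∀ x, ‖x - s‖ ≤ ρ → x ∈ U) →
    σ K * ENNReal.ofReal (vb d * ρ) ≤ volume U

/-- law of a block of `k` rows. -/
noncomputable def blk (k d : ℕ) : Measure (Fin k → E d) :=
  Measure.pi fun _ : Fin k => stdGaussian (E d)

/-- `h_r(δ)`. -/
noncomputable def hr {d : ℕ} (H : Matrix (Fin d) (Fin d) ℝ) (q : ℕ) (r : ℝ)
    (δ : Fin q → E d) : ℝ≥0∞ :=
  (∫⁻ X : Fin q → E d, ENNReal.ofReal ((vb q * √(vol2 H X)) ^ q) *
    Set.indicator {X : Fin q → E d | ∀ l i, |⟪X l, δ i⟫| ≤ r} 1 X ∂(blk q d)) /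
    ENNReal.ofReal ((2 * r) ^ (q * q))

end P309
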