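import Mathlib
import Vale.Agent.P309.Defs

/-! P309 module Gauss, part A: density of the standard Gaussian, tilting. -/

open MeasureTheory ProbabilityTheory Metric Matrix Filter Topology
open scoped ENNReal RealInnerProductSpace

namespace P309

theorem Gauss_pow_le_exp {q : ℕ} (hq : 0 < q) {u : ℝ} (hu : 0 ≤ u) :
    (u + 1) ^ q ≤ (2 * √(q : ℝ)) ^ q * Real.exp (u ^ 2 / 4) := by
  have hq1 : (1 : ℝ) ≤ q := by exact_mod_cast hq
  have hs1 : (1 : ℝ) ≤ √(q : ℝ) := by
    rw [show (1 : ℝ) = √1 by simp]; exact Real.sqrt_le_sqrt hq1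
  have hs0 : (0 : ℝ) < √(q : ℝ) := by linarith
  have hss : √(q : ℝ) * √(q : ℝ) = q := Real.mul_self_sqrt (by linarith)
  have key : u + 1 ≤ 2 * √(q : ℝ) * Real.exp (u ^ 2 / (4 * q)) := by
    have h1 : 1 + u ^ 2 / (4 * q) ≤ Real.exp (u ^ 2 / (4 * q)) := by
      linarith [Real.add_one_le_exp (u ^ 2 / (4 * q))]
    have h2 : u + 1 ≤ 2 * √(q : ℝ) * (1 + u ^ 2 / (4 * q)) := by
      set v : ℝ := u / √(q : ℝ) with hv
      have huv : u = v * √(q : ℝ) := by rw [hv]; field_simp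
      have h3 : u ^ 2 / (4 * q) = v ^ 2 / 4 := by
        have : u ^ 2 = v ^ 2 * q := by rw [huv, mul_pow, sq (√(q : ℝ)), hss]
        rw [this]; field_simp
      rw [h3, huv]
      nlinarith [sq_nonneg (v - 1), mul_nonneg hs0.le (sq_nonneg (v - 1))]
    calc u + 1 ≤ _ := h2
      _ ≤ _ := by gcongr
  calc (u + 1) ^ q ≤ (2 * √(q : ℝ) * Real.exp (u ^ 2 / (4 * q))) ^ q := by
        gcongr
    _ = (2 * √(q : ℝ)) ^ q * Real.exp (u ^ 2 / 4) := by
        rw [mul_pow, ← Real.exp_nat_mul]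
        congr 2
        field_simp

theorem Gauss_sqrt_pow (b : ℝ) (hb : 0 < b) (d : ℕ) :
    (Real.pi / b) ^ ((d : ℝ) / 2) = √(Real.pi / b) ^ d := by
  rw [Real.sqrt_eq_rpow, ← Real.rpow_natCast, ← Real.rpow_mul (by positivity)]
  congr 1
  ring

theorem Gauss_integral (b : ℝ) (hb : 0 < b) (d : ℕ) :
    ∫ x : E d, Real.exp (-b * ‖x‖ ^ 2) = √(Real.pi / b) ^ d := by
  rw [GaussianFourier.integral_rexp_neg_mul_sq_norm hb, ← Gauss_sqrt_pow b hb]
  simp

theorem Gauss_integrable (b : ℝ) (hb : 0 < b) (d : ℕ) :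
    Integrable (fun x : E d => Real.exp (-b * ‖x‖ ^ 2)) := by
  have h := GaussianFourier.integrable_cexp_neg_mul_sq_norm_add (V := E d) (b := (b : ℂ))
    (by simpa using hb) 0 0
  have h2 := h.re
  refine h2.congr (ae_of_all _ fun x => ?_)
  simp only [zero_mul, add_zero]
  have : (-(b : ℂ) * (‖x‖ : ℂ) ^ 2) = ((-b * ‖x‖ ^ 2 : ℝ) : ℂ) := by push_cast; ring
  rw [this, ← Complex.ofReal_exp]
  rfl

theorem Gauss_lintegral (b : ℝ) (hb : 0 < b) (d : ℕ) :
    ∫⁻ x : E d, ENNReal.ofReal (Real.exp (-b * ‖x‖ ^ 2)) = ENNReal.ofReal (√(Real.pi / b) ^ d) := by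
  rw [← Gauss_integral b hb d, ofReal_integral_eq_lintegral_ofReal (Gauss_integrable b hb d)
    (ae_of_all _ fun x => (Real.exp_pos _).le)]

/-- density of the centred Gaussian with covariance `(2b)⁻¹`. -/
noncomputable def gdens (d : ℕ) (b : ℝ) (x : E d) : ℝ :=
  (√(Real.pi / b))⁻¹ ^ d * Real.exp (-b * ‖x‖ ^ 2)

theorem gdens_nonneg (d : ℕ) (b : ℝ) (x : E d) : 0 ≤ gdens d b x := by
  unfold gdens; positivity

theorem measurable_gdens (d : ℕ) (b : ℝ) : Measurable (gdens d b) := by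
  unfold gdens; fun_prop

theorem lintegral_gdens (d : ℕ) (b : ℝ) (hb : 0 < b) :
    ∫⁻ x : E d, ENNReal.ofReal (gdens d b x) = 1 := by
  unfold gdens
  simp_rw [ENNReal.ofReal_mul (show (0 : ℝ) ≤ (√(Real.pi / b))⁻¹ ^ d by positivity)]
  rw [lintegral_const_mul _ (by fun_prop), Gauss_lintegral b hb d,
    ← ENNReal.ofReal_mul (by positivity), ← mul_pow]
  have : 0 < √(Real.pi / b) := Real.sqrt_pos.2 (by positivity)
  rw [inv_mul_cancel₀ this.ne']
  simp

theorem gauss_density (d : ℕ) :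
    stdGaussian (E d) = (volume : Measure (E d)).withDensity
      (fun x => ENNReal.ofReal (gdens d (1 / 2) x)) := by
  have hfin : IsProbabilityMeasure ((volume : Measure (E d)).withDensity
      (fun x => ENNReal.ofReal (gdens d (1 / 2) x))) :=
    ⟨by rw [withDensity_apply _ MeasurableSet.univ, Measure.restrict_univ,
      lintegral_gdens d _ (by norm_num)]⟩
  apply Measure.ext_of_charFun
  ext t
  rw [charFun_stdGaussian, charFun_apply, integral_withDensity_eq_integral_toReal_smul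
    (measurable_gdens d _).ennreal_ofReal (ae_of_all _ fun x => ENNReal.ofReal_lt_top)]
  have h := GaussianFourier.integral_cexp_neg_mul_sq_norm_add (V := E d) (b := ((1 / 2 : ℝ) : ℂ))
    (by simp) Complex.I t
  have hπ : ((Real.pi : ℂ) / ((1 / 2 : ℝ) : ℂ)) ^ ((Module.finrank ℝ (E d) : ℂ) / 2) =
      ((√(Real.pi / (1 / 2)) ^ d : ℝ) : ℂ) := by
    rw [← Gauss_sqrt_pow (1 / 2) (by norm_num) d, ← Complex.ofReal_div,
      Complex.ofReal_cpow (by positivity)]
    simp
  have hs : 0 < √(Real.pi / (1 / 2)) := Real.sqrt_pos.2 (by positivity)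
  calc Complex.exp (-(‖t‖ : ℂ) ^ 2 / 2)
      = (((√(Real.pi / (1 / 2)))⁻¹ ^ d : ℝ) : ℂ) *
        ∫ v : E d, Complex.exp (-((1 / 2 : ℝ) : ℂ) * (‖v‖ : ℂ) ^ 2 +
          Complex.I * ((⟪t, v⟫ : ℝ) : ℂ)) := by
        rw [h, hπ, ← mul_assoc, ← Complex.ofReal_mul, ← mul_pow, inv_mul_cancel₀ hs.ne']
        simp only [one_pow, Complex.ofReal_one, one_mul, Complex.I_sq]
        congr 1
        push_cast
        ring
    _ = _ := by
        rw [← integral_const_mul]
        refine integral_congr_ae (ae_of_all _ fun x => ?_)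
        simp only [gdens]
        rw [ENNReal.toReal_ofReal (by positivity), Complex.real_smul, Complex.exp_add]
        push_cast
        rw [real_inner_comm x t, mul_assoc, mul_comm Complex.I]

end P309
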