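import Mathlib
import Vale.Agent.P309.Defs

/-! P309 module LA: determinants of positive semidefinite matrices. -/

open MeasureTheory ProbabilityTheory Metric Matrix Filter Topology
open scoped ENNReal RealInnerProductSpace

namespace P309

/-- factorisation of positive semidefinite matrices -/
theorem LA_exists_factor {n : Type*} [Fintype n] [DecidableEq n] {A : Matrix n n ℝ}
    (hA : A.PosSemidef) : ∃ C : Matrix n n ℝ, A = Cᵀ * C := by
  open scoped MatrixOrder in
  obtain ⟨C, hC⟩ := CStarAlgebra.nonneg_iff_eq_star_mul_self.mp hA.nonneg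
  refine ⟨C, ?_⟩
  rw [hC, star_eq_conjTranspose, conjTranspose_eq_transpose_of_trivial]

theorem LA_psd_transpose_mul {m n : Type*} [Fintype m] [Fintype n]
    (C : Matrix m n ℝ) : (Cᵀ * C).PosSemidef := by
  have := posSemidef_conjTranspose_mul_self C
  rwa [conjTranspose_eq_transpose_of_trivial] at this

theorem LA_psd_conj {m n : Type*} [Fintype m] [Fintype n] {A : Matrix n n ℝ}
    (hA : A.PosSemidef) (C : Matrix m n ℝ) : (C * A * Cᵀ).PosSemidef := by
  have := hA.mul_mul_conjTranspose_same C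
  rwa [conjTranspose_eq_transpose_of_trivial] at this

theorem LA_one_le_det {n : Type*} [Fintype n] [DecidableEq n] {M : Matrix n n ℝ}
    (hM : (M - 1).PosSemidef) : 1 ≤ M.det := by
  have hH : M.IsHermitian := by
    have h1 := hM.isHermitian.add (isHermitian_one (n := n) (α := ℝ))
    rwa [sub_add_cancel] at h1
  rw [hH.det_eq_prod_eigenvalues]
  have h1 : ∀ i, (1 : ℝ) ≤ hH.eigenvalues i := by
    intro i
    rw [hH.eigenvalues_eq i]
    have h2 := hM.re_dotProduct_nonneg (⇑(hH.eigenvectorBasis i) : n → ℝ)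
    have h3 : star (⇑(hH.eigenvectorBasis i) : n → ℝ) ⬝ᵥ (⇑(hH.eigenvectorBasis i) : n → ℝ) = 1 := by
      have h4 := hH.eigenvectorBasis.orthonormal.1 i
      have h5 : ‖hH.eigenvectorBasis i‖ ^ 2 = 1 := by rw [h4]; norm_num
      rw [EuclideanSpace.norm_sq_eq] at h5
      rw [← h5]
      simp [dotProduct, pow_two]
    rw [sub_mulVec, one_mulVec, dotProduct_sub, h3] at h2
    simp at h2 ⊢
    linarith
  have h2 : (1 : ℝ) ≤ ∏ i, hH.eigenvalues i := by
    calc (1 : ℝ) = ∏ _i : n, (1 : ℝ) := by simp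
      _ ≤ ∏ i, hH.eigenvalues i := Finset.prod_le_prod (fun i _ => zero_le_one) fun i _ => h1 i
  simpa using h2

theorem det_mono {n : Type*} [Fintype n] [DecidableEq n] {A B : Matrix n n ℝ}
    (hA : A.PosSemidef) (hAB : (B - A).PosSemidef) : A.det ≤ B.det := by
  have hB : B.PosSemidef := by
    have := hA.add hAB
    rwa [add_sub_cancel] at this
  by_cases h0 : A.det = 0
  · rw [h0]; exact hB.det_nonneg
  obtain ⟨C, hC⟩ := LA_exists_factor hA
  have hCdet : C.det ≠ 0 := by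
    intro h
    apply h0
    rw [hC, det_mul, h, mul_zero]
  have hCu : IsUnit C.det := isUnit_iff_ne_zero.2 hCdet
  set M : Matrix n n ℝ := (C⁻¹)ᵀ * B * C⁻¹ with hM
  have hM1 : (M - 1).PosSemidef := by
    have h1 : M - 1 = (C⁻¹)ᵀ * (B - A) * ((C⁻¹)ᵀ)ᵀ := by
      rw [transpose_transpose, mul_sub, sub_mul, hM, hC]
      congr 1
      rw [← mul_assoc, transpose_nonsing_inv, nonsing_inv_mul _ (by rwa [det_transpose]), one_mul,
        mul_nonsing_inv _ hCu]
    rw [h1]
    exact LA_psd_conj hAB _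
  have h2 := LA_one_le_det hM1
  rw [hM, det_mul, det_mul, det_transpose] at h2
  have h3 : A.det = C.det ^ 2 := by rw [hC, det_mul, det_transpose, sq]
  have h4 : (C⁻¹).det * C.det = 1 := by
    rw [← det_mul, nonsing_inv_mul _ hCu, det_one]
  have h5 : 0 < C.det ^ 2 := by positivity
  rw [h3]
  calc C.det ^ 2 = C.det ^ 2 * 1 := by ring
    _ ≤ C.det ^ 2 * ((C⁻¹).det * B.det * (C⁻¹).det) := mul_le_mul_of_nonneg_left h2 h5.le
    _ = ((C⁻¹).det * C.det) * ((C⁻¹).det * C.det) * B.det := by ring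
    _ = B.det := by rw [h4]; ring

theorem LA_det_le_one {n : Type*} [Fintype n] [DecidableEq n] {A : Matrix n n ℝ}
    (hA : A.PosSemidef) (hd : ∀ i, A i i = 1) : A.det ≤ 1 := by
  rw [hA.isHermitian.det_eq_prod_eigenvalues]
  have h1 : ∑ i, hA.isHermitian.eigenvalues i = (Fintype.card n : ℝ) := by
    have h2 := hA.isHermitian.trace_eq_sum_eigenvalues
    have h3 : A.trace = (Fintype.card n : ℝ) := by simp [trace, hd]
    rw [h3] at h2
    simpa using h2.symm
  have h2 : ∏ i, hA.isHermitian.eigenvalues i ≤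
      ∏ i, Real.exp (hA.isHermitian.eigenvalues i - 1) := by
    refine Finset.prod_le_prod (fun i _ => hA.eigenvalues_nonneg i) fun i _ => ?_
    have := Real.add_one_le_exp (hA.isHermitian.eigenvalues i - 1)
    linarith
  have h3 : ∏ i, Real.exp (hA.isHermitian.eigenvalues i - 1) = 1 := by
    rw [← Real.exp_sum, Finset.sum_sub_distrib, h1]
    simp
  have h4 : ∏ i, hA.isHermitian.eigenvalues i ≤ 1 := h2.trans h3.le
  simpa using h4

/-- Hadamard's inequality (AM-GM on eigenvalues after scaling to unit diagonal). -/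
theorem det_le_prod_diag {n : Type*} [Fintype n] [DecidableEq n] {A : Matrix n n ℝ}
    (hA : A.PosSemidef) : A.det ≤ ∏ i, A i i := by
  have hnn : ∀ i, 0 ≤ A i i := fun i => hA.diag_nonneg
  by_cases h0 : A.det = 0
  · rw [h0]; exact Finset.prod_nonneg fun i _ => hnn i
  have hpd : A.PosDef := hA.posDef_iff_det_ne_zero.2 h0
  have hpos : ∀ i, 0 < A i i := fun i => hpd.diag_pos
  set D : Matrix n n ℝ := diagonal fun i => (√(A i i))⁻¹ with hD
  have h1 : (D * A * Dᵀ).PosSemidef := LA_psd_conj hA D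
  have h2 : ∀ i, (D * A * Dᵀ) i i = 1 := by
    intro i
    rw [hD, diagonal_transpose, mul_diagonal, diagonal_mul]
    have h3 : √(A i i) * √(A i i) = A i i := Real.mul_self_sqrt (hnn i)
    have h4 : √(A i i) ≠ 0 := (Real.sqrt_pos.2 (hpos i)).ne'
    field_simp
    rw [sq, h3]
  have h3 := LA_det_le_one h1 h2
  rw [det_mul, det_mul, det_transpose, hD, det_diagonal] at h3
  have h4 : 0 < ∏ i, A i i := Finset.prod_pos fun i _ => hpos i
  have h5 : (∏ i, (√(A i i))⁻¹) * (∏ i, (√(A i i))⁻¹) * ∏ i, A i i = 1 := by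
    rw [← Finset.prod_mul_distrib, ← Finset.prod_mul_distrib]
    apply Finset.prod_eq_one
    intro i _
    have h3 : √(A i i) * √(A i i) = A i i := Real.mul_self_sqrt (hnn i)
    have h4 : √(A i i) ≠ 0 := (Real.sqrt_pos.2 (hpos i)).ne'
    field_simp
    rw [sq, h3]
  calc A.det = ((∏ i, (√(A i i))⁻¹) * (∏ i, (√(A i i))⁻¹) * ∏ i, A i i) * A.det := by
        rw [h5, one_mul]
    _ = ((∏ i, (√(A i i))⁻¹) * A.det * (∏ i, (√(A i i))⁻¹)) * ∏ i, A i i := by ring
    _ ≤ 1 * ∏ i, A i i := mul_le_mul_of_nonneg_right h3 h4.le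
    _ = ∏ i, A i i := one_mul _

/-- `det (X B Xᵀ) ≤ ∏ |x_l|² · det (1+τB)/τ^k`. -/
theorem det_row_bound {k d : ℕ} {B : Matrix (Fin d) (Fin d) ℝ} (hB : B.PosSemidef)
    (X : Matrix (Fin k) (Fin d) ℝ) {τ : ℝ} (hτ : 0 < τ) :
    (X * B * Xᵀ).det ≤ (∏ l, ∑ i, X l i ^ 2) *
      (((1 : Matrix (Fin d) (Fin d) ℝ) + τ • B).det / τ ^ k) := by
  have hG : (X * Xᵀ).PosSemidef := by
    have := LA_psd_transpose_mul Xᵀ
    rwa [transpose_transpose] at this
  have hτB : (τ • B).PosSemidef := hB.smul hτ.le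
  have h1B : ((1 : Matrix (Fin d) (Fin d) ℝ) + τ • B).PosSemidef := PosSemidef.one.add hτB
  have hR : 0 ≤ ((1 : Matrix (Fin d) (Fin d) ℝ) + τ • B).det / τ ^ k :=
    div_nonneg h1B.det_nonneg (by positivity)
  have hP : 0 ≤ ∏ l, ∑ i, X l i ^ 2 :=
    Finset.prod_nonneg fun l _ => Finset.sum_nonneg fun i _ => sq_nonneg _
  by_cases h0 : (X * Xᵀ).det = 0
  · -- singular case
    have h1 : (X * B * Xᵀ).det = 0 := by
      obtain ⟨v, hv0, hv⟩ := exists_mulVec_eq_zero_iff.2 h0
      have h2 : Xᵀ *ᵥ v = 0 := by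
        have h3 : (Xᵀ *ᵥ v) ⬝ᵥ (Xᵀ *ᵥ v) = 0 := by
          have h4 : v ⬝ᵥ ((X * Xᵀ) *ᵥ v) = 0 := by rw [hv, dotProduct_zero]
          rw [← mulVec_mulVec, dotProduct_mulVec, ← mulVec_transpose] at h4
          exact h4
        exact dotProduct_self_eq_zero.1 h3
      rw [← exists_mulVec_eq_zero_iff]
      refine ⟨v, hv0, ?_⟩
      rw [← mulVec_mulVec, h2, mulVec_zero]
    rw [h1]
    exact mul_nonneg hP hR
  · obtain ⟨C, hC⟩ := LA_exists_factor hG
    have hCdet : C.det ≠ 0 := by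
      intro h
      apply h0
      rw [hC, det_mul, h, mul_zero]
    have hCu : IsUnit C.det := isUnit_iff_ne_zero.2 hCdet
    have hCu' : IsUnit (Cᵀ).det := by rwa [det_transpose]
    obtain ⟨D, hD⟩ := LA_exists_factor hB
    -- orthonormalised rows
    set V : Matrix (Fin k) (Fin d) ℝ := (Cᵀ)⁻¹ * X with hV
    have hX : X = Cᵀ * V := by
      rw [hV, ← Matrix.mul_assoc, mul_nonsing_inv _ hCu', Matrix.one_mul]
    have hVV : V * Vᵀ = 1 := by
      rw [hV, transpose_mul, Matrix.mul_assoc, ← Matrix.mul_assoc X, hC, transpose_nonsing_inv,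
        transpose_transpose, Matrix.mul_assoc Cᵀ, mul_nonsing_inv _ hCu, Matrix.mul_one,
        nonsing_inv_mul _ hCu']
    have hproj : ((1 : Matrix (Fin d) (Fin d) ℝ) - Vᵀ * V).PosSemidef := by
      have h1 : (1 : Matrix (Fin d) (Fin d) ℝ) - Vᵀ * V = (1 - Vᵀ * V)ᵀ * (1 - Vᵀ * V) := by
        have h2 : Vᵀ * V * (Vᵀ * V) = Vᵀ * V := by
          rw [Matrix.mul_assoc, ← Matrix.mul_assoc V, hVV, Matrix.one_mul]
        have h3 : (Vᵀ * V)ᵀ = Vᵀ * V := by rw [transpose_mul, transpose_transpose]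
        rw [transpose_sub, transpose_one, h3, sub_mul, one_mul, mul_sub, mul_one, h2, sub_self,
          sub_zero]
      rw [h1]
      exact LA_psd_transpose_mul _
    have e1 : (X * B * Xᵀ).det = (X * Xᵀ).det * (V * B * Vᵀ).det := by
      rw [hC]
      have : X * B * Xᵀ = Cᵀ * (V * B * Vᵀ) * C := by
        conv_lhs => rw [hX, transpose_mul, transpose_transpose]
        simp only [Matrix.mul_assoc]
      rw [this, det_mul, det_mul, det_mul]
      ring_nf
    have e2 : τ ^ k * (V * B * Vᵀ).det = (τ • (V * B * Vᵀ)).det := by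
      rw [det_smul, Fintype.card_fin]
    have hVB : (V * B * Vᵀ).PosSemidef := LA_psd_conj hB V
    have e3 : (τ • (V * B * Vᵀ)).det ≤ (1 + τ • (V * B * Vᵀ)).det := by
      apply det_mono (hVB.smul hτ.le)
      rw [add_sub_cancel_right]
      exact PosSemidef.one
    have e4 : (1 + τ • (V * B * Vᵀ)).det = (1 + τ • (D * (Vᵀ * V) * Dᵀ)).det := by
      have h1 : τ • (V * B * Vᵀ) = (V * Dᵀ) * (τ • (D * Vᵀ)) := by
        rw [hD, Matrix.mul_smul]
        simp only [Matrix.mul_assoc]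
      rw [h1, det_one_add_mul_comm, Matrix.smul_mul]
      simp only [Matrix.mul_assoc]
    have e5 : (1 + τ • (D * (Vᵀ * V) * Dᵀ)).det ≤ (1 + τ • (D * Dᵀ)).det := by
      have h1 : (D * (Vᵀ * V) * Dᵀ).PosSemidef := LA_psd_conj (LA_psd_transpose_mul V) D
      apply det_mono (PosSemidef.one.add (h1.smul hτ.le))
      have h2 : (1 : Matrix (Fin d) (Fin d) ℝ) + τ • (D * Dᵀ) - (1 + τ • (D * (Vᵀ * V) * Dᵀ)) =
          τ • (D * (1 - Vᵀ * V) * Dᵀ) := by
        rw [mul_sub, sub_mul, mul_one, smul_sub]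
        abel
      rw [h2]
      exact (LA_psd_conj hproj D).smul hτ.le
    have e6 : (1 + τ • (D * Dᵀ)).det = (1 + τ • B).det := by
      have h1 : τ • (D * Dᵀ) = D * (τ • Dᵀ) := by rw [Matrix.mul_smul]
      rw [h1, det_one_add_mul_comm, Matrix.smul_mul, ← hD]
    have e7 : (X * Xᵀ).det ≤ ∏ l, ∑ i, X l i ^ 2 := by
      refine (det_le_prod_diag hG).trans (le_of_eq ?_)
      refine Finset.prod_congr rfl fun l _ => ?_
      rw [mul_apply]
      refine Finset.sum_congr rfl fun i _ => ?_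
      rw [transpose_apply, sq]
    have e8 : (V * B * Vᵀ).det ≤ (1 + τ • B).det / τ ^ k := by
      rw [le_div_iff₀ (by positivity), mul_comm, e2]
      exact e3.trans (e4.le.trans (e5.trans e6.le))
    rw [e1]
    exact mul_le_mul e7 e8 hVB.det_nonneg hP

end P309
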