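import Mathlib
import Vale.Agent.P309.LA

/-! P309 module LAC: Lemma C'. -/

open MeasureTheory ProbabilityTheory Metric Matrix Filter Topology
open scoped ENNReal RealInnerProductSpace

namespace P309

theorem LAC_add_posDef {d : ℕ} {H P : Matrix (Fin d) (Fin d) ℝ} (hH : H.PosDef)
    (hP : P.PosSemidef) {τ : ℝ} (hτ : 0 ≤ τ) : (H + τ • P).PosDef :=
  hH.add_posSemidef (hP.smul hτ)

theorem LAC_term_nonneg {d : ℕ} {H P : Matrix (Fin d) (Fin d) ℝ} (hH : H.PosDef)
    (hP : P.PosSemidef) (k : ℕ) {τ : ℝ} (hτ : 0 < τ) :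
    0 ≤ (H + τ • P).det / (τ ^ k * H.det) := by
  have h1 := (LAC_add_posDef hH hP hτ.le).det_pos
  have h2 := hH.det_pos
  positivity

theorem Ek_nonneg {d : ℕ} {H P : Matrix (Fin d) (Fin d) ℝ} (hH : H.PosDef) (hP : P.PosSemidef)
    (k : ℕ) : 0 ≤ Ek H P k := by
  unfold Ek
  exact Real.iInf_nonneg fun τ => LAC_term_nonneg hH hP k τ.2

theorem Ek_le {d : ℕ} {H P : Matrix (Fin d) (Fin d) ℝ} (hH : H.PosDef) (hP : P.PosSemidef)
    (k : ℕ) {τ : ℝ} (hτ : 0 < τ) : Ek H P k ≤ (H + τ • P).det / (τ ^ k * H.det) := by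
  unfold Ek
  refine ciInf_le (f := fun τ : Set.Ioi (0 : ℝ) =>
    (H + (τ : ℝ) • P).det / ((τ : ℝ) ^ k * H.det)) ⟨0, ?_⟩ ⟨τ, hτ⟩
  rintro _ ⟨σ, rfl⟩
  exact LAC_term_nonneg hH hP k σ.2

theorem exists_lt_Ek {d : ℕ} {H P : Matrix (Fin d) (Fin d) ℝ} (hH : H.PosDef)
    (hP : P.PosSemidef) (k : ℕ) {η : ℝ} (hη : 0 < η) :
    ∃ τ : ℝ, 0 < τ ∧ (H + τ • P).det / (τ ^ k * H.det) < Ek H P k + η := by
  have : Nonempty (Set.Ioi (0 : ℝ)) := ⟨⟨1, by simp⟩⟩
  have h : Ek H P k < Ek H P k + η := by linarith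
  have h' : (⨅ τ : Set.Ioi (0 : ℝ), (H + (τ : ℝ) • P).det / ((τ : ℝ) ^ k * H.det))
      < Ek H P k + η := h
  obtain ⟨τ, hτ⟩ := exists_lt_of_ciInf_lt h'
  exact ⟨τ, τ.2, hτ⟩

/-- inversion is antitone. -/
theorem LAC_one_sub_inv {n : Type*} [Fintype n] [DecidableEq n] {M : Matrix n n ℝ}
    (hM : (M - 1).PosSemidef) : (1 - M⁻¹).PosSemidef := by
  have hMH : M.IsHermitian := by
    have h1 := hM.isHermitian.add (isHermitian_one (n := n) (α := ℝ))
    rwa [sub_add_cancel] at h1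
  have hMp : M.PosDef := by
    have := (PosDef.one (n := n) (R := ℝ)).add_posSemidef hM
    rwa [add_sub_cancel] at this
  have hu : IsUnit M.det := isUnit_iff_ne_zero.2 hMp.det_pos.ne'
  have hN2 : ((M - 1) + (M - 1) * (M - 1)).PosSemidef := by
    refine hM.add ?_
    have h2 := posSemidef_conjTranspose_mul_self (M - 1)
    rwa [hM.isHermitian.eq] at h2
  have h3 : (1 : Matrix n n ℝ) - M⁻¹ = M⁻¹ * ((M - 1) + (M - 1) * (M - 1)) * (M⁻¹)ᵀ := by
    have hMt : (M⁻¹)ᵀ = M⁻¹ := by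
      have h5 := hMH.eq
      rw [conjTranspose_eq_transpose_of_trivial] at h5
      rw [transpose_nonsing_inv, h5]
    rw [hMt]
    have h4 : (M - 1) + (M - 1) * (M - 1) = M * (M - 1) := by noncomm_ring
    rw [h4, ← mul_assoc, nonsing_inv_mul _ hu, one_mul, sub_mul, mul_nonsing_inv _ hu, one_mul]
  rw [h3]
  exact LA_psd_conj hN2 _

theorem LAC_inv_antitone {n : Type*} [Fintype n] [DecidableEq n] {A B : Matrix n n ℝ}
    (hA : A.PosDef) (hAB : (B - A).PosSemidef) : (A⁻¹ - B⁻¹).PosSemidef := by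
  obtain ⟨C, hC⟩ := LA_exists_factor hA.posSemidef
  have hCdet : C.det ≠ 0 := by
    intro h
    have := hA.det_pos
    rw [hC, det_mul, h, mul_zero] at this
    exact lt_irrefl _ this
  have hCu : IsUnit C.det := isUnit_iff_ne_zero.2 hCdet
  have hCtu : IsUnit (Cᵀ).det := by rwa [det_transpose]
  set M : Matrix n n ℝ := (C⁻¹)ᵀ * B * C⁻¹ with hM
  have hM1 : (M - 1).PosSemidef := by
    have h1 : M - 1 = (C⁻¹)ᵀ * (B - A) * ((C⁻¹)ᵀ)ᵀ := by
      rw [transpose_transpose, mul_sub, sub_mul, hM, hC]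
      congr 1
      rw [← mul_assoc, transpose_nonsing_inv, nonsing_inv_mul _ hCtu, one_mul,
        mul_nonsing_inv _ hCu]
    rw [h1]
    exact LA_psd_conj hAB _
  have h2 := LAC_one_sub_inv hM1
  have hB : B.PosDef := by
    have := hA.add_posSemidef hAB
    rwa [add_sub_cancel] at this
  have hMinv : M⁻¹ = C * B⁻¹ * Cᵀ := by
    rw [hM, Matrix.mul_inv_rev, Matrix.mul_inv_rev, nonsing_inv_nonsing_inv _ hCu,
      transpose_nonsing_inv, nonsing_inv_nonsing_inv _ hCtu, mul_assoc]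
  have h3 : A⁻¹ - B⁻¹ = C⁻¹ * (1 - M⁻¹) * (C⁻¹)ᵀ := by
    rw [hMinv, mul_sub, sub_mul, mul_one, hC, Matrix.mul_inv_rev, transpose_nonsing_inv]
    congr 1
    rw [← mul_assoc, ← mul_assoc, nonsing_inv_mul _ hCu, one_mul, mul_assoc,
      mul_nonsing_inv _ hCtu, mul_one]
  rw [h3]
  exact LA_psd_conj h2 _

theorem LAC_smul_one_psd {n : Type*} [Fintype n] [DecidableEq n] {c : ℝ} (hc : 0 ≤ c) :
    (c • (1 : Matrix n n ℝ)).PosSemidef :=
  PosSemidef.one.smul hc

theorem LAC_det_smul_one {d : ℕ} (c : ℝ) : (c • (1 : Matrix (Fin d) (Fin d) ℝ)).det = c ^ d := by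
  rw [det_smul, det_one, Fintype.card_fin, mul_one]

/-- `det (H + S) / det (H + S P)` grows at most like `S^m`. -/
theorem LAC_ratio {d m : ℕ} {H P : Matrix (Fin d) (Fin d) ℝ} (hH : H.PosDef)
    (B : Matrix (Fin d) (Fin m) ℝ) (hP : P = 1 - B * Bᵀ) (hPP : P.PosSemidef)
    {S t : ℝ} (ht : 0 < t) (htS : t ≤ S) :
    (H + S • (1 : Matrix (Fin d) (Fin d) ℝ)).det * (H + t • P).det
      ≤ (S / t) ^ m * ((H + t • (1 : Matrix (Fin d) (Fin d) ℝ)).det * (H + S • P).det) := by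
  have hS : 0 < S := lt_of_lt_of_le ht htS
  have key : ∀ r : ℝ, 0 < r → (H + r • (1 : Matrix (Fin d) (Fin d) ℝ)).det
      = (H + r • P).det * (1 + r • (Bᵀ * (H + r • P)⁻¹ * B)).det := by
    intro r hr
    have h1 : H + r • (1 : Matrix (Fin d) (Fin d) ℝ) = (H + r • P) + B * (r • Bᵀ) := by
      rw [hP, smul_sub, Matrix.mul_smul]; abel
    have hu : IsUnit (H + r • P).det :=
      isUnit_iff_ne_zero.2 (LAC_add_posDef hH hPP hr.le).det_pos.ne'
    rw [h1, det_add_mul _ _ hu]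
    congr 3
    rw [Matrix.smul_mul, Matrix.smul_mul]
  rw [key S hS, key t ht]
  have hpS := (LAC_add_posDef hH hPP hS.le).det_pos
  have hpt := (LAC_add_posDef hH hPP ht.le).det_pos
  have hanti : ((H + t • P)⁻¹ - (H + S • P)⁻¹).PosSemidef := by
    refine LAC_inv_antitone (LAC_add_posDef hH hPP ht.le) ?_
    have : H + S • P - (H + t • P) = (S - t) • P := by rw [sub_smul]; abel
    rw [this]
    exact hPP.smul (by linarith)
  have hinvpsd : ∀ r : ℝ, 0 < r → (Bᵀ * (H + r • P)⁻¹ * B).PosSemidef := by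
    intro r hr
    have := LA_psd_conj (LAC_add_posDef hH hPP hr.le).inv.posSemidef (Bᵀ)
    rwa [transpose_transpose] at this
  have hdet : (1 + S • (Bᵀ * (H + S • P)⁻¹ * B)).det
      ≤ (S / t) ^ m * (1 + t • (Bᵀ * (H + t • P)⁻¹ * B)).det := by
    have h1 : ((S / t) • (1 + t • (Bᵀ * (H + t • P)⁻¹ * B))).det
        = (S / t) ^ m * (1 + t • (Bᵀ * (H + t • P)⁻¹ * B)).det := by
      rw [det_smul, Fintype.card_fin]
    rw [← h1]
    refine det_mono (PosSemidef.one.add ((hinvpsd S hS).smul hS.le)) ?_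
    have h2 : (S / t) • ((1 : Matrix (Fin m) (Fin m) ℝ) + t • (Bᵀ * (H + t • P)⁻¹ * B))
        - (1 + S • (Bᵀ * (H + S • P)⁻¹ * B))
        = (S / t - 1) • (1 : Matrix (Fin m) (Fin m) ℝ)
          + S • (Bᵀ * ((H + t • P)⁻¹ - (H + S • P)⁻¹) * B) := by
      rw [Matrix.mul_sub, Matrix.sub_mul, smul_add, smul_smul, div_mul_cancel₀ _ ht.ne', sub_smul,
        one_smul, smul_sub]
      abel
    rw [h2]
    refine (LAC_smul_one_psd ?_).add (PosSemidef.smul ?_ hS.le)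
    · rw [sub_nonneg, le_div_iff₀ ht]; linarith
    · have := LA_psd_conj hanti (Bᵀ)
      rwa [transpose_transpose] at this
  calc (H + S • P).det * (1 + S • (Bᵀ * (H + S • P)⁻¹ * B)).det * (H + t • P).det
      = ((H + S • P).det * (H + t • P).det) * (1 + S • (Bᵀ * (H + S • P)⁻¹ * B)).det := by ring
    _ ≤ ((H + S • P).det * (H + t • P).det)
          * ((S / t) ^ m * (1 + t • (Bᵀ * (H + t • P)⁻¹ * B)).det) :=
        mul_le_mul_of_nonneg_left hdet (by positivity)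
    _ = _ := by ring

theorem LAC_BBt_psd {d m : ℕ} (B : Matrix (Fin d) (Fin m) ℝ) : (B * Bᵀ).PosSemidef := by
  have := posSemidef_self_mul_conjTranspose B
  rwa [conjTranspose_eq_transpose_of_trivial] at this

theorem LAC_P_psd {d m : ℕ} (B : Matrix (Fin d) (Fin m) ℝ) (hB : Bᵀ * B = 1) :
    ((1 : Matrix (Fin d) (Fin d) ℝ) - B * Bᵀ).PosSemidef := by
  have h1 : ((1 : Matrix (Fin d) (Fin d) ℝ) - B * Bᵀ)
      = (1 - B * Bᵀ)ᵀ * (1 - B * Bᵀ) := by
    have h2 : (B * Bᵀ) * (B * Bᵀ) = B * Bᵀ := by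
      rw [Matrix.mul_assoc, ← Matrix.mul_assoc Bᵀ B Bᵀ, hB, Matrix.one_mul]
    rw [transpose_sub, transpose_one, transpose_mul, transpose_transpose, sub_mul, mul_sub,
      mul_sub, h2]
    simp
  rw [h1]
  exact LA_psd_transpose_mul _

/-- the matrix `1 - P` is `B Bᵀ` with `B` having `m` orthonormal columns. -/
theorem lemC {d k κ m : ℕ} {H P : Matrix (Fin d) (Fin d) ℝ} (hH : H.PosDef)
    (B : Matrix (Fin d) (Fin m) ℝ) (hB : Bᵀ * B = 1) (hP : P = 1 - B * Bᵀ)
    (hκ : m + k ≤ κ) {S t : ℝ} (hS : 0 < S) (ht : 0 < t) :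
    Ek H P k * size2 κ (H + S • P) (max t S) ≤ 2 ^ d / S ^ k * size2 κ H t := by
  have hPP : P.PosSemidef := by rw [hP]; exact LAC_P_psd B hB
  have hHd := hH.det_pos
  -- `det (H + S P + u) ≤ 2^d det (H + u)` for `S ≤ u`
  have hdouble : ∀ u : ℝ, S ≤ u → (H + S • P + u • (1 : Matrix (Fin d) (Fin d) ℝ)).det
      ≤ 2 ^ d * (H + u • (1 : Matrix (Fin d) (Fin d) ℝ)).det := by
    intro u hu
    have hu0 : 0 < u := lt_of_lt_of_le hS hu
    have h1 : ((2 : ℝ) • (H + u • (1 : Matrix (Fin d) (Fin d) ℝ))).det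
        = 2 ^ d * (H + u • (1 : Matrix (Fin d) (Fin d) ℝ)).det := by
      rw [det_smul, Fintype.card_fin]
    rw [← h1]
    refine det_mono ((LAC_add_posDef hH hPP hS.le).posSemidef.add (LAC_smul_one_psd hu0.le)) ?_
    have h2 : (2 : ℝ) • (H + u • (1 : Matrix (Fin d) (Fin d) ℝ))
        - (H + S • P + u • (1 : Matrix (Fin d) (Fin d) ℝ))
        = H + ((u - S) • (1 : Matrix (Fin d) (Fin d) ℝ) + S • (B * Bᵀ)) := by
      rw [hP, smul_sub, sub_smul, two_smul]; abel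
    rw [h2]
    exact hH.posSemidef.add ((LAC_smul_one_psd (by linarith)).add ((LAC_BBt_psd B).smul hS.le))
  rcases le_total S t with hSt | htS
  · rw [max_eq_left hSt]
    have hE := Ek_le hH hPP k hS
    have hE0 := Ek_nonneg hH hPP k
    have hDS := (LAC_add_posDef hH hPP hS.le).det_pos
    have hsz : size2 κ (H + S • P) t
        ≤ 2 ^ d * (H + t • (1 : Matrix (Fin d) (Fin d) ℝ)).det / (t ^ κ * (H + S • P).det) := by
      unfold size2
      gcongr
      exact hdouble t hSt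
    have hDt : 0 < (H + t • (1 : Matrix (Fin d) (Fin d) ℝ)).det :=
      (LAC_add_posDef hH PosSemidef.one ht.le).det_pos
    calc Ek H P k * size2 κ (H + S • P) t
        ≤ ((H + S • P).det / (S ^ k * H.det))
          * (2 ^ d * (H + t • (1 : Matrix (Fin d) (Fin d) ℝ)).det / (t ^ κ * (H + S • P).det)) := by
          refine mul_le_mul hE hsz ?_ (LAC_term_nonneg hH hPP k hS)
          unfold size2
          have : 0 < (H + S • P + t • (1 : Matrix (Fin d) (Fin d) ℝ)).det :=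
            (LAC_add_posDef (LAC_add_posDef hH hPP hS.le) PosSemidef.one ht.le).det_pos
          positivity
      _ = 2 ^ d / S ^ k * size2 κ H t := by
          unfold size2
          field_simp
  · rw [max_eq_right htS]
    have hE := Ek_le hH hPP k ht
    have hDS := (LAC_add_posDef hH hPP hS.le).det_pos
    have hDt := (LAC_add_posDef hH hPP ht.le).det_pos
    have hD1S : 0 < (H + S • (1 : Matrix (Fin d) (Fin d) ℝ)).det :=
      (LAC_add_posDef hH PosSemidef.one hS.le).det_pos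
    have hD1t : 0 < (H + t • (1 : Matrix (Fin d) (Fin d) ℝ)).det :=
      (LAC_add_posDef hH PosSemidef.one ht.le).det_pos
    have hsz : size2 κ (H + S • P) S
        ≤ 2 ^ d * (H + S • (1 : Matrix (Fin d) (Fin d) ℝ)).det / (S ^ κ * (H + S • P).det) := by
      unfold size2
      gcongr
      exact hdouble S le_rfl
    have hratio := LAC_ratio hH B hP hPP ht htS
    have hpow : (S / t) ^ m / (t ^ k * S ^ κ) ≤ 1 / (S ^ k * t ^ κ) := by
      rw [div_pow, div_div, div_le_div_iff₀ (by positivity) (by positivity), one_mul]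
      obtain ⟨j, hj⟩ := Nat.exists_eq_add_of_le hκ
      have h1 : t ^ j ≤ S ^ j := pow_le_pow_left₀ ht.le htS j
      calc S ^ m * (S ^ k * t ^ κ) = (S ^ m * S ^ k * t ^ m * t ^ k) * t ^ j := by
            rw [hj]; ring
        _ ≤ (S ^ m * S ^ k * t ^ m * t ^ k) * S ^ j :=
            mul_le_mul_of_nonneg_left h1 (by positivity)
        _ = t ^ m * (t ^ k * S ^ κ) := by rw [hj]; ring
    calc Ek H P k * size2 κ (H + S • P) S
        ≤ ((H + t • P).det / (t ^ k * H.det))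
          * (2 ^ d * (H + S • (1 : Matrix (Fin d) (Fin d) ℝ)).det / (S ^ κ * (H + S • P).det)) := by
          refine mul_le_mul hE hsz ?_ (LAC_term_nonneg hH hPP k ht)
          unfold size2
          have : 0 < (H + S • P + S • (1 : Matrix (Fin d) (Fin d) ℝ)).det :=
            (LAC_add_posDef (LAC_add_posDef hH hPP hS.le) PosSemidef.one hS.le).det_pos
          positivity
      _ = (2 ^ d / (t ^ k * S ^ κ * H.det * (H + S • P).det))
          * ((H + S • (1 : Matrix (Fin d) (Fin d) ℝ)).det * (H + t • P).det) := by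
          field_simp
      _ ≤ (2 ^ d / (t ^ k * S ^ κ * H.det * (H + S • P).det))
          * ((S / t) ^ m * ((H + t • (1 : Matrix (Fin d) (Fin d) ℝ)).det * (H + S • P).det)) :=
          mul_le_mul_of_nonneg_left hratio (by positivity)
      _ = ((S / t) ^ m / (t ^ k * S ^ κ))
          * (2 ^ d * (H + t • (1 : Matrix (Fin d) (Fin d) ℝ)).det / H.det) := by
          field_simp
      _ ≤ (1 / (S ^ k * t ^ κ))
          * (2 ^ d * (H + t • (1 : Matrix (Fin d) (Fin d) ℝ)).det / H.det) :=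
          mul_le_mul_of_nonneg_right hpow (by positivity)
      _ = 2 ^ d / S ^ k * size2 κ H t := by
          unfold size2
          field_simp

theorem size2_pos {d : ℕ} (κ : ℕ) {H : Matrix (Fin d) (Fin d) ℝ} (hH : H.PosDef) {t : ℝ}
    (ht : 0 < t) : 0 < size2 κ H t := by
  have h1 : 0 < (H + t • (1 : Matrix (Fin d) (Fin d) ℝ)).det :=
    (LAC_add_posDef hH PosSemidef.one ht.le).det_pos
  have h2 := hH.det_pos
  unfold size2
  positivity

/-- scaling. -/
theorem size2_smul {d : ℕ} (κ : ℕ) (H : Matrix (Fin d) (Fin d) ℝ) {t c : ℝ} (hc : 0 < c) :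
    size2 κ (c • H) (c * t) = (c⁻¹) ^ κ * size2 κ H t := by
  unfold size2
  have h1 : c • H + (c * t) • (1 : Matrix (Fin d) (Fin d) ℝ)
      = c • (H + t • (1 : Matrix (Fin d) (Fin d) ℝ)) := by
    rw [smul_add, smul_smul]
  rw [h1, det_smul, det_smul, Fintype.card_fin, mul_pow, inv_pow]
  have hcd : c ^ d ≠ 0 := pow_ne_zero _ hc.ne'
  have h2 : c ^ κ * t ^ κ * (c ^ d * H.det) = c ^ d * (c ^ κ * (t ^ κ * H.det)) := by ring
  rw [h2, mul_div_mul_left _ _ hcd, ← div_div, div_right_comm, inv_mul_eq_div]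

theorem pow_le_size2 {d : ℕ} {κ : ℕ} (hκ : κ ≤ d) {ε : ℝ} (hε : 0 < ε)
    {H : Matrix (Fin d) (Fin d) ℝ} (hH : Adm ε H) {t : ℝ} (ht : 0 < t) :
    ε ^ (2 * κ) ≤ size2 κ H t := by
  have hHd := hH.posDef.det_pos
  have hx : 0 < t * ε ^ 2 := by positivity
  have h1 : ((1 + t * ε ^ 2) • H).det ≤ (H + t • (1 : Matrix (Fin d) (Fin d) ℝ)).det := by
    refine det_mono (hH.posDef.posSemidef.smul (by positivity)) ?_
    have h2 : H + t • (1 : Matrix (Fin d) (Fin d) ℝ) - (1 + t * ε ^ 2) • H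
        = (t * ε ^ 2) • (((ε⁻¹) ^ 2) • (1 : Matrix (Fin d) (Fin d) ℝ) - H) := by
      rw [smul_sub, smul_smul, add_smul, one_smul]
      have : t * ε ^ 2 * ε⁻¹ ^ 2 = t := by field_simp
      rw [this]; abel
    rw [h2]
    exact hH.le.smul hx.le
  rw [det_smul, Fintype.card_fin] at h1
  have h3 : (t * ε ^ 2) ^ κ ≤ (1 + t * ε ^ 2) ^ d :=
    (pow_le_pow_left₀ hx.le (by linarith) κ).trans (pow_le_pow_right₀ (by linarith) hκ)
  unfold size2
  rw [le_div_iff₀ (by positivity)]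
  calc ε ^ (2 * κ) * (t ^ κ * H.det) = (t * ε ^ 2) ^ κ * H.det := by
        rw [mul_pow, ← pow_mul]; ring
    _ ≤ (1 + t * ε ^ 2) ^ d * H.det := mul_le_mul_of_nonneg_right h3 hHd.le
    _ ≤ _ := h1

theorem size2_one (d κ : ℕ) : size2 κ (1 : Matrix (Fin d) (Fin d) ℝ) 1 = 2 ^ d := by
  unfold size2
  have h1 : (1 : Matrix (Fin d) (Fin d) ℝ) + (1 : ℝ) • (1 : Matrix (Fin d) (Fin d) ℝ)
      = (2 : ℝ) • (1 : Matrix (Fin d) (Fin d) ℝ) := by
    rw [two_smul, one_smul]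
  rw [h1, LAC_det_smul_one]
  simp

/-- used for the small shells: `1/det H' ≤ size2(H',t)/t^{d-κ}`. -/
theorem inv_det_le_size2 {d κ : ℕ} (hκ : κ ≤ d) {H : Matrix (Fin d) (Fin d) ℝ} (hH : H.PosDef)
    {t : ℝ} (ht : 0 < t) : (H.det)⁻¹ ≤ size2 κ H t / t ^ (d - κ) := by
  have hHd := hH.det_pos
  have h1 : t ^ d ≤ (H + t • (1 : Matrix (Fin d) (Fin d) ℝ)).det := by
    rw [← LAC_det_smul_one t]
    refine det_mono (LAC_smul_one_psd ht.le) ?_
    rw [add_sub_cancel_right]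
    exact hH.posSemidef
  unfold size2
  rw [le_div_iff₀ (by positivity), le_div_iff₀ (by positivity)]
  have h2 : (H.det)⁻¹ * t ^ (d - κ) * (t ^ κ * H.det) = t ^ d := by
    have : t ^ (d - κ) * t ^ κ = t ^ d := by rw [← pow_add, Nat.sub_add_cancel hκ]
    field_simp
    linarith
  rw [h2]
  exact h1

end P309
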