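import Mathlib
import Vale.Agent.P309.LAC

/-! P309 module Proj: the projection matrix `perpMat D`, the determinant bound for perturbed rows,
the lower bound on `Ek`. -/

open MeasureTheory ProbabilityTheory Metric Matrix Filter Topology
open scoped ENNReal RealInnerProductSpace

namespace P309

theorem Proj_toCLM {d : ℕ} (D : Submodule ℝ (E d)) :
    Matrix.toEuclideanCLM (n := Fin d) (𝕜 := ℝ) (perpMat D) = Dᗮ.starProjection := by
  unfold perpMat
  exact StarAlgEquiv.apply_symm_apply _ _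

theorem perpMat_mulVec {d : ℕ} (D : Submodule ℝ (E d)) (x : E d) :
    perpMat D *ᵥ x.ofLp = (Dᗮ.starProjection x).ofLp := by
  rw [← Proj_toCLM]
  rfl

theorem perpMat_isSymm {d : ℕ} (D : Submodule ℝ (E d)) : (perpMat D)ᵀ = perpMat D := by
  rw [← conjTranspose_eq_transpose_of_trivial, ← star_eq_conjTranspose]
  apply EquivLike.injective (Matrix.toEuclideanCLM (n := Fin d) (𝕜 := ℝ))
  rw [map_star, Proj_toCLM]
  exact isSelfAdjoint_starProjection Dᗮ

theorem perpMat_mul_self {d : ℕ} (D : Submodule ℝ (E d)) :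
    perpMat D * perpMat D = perpMat D := by
  apply EquivLike.injective (Matrix.toEuclideanCLM (n := Fin d) (𝕜 := ℝ))
  rw [map_mul, Proj_toCLM]
  exact Dᗮ.isIdempotentElem_starProjection

theorem perpMat_posSemidef {d : ℕ} (D : Submodule ℝ (E d)) : (perpMat D).PosSemidef := by
  have h := LA_psd_transpose_mul (perpMat D)
  rwa [perpMat_isSymm, perpMat_mul_self] at h

theorem one_sub_perpMat_posSemidef {d : ℕ} (D : Submodule ℝ (E d)) :
    (1 - perpMat D).PosSemidef := by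
  have h := LA_psd_transpose_mul (1 - perpMat D)
  rwa [transpose_sub, transpose_one, perpMat_isSymm, sub_mul, one_mul, mul_sub, mul_one,
    perpMat_mul_self, sub_self, sub_zero] at h

theorem qf_perpMat {d : ℕ} (D : Submodule ℝ (E d)) (x : E d) :
    qf (perpMat D) x = ‖Dᗮ.starProjection x‖ ^ 2 := by
  rw [EuclideanSpace.norm_sq_eq]
  unfold qf
  have h : perpMat D = (perpMat D)ᵀ * perpMat D := by rw [perpMat_isSymm, perpMat_mul_self]
  rw [h, ← mulVec_mulVec, dotProduct_mulVec, ← mulVec_transpose, transpose_transpose,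
    perpMat_mulVec]
  simp [dotProduct, pow_two]

theorem Proj_mulVec_injective {m n : ℕ} {A B : Matrix (Fin m) (Fin n) ℝ}
    (h : ∀ x : Fin n → ℝ, A *ᵥ x = B *ᵥ x) : A = B := by
  ext i j
  have := congrFun (h (Pi.single j 1)) i
  simpa using this

theorem exists_orthonormal_cols {d : ℕ} (D : Submodule ℝ (E d)) :
    ∃ B : Matrix (Fin d) (Fin (Module.finrank ℝ D)) ℝ, Bᵀ * B = 1 ∧
      perpMat D = 1 - B * Bᵀ := by
  set b := stdOrthonormalBasis ℝ D with hb
  refine ⟨Matrix.of fun i j => ((b j : D) : E d).ofLp i, ?_, ?_⟩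
  · ext i j
    rw [mul_apply]
    have h1 := orthonormal_iff_ite.1 b.orthonormal i j
    rw [Submodule.coe_inner, PiLp.inner_apply] at h1
    rw [one_apply]
    simp only [transpose_apply, of_apply]
    rw [← h1]
    refine Finset.sum_congr rfl fun l _ => ?_
    simp [mul_comm]
  · apply Proj_mulVec_injective
    intro x
    have h1 := perpMat_mulVec D (WithLp.toLp 2 x)
    have h2 : (WithLp.toLp 2 x : E d).ofLp = x := rfl
    rw [h2] at h1
    rw [h1, Submodule.starProjection_orthogonal_val, sub_mulVec, one_mulVec, WithLp.ofLp_sub, h2]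
    congr 1
    rw [Submodule.starProjection_apply,
      OrthonormalBasis.orthogonalProjectionOnto_apply_eq_sum b (WithLp.toLp 2 x)]
    ext i
    rw [← mulVec_mulVec]
    simp only [mulVec, dotProduct, transpose_apply, of_apply]
    simp [PiLp.inner_apply, mul_comm]

/-- Lemma D of the proof. -/
theorem vol2_le {d k : ℕ} {H : Matrix (Fin d) (Fin d) ℝ} (hH : H.PosDef)
    (D : Submodule ℝ (E d)) (X : Fin k → E d) {η τ : ℝ} (hη : 0 < η) (hτ : 0 < τ)
    (hX : ∀ l, ‖D.starProjection (X l)‖ ≤ η) :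
    vol2 H X ≤ (∏ l, (‖X l‖ + 1) ^ 2) *
      ((H + τ • (perpMat D + η ^ 2 • (1 - perpMat D))).det / (τ ^ k * H.det)) := by
  set P := perpMat D with hP
  have hPP : P * P = P := perpMat_mul_self D
  have hPt : Pᵀ = P := perpMat_isSymm D
  set S : Matrix (Fin d) (Fin d) ℝ := P + η • (1 - P) with hS
  set S' : Matrix (Fin d) (Fin d) ℝ := P + η⁻¹ • (1 - P) with hS'
  have h1P : P * (1 - P) = 0 := by rw [mul_sub, mul_one, hPP, sub_self]
  have h2P : (1 - P) * P = 0 := by rw [sub_mul, one_mul, hPP, sub_self]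
  have h3P : (1 - P) * (1 - P) = 1 - P := by rw [mul_sub, mul_one, h2P, sub_zero]
  have hSS' : S' * S = 1 := by
    rw [hS, hS', add_mul, mul_add, mul_add, hPP, mul_smul_comm, h1P, smul_mul_assoc, h2P,
      smul_mul_smul_comm, h3P, inv_mul_cancel₀ hη.ne', smul_zero, smul_zero, one_smul, zero_add,
      add_zero, add_sub_cancel]
  have hSt : Sᵀ = S := by
    rw [hS, transpose_add, transpose_smul, transpose_sub, transpose_one, hPt]
  have hSS : S * S = P + η ^ 2 • (1 - P) := by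
    rw [hS, add_mul, mul_add, mul_add, hPP, mul_smul_comm, h1P, smul_mul_assoc, h2P,
      smul_mul_smul_comm, h3P, smul_zero, zero_add, add_zero, sq]
  have hdet : 0 < H.det := hH.det_pos
  have hHu : IsUnit H.det := isUnit_iff_ne_zero.2 hdet.ne'
  set X' : Matrix (Fin k) (Fin d) ℝ := rowMat X * S' with hX'
  have hXX : rowMat X = X' * S := by rw [hX', Matrix.mul_assoc, hSS', Matrix.mul_one]
  have hB : (S * H⁻¹ * S).PosSemidef := by
    have := LA_psd_conj hH.posSemidef.inv S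
    rwa [hSt] at this
  have h1 := det_row_bound hB X' hτ
  have e1 : X' * (S * H⁻¹ * S) * X'ᵀ = rowMat X * H⁻¹ * (rowMat X)ᵀ := by
    conv_rhs => rw [hXX, transpose_mul, hSt]
    simp only [Matrix.mul_assoc]
  have e2 : ((1 : Matrix (Fin d) (Fin d) ℝ) + τ • (S * H⁻¹ * S)).det =
      (H + τ • (P + η ^ 2 • (1 - P))).det / H.det := by
    have h2 : τ • (S * H⁻¹ * S) = S * (τ • (H⁻¹ * S)) := by
      rw [mul_smul_comm, mul_assoc]
    rw [h2, det_one_add_mul_comm, smul_mul_assoc, mul_assoc, hSS, eq_div_iff hdet.ne', mul_comm,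
      ← det_mul, mul_add, mul_one, mul_smul_comm, ← mul_assoc, mul_nonsing_inv _ hHu, one_mul]
  have e3 : ∀ l, ∑ i, X' l i ^ 2 ≤ (‖X l‖ + 1) ^ 2 := by
    intro l
    have h2 : ∀ i, X' l i = (Dᗮ.starProjection (X l) + η⁻¹ • D.starProjection (X l)).ofLp i := by
      intro i
      have h3 : X' l = (S' *ᵥ (X l).ofLp) := by
        have h4 : S'ᵀ = S' := by
          rw [hS', transpose_add, transpose_smul, transpose_sub, transpose_one, hPt]
        rw [← h4, mulVec_transpose]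
        ext j
        simp [hX', rowMat, mul_apply, vecMul, dotProduct]
      rw [h3, hS', add_mulVec, smul_mulVec, sub_mulVec, one_mulVec, hP, perpMat_mulVec,
        Submodule.starProjection_orthogonal_val]
      simp
    have h3 : ∑ i, X' l i ^ 2 =
        ‖Dᗮ.starProjection (X l) + η⁻¹ • D.starProjection (X l)‖ ^ 2 := by
      rw [EuclideanSpace.norm_sq_eq]
      refine Finset.sum_congr rfl fun i _ => ?_
      rw [h2 i, Real.norm_eq_abs, sq_abs]
    rw [h3]
    have h4 : ‖Dᗮ.starProjection (X l) + η⁻¹ • D.starProjection (X l)‖ ≤ ‖X l‖ + 1 := by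
      refine (norm_add_le _ _).trans (add_le_add ?_ ?_)
      · exact Submodule.norm_starProjection_apply_le _ _
      · rw [norm_smul, norm_inv, Real.norm_eq_abs, abs_of_pos hη, inv_mul_le_iff₀ hη, mul_one]
        exact hX l
    exact pow_le_pow_left₀ (norm_nonneg _) h4 2
  have hR : 0 ≤ ((1 : Matrix (Fin d) (Fin d) ℝ) + τ • (S * H⁻¹ * S)).det / τ ^ k :=
    div_nonneg (PosSemidef.one.add (hB.smul hτ.le)).det_nonneg (by positivity)
  have e4 : ∏ l, ∑ i, X' l i ^ 2 ≤ ∏ l, (‖X l‖ + 1) ^ 2 :=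
    Finset.prod_le_prod (fun l _ => Finset.sum_nonneg fun i _ => sq_nonneg _) fun l _ => e3 l
  rw [e1] at h1
  calc vol2 H X ≤ (∏ l, ∑ i, X' l i ^ 2) *
        (((1 : Matrix (Fin d) (Fin d) ℝ) + τ • (S * H⁻¹ * S)).det / τ ^ k) := h1
    _ ≤ (∏ l, (‖X l‖ + 1) ^ 2) *
        (((1 : Matrix (Fin d) (Fin d) ℝ) + τ • (S * H⁻¹ * S)).det / τ ^ k) :=
        mul_le_mul_of_nonneg_right e4 hR
    _ = _ := by rw [e2, div_div, mul_comm H.det]

/-- the same with `D = ⊥` and any `τ`. -/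
theorem vol2_le_one {d k : ℕ} {H : Matrix (Fin d) (Fin d) ℝ} (hH : H.PosDef)
    (X : Fin k → E d) {τ : ℝ} (hτ : 0 < τ) :
    vol2 H X ≤ (∏ l, (‖X l‖ + 1) ^ 2) *
      ((H + τ • (1 : Matrix (Fin d) (Fin d) ℝ)).det / (τ ^ k * H.det)) := by
  have h := vol2_le hH (⊥ : Submodule ℝ (E d)) X (η := 1) (τ := τ) one_pos hτ
    (fun l => by simp)
  have e : perpMat (⊥ : Submodule ℝ (E d)) + (1 : ℝ) ^ 2 • (1 - perpMat (⊥ : Submodule ℝ (E d))) =
      1 := by
    rw [one_pow, one_smul, add_sub_cancel]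
  rwa [e] at h

theorem vol2_nonneg {d k : ℕ} {H : Matrix (Fin d) (Fin d) ℝ} (hH : H.PosDef)
    (X : Fin k → E d) : 0 ≤ vol2 H X :=
  (LA_psd_conj hH.posSemidef.inv (rowMat X)).det_nonneg

theorem continuous_vol2 {d k : ℕ} (H : Matrix (Fin d) (Fin d) ℝ) :
    Continuous fun X : Fin k → E d => vol2 H X := by
  have h1 : Continuous fun X : Fin k → E d => rowMat X := by
    unfold rowMat
    refine continuous_matrix fun l i => ?_
    simp only [of_apply]
    fun_prop
  unfold vol2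
  exact ((h1.matrix_mul continuous_const).matrix_mul h1.matrix_transpose).matrix_det

/-- `H ≤ M` implies `H⁻¹ ≥ M⁻¹`. -/
theorem Proj_inv_ge {n : Type*} [Fintype n] [DecidableEq n] {H : Matrix n n ℝ} (hH : H.PosDef)
    {M : ℝ} (hM : 0 < M) (h : (M • (1 : Matrix n n ℝ) - H).PosSemidef) :
    (H⁻¹ - M⁻¹ • (1 : Matrix n n ℝ)).PosSemidef := by
  open scoped MatrixOrder in
  obtain ⟨S, hSt, hSS⟩ : ∃ S : Matrix n n ℝ, Sᵀ = S ∧ S * S = H := by
    refine ⟨CFC.sqrt H, ?_, CFC.sqrt_mul_sqrt_self H hH.posSemidef.nonneg⟩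
    have := (CFC.sqrt_nonneg H).posSemidef.isHermitian
    rwa [IsHermitian, conjTranspose_eq_transpose_of_trivial] at this
  have hSdet : S.det ≠ 0 := by
    intro h0
    have := hH.det_pos
    rw [← hSS, det_mul, h0, mul_zero] at this
    exact lt_irrefl _ this
  have hSu : IsUnit S.det := isUnit_iff_ne_zero.2 hSdet
  have e : H⁻¹ - M⁻¹ • (1 : Matrix n n ℝ) =
      M⁻¹ • (S⁻¹ * (M • (1 : Matrix n n ℝ) - H) * (S⁻¹)ᵀ) := by
    rw [transpose_nonsing_inv, hSt, mul_sub, sub_mul, smul_sub, mul_smul_comm, mul_one,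
      smul_mul_assoc, smul_smul, inv_mul_cancel₀ hM.ne', one_smul, ← Matrix.mul_inv_rev, hSS]
    congr 1
    rw [← hSS, ← mul_assoc, nonsing_inv_mul _ hSu, one_mul, mul_nonsing_inv _ hSu]
  rw [e]
  exact (LA_psd_conj h S⁻¹).smul (inv_nonneg.2 hM.le)

theorem Proj_det_one_add {d m : ℕ} {P : Matrix (Fin d) (Fin d) ℝ}
    (B : Matrix (Fin d) (Fin m) ℝ) (hB : Bᵀ * B = 1) (hP : P = 1 - B * Bᵀ) (hm : m ≤ d) {c : ℝ}
    (hc : 0 ≤ c) : ((1 : Matrix (Fin d) (Fin d) ℝ) + c • P).det = (1 + c) ^ (d - m) := by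
  have hc1 : (1 + c) ≠ 0 := by positivity
  have e1 : (1 : Matrix (Fin d) (Fin d) ℝ) + c • P =
      (1 + c) • (1 + B * ((-(c / (1 + c))) • Bᵀ)) := by
    rw [hP, Matrix.mul_smul, smul_add, smul_smul, smul_sub, add_smul, one_smul]
    have : (1 + c) * -(c / (1 + c)) = -c := by field_simp
    rw [this, neg_smul]
    abel
  rw [e1, det_smul, Fintype.card_fin, det_one_add_mul_comm, Matrix.smul_mul, hB]
  have e2 : (1 : Matrix (Fin m) (Fin m) ℝ) + -(c / (1 + c)) • (1 : Matrix (Fin m) (Fin m) ℝ) =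
      (1 + c)⁻¹ • (1 : Matrix (Fin m) (Fin m) ℝ) := by
    have : (1 + c)⁻¹ = 1 + -(c / (1 + c)) := by field_simp; ring
    rw [this, add_smul, one_smul]
  rw [e2, det_smul, Fintype.card_fin, det_one, mul_one, inv_pow]
  obtain ⟨r, rfl⟩ := Nat.exists_eq_add_of_le hm
  rw [Nat.add_sub_cancel_left, pow_add]
  field_simp

theorem pow_le_Ek {d k : ℕ} {ε : ℝ} (hε : 0 < ε) {H : Matrix (Fin d) (Fin d) ℝ} (hH : Adm ε H)
    (D : Submodule ℝ (E d)) (hD : Module.finrank ℝ D + k ≤ d) :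
    ε ^ (2 * k) ≤ Ek H (perpMat D) k := by
  have hHd := hH.posDef
  have hdet : 0 < H.det := hHd.det_pos
  have hHu : IsUnit H.det := isUnit_iff_ne_zero.2 hdet.ne'
  have hne : Nonempty (Set.Ioi (0 : ℝ)) := ⟨⟨1, Set.mem_Ioi.2 one_pos⟩⟩
  unfold Ek
  refine le_ciInf fun ⟨τ, hτ⟩ => ?_
  have hτ' : (0 : ℝ) < τ := hτ
  simp only
  have hMpos : (0 : ℝ) < (ε⁻¹) ^ 2 := by positivity
  have hinv := Proj_inv_ge hHd hMpos hH.le
  have hM : ((ε⁻¹) ^ 2)⁻¹ = ε ^ 2 := by rw [inv_pow, inv_inv]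
  rw [hM] at hinv
  set P := perpMat D with hP
  have hPP : P * P = P := perpMat_mul_self D
  have hPt : Pᵀ = P := perpMat_isSymm D
  obtain ⟨B, hB, hPB⟩ := exists_orthonormal_cols D
  have e1 : (H + τ • P).det = H.det * ((1 : Matrix (Fin d) (Fin d) ℝ) + τ • (P * H⁻¹ * P)).det := by
    have h1 : τ • (P * H⁻¹ * P) = P * (τ • (H⁻¹ * P)) := by rw [mul_smul_comm, mul_assoc]
    rw [h1, det_one_add_mul_comm, smul_mul_assoc, mul_assoc, hPP, ← det_mul, mul_add, mul_one,
      mul_smul_comm, ← mul_assoc, mul_nonsing_inv _ hHu, one_mul]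
  have e2 : ((1 : Matrix (Fin d) (Fin d) ℝ) + (τ * ε ^ 2) • P).det ≤
      ((1 : Matrix (Fin d) (Fin d) ℝ) + τ • (P * H⁻¹ * P)).det := by
    apply det_mono
    · exact PosSemidef.one.add ((perpMat_posSemidef D).smul (by positivity))
    · have h1 : (1 : Matrix (Fin d) (Fin d) ℝ) + τ • (P * H⁻¹ * P) - (1 + (τ * ε ^ 2) • P) =
          τ • (P * (H⁻¹ - ε ^ 2 • (1 : Matrix (Fin d) (Fin d) ℝ)) * Pᵀ) := by
        rw [hPt, mul_sub, sub_mul, mul_smul_comm, mul_one, smul_mul_assoc, hPP, smul_sub, smul_smul]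
        abel
      rw [h1]
      exact (LA_psd_conj hinv P).smul hτ'.le
  rw [Proj_det_one_add B hB hPB (by omega) (by positivity)] at e2
  have e3 : (τ * ε ^ 2) ^ k ≤ (1 + τ * ε ^ 2) ^ (d - Module.finrank ℝ D) := by
    have h0 : 0 ≤ τ * ε ^ 2 := by positivity
    calc (τ * ε ^ 2) ^ k ≤ (1 + τ * ε ^ 2) ^ k :=
          pow_le_pow_left₀ h0 (by linarith) k
      _ ≤ (1 + τ * ε ^ 2) ^ (d - Module.finrank ℝ D) :=
          pow_le_pow_right₀ (by linarith) (by omega)
  rw [le_div_iff₀ (by positivity), e1]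
  calc ε ^ (2 * k) * (τ ^ k * H.det) = H.det * (τ * ε ^ 2) ^ k := by
        rw [mul_pow, ← pow_mul]; ring
    _ ≤ H.det * ((1 : Matrix (Fin d) (Fin d) ℝ) + τ • (P * H⁻¹ * P)).det :=
        mul_le_mul_of_nonneg_left (e3.trans e2) hdet.le

theorem Ek_perp_pos {d k : ℕ} {H : Matrix (Fin d) (Fin d) ℝ} (hH : H.PosDef)
    (D : Submodule ℝ (E d)) (hD : Module.finrank ℝ D + k ≤ d) :
    0 < Ek H (perpMat D) k := by
  obtain ⟨C, hC⟩ := LA_exists_factor hH.posSemidef
  set s : ℝ := ∑ i, ∑ j, C i j ^ 2 with hs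
  have hs0 : 0 ≤ s := Finset.sum_nonneg fun i _ => Finset.sum_nonneg fun j _ => sq_nonneg _
  set ε : ℝ := (√(s + 1))⁻¹ with hε
  have hεpos : 0 < ε := by positivity
  have hε2 : (ε⁻¹) ^ 2 = s + 1 := by
    rw [hε, inv_inv, Real.sq_sqrt (by positivity)]
  have hAdm : Adm ε H := by
    refine ⟨hH, ?_⟩
    rw [hε2]
    refine PosSemidef.of_dotProduct_mulVec_nonneg ?_ fun x => ?_
    · exact ((isHermitian_one (n := Fin d) (α := ℝ)).smul (by simp [IsSelfAdjoint])).sub
        hH.isHermitian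
    · have h1 : x ⬝ᵥ (H *ᵥ x) = ∑ i, (∑ j, C i j * x j) ^ 2 := by
        rw [hC, ← mulVec_mulVec, dotProduct_mulVec, ← mulVec_transpose, transpose_transpose]
        simp [dotProduct, mulVec, sq]
      have h2 : ∑ i, (∑ j, C i j * x j) ^ 2 ≤ s * ∑ j, x j ^ 2 := by
        rw [hs, Finset.sum_mul]
        refine Finset.sum_le_sum fun i _ => ?_
        exact Finset.sum_mul_sq_le_sq_mul_sq _ _ _
      have h3 : 0 ≤ ∑ j, x j ^ 2 := Finset.sum_nonneg fun j _ => sq_nonneg _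
      have h4 : x ⬝ᵥ x = ∑ j, x j ^ 2 := by simp [dotProduct, sq]
      have h5 : star x = x := by simp
      rw [h5, sub_mulVec, dotProduct_sub, smul_mulVec, one_mulVec, dotProduct_smul, h1, h4,
        smul_eq_mul]
      nlinarith
  exact lt_of_lt_of_le (by positivity) (pow_le_Ek hεpos hAdm D hD)

end P309
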