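import Mathlib
import Vale.Agent.P309.Defs
import Vale.Agent.P309.GaussA
import Vale.Agent.P309.Proj

/-! P309 module BlkAe: almost surely the rows of a block are linearly independent. -/

open MeasureTheory ProbabilityTheory Metric Matrix Filter Topology
open scoped ENNReal RealInnerProductSpace

namespace P309

theorem BlkAe_submodule_null {d : ℕ} (W : Submodule ℝ (E d)) (hW : W ≠ ⊤) :
    stdGaussian (E d) (W : Set (E d)) = 0 := by
  rw [gauss_density]
  exact withDensity_absolutelyContinuous _ _ (Measure.addHaar_submodule volume W hW)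

theorem BlkAe_linInd (d : ℕ) : ∀ q : ℕ, q ≤ d → ∀ᵐ X ∂(blk q d), LinearIndependent ℝ X := by
  intro q
  induction q with
  | zero =>
    intro _
    exact ae_of_all _ fun X => linearIndependent_empty_type
  | succ q ih =>
    intro hq
    have hmeas : MeasurableSet {X : Fin (q + 1) → E d | ¬ LinearIndependent ℝ X} :=
      (isOpen_setOfPred_linearIndependent (𝕜 := ℝ) (E := E d) (ι := Fin (q + 1))).isClosed_compl.measurableSet
    have hmp := measurePreserving_piFinSuccAbove (fun _ : Fin (q + 1) => stdGaussian (E d)) 0
    rw [ae_iff]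
    unfold blk
    rw [← hmp.symm.measure_preimage hmeas.nullMeasurableSet]
    have hS := hmp.symm.measurable hmeas
    rw [Measure.prod_apply_symm hS]
    apply (lintegral_eq_zero_iff (measurable_measure_prodMk_right hS)).2
    have ih' := ih (by omega)
    unfold blk at ih'
    filter_upwards [ih'] with Y hY
    have hsub : (fun x : E d => (x, Y)) ⁻¹'
        ((MeasurableEquiv.piFinSuccAbove (fun _ : Fin (q + 1) => E d) 0).symm ⁻¹'
          {X : Fin (q + 1) → E d | ¬ LinearIndependent ℝ X}) ⊆
        (Submodule.span ℝ (Set.range Y) : Set (E d)) := by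
      intro x hx
      by_contra hxs
      apply hx
      have h1 : (MeasurableEquiv.piFinSuccAbove (fun _ : Fin (q + 1) => E d) 0).symm (x, Y) =
          Fin.cons x Y := by
        ext i
        simp [MeasurableEquiv.piFinSuccAbove]
      show LinearIndependent ℝ ((MeasurableEquiv.piFinSuccAbove
        (fun _ : Fin (q + 1) => E d) 0).symm (x, Y))
      rw [h1]
      exact linearIndependent_finCons.2 ⟨hY, hxs⟩
    refine measure_mono_null hsub (BlkAe_submodule_null _ ?_)
    intro htop
    have h1 := finrank_range_le_card (R := ℝ) Y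
    rw [Set.finrank, htop, finrank_top] at h1
    simp at h1
    omega

theorem vol2_pos {d q : ℕ} {H : Matrix (Fin d) (Fin d) ℝ} (hH : H.PosDef)
    {X : Fin q → E d} (hX : LinearIndependent ℝ X) : 0 < vol2 H X := by
  have hinj : Function.Injective (rowMat X).vecMul := by
    rw [Matrix.vecMul_injective_iff]
    have h := hX.map' (WithLp.linearEquiv 2 ℝ (Fin d → ℝ)).toLinearMap (LinearEquiv.ker _)
    exact h
  have := hH.inv.mul_mul_conjTranspose_same hinj
  rw [conjTranspose_eq_transpose_of_trivial] at this
  exact this.det_pos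

/-- almost surely `vol2 H X` is positive. -/
theorem vol2_pos_ae {d q : ℕ} (hqd : q ≤ d) {H : Matrix (Fin d) (Fin d) ℝ} (hH : H.PosDef) :
    ∀ᵐ X ∂(blk q d), 0 < vol2 H X := by
  filter_upwards [BlkAe_linInd d q hqd] with X hX
  exact vol2_pos hH hX

end P309
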