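import Mathlib

/-! P309 module LemR: the differentiation / Hölder lemma (pure measure theory). -/

open MeasureTheory Metric Filter Topology
open scoped ENNReal

namespace P309

/-- superadditivity of the lower limit for finite sums. -/
theorem LemR_sum_liminf_le {ι : Type*} [Fintype ι] (a : ι → ℕ → ℝ≥0∞) :
    ∑ j, liminf (a j) atTop ≤ liminf (fun n => ∑ j, a j n) atTop := by
  let _ : MeasurableSpace ι := ⊤
  have := lintegral_liminf_le (μ := (Measure.count : Measure ι)) (f := fun n j => a j n)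
    (u := atTop) (fun n => measurable_from_top)
  simpa [lintegral_count, tsum_fintype] using this

/-- Hölder for finite sums. -/
theorem LemR_sum_mul_le {ι : Type*} [Fintype ι] (f g : ι → ℝ≥0∞) {p q : ℝ} (hp : 0 ≤ p)
    (hq : 0 ≤ q) (hpq : p + q = 1) :
    ∑ j, f j ^ p * g j ^ q ≤ (∑ j, f j) ^ p * (∑ j, g j) ^ q := by
  let _ : MeasurableSpace ι := ⊤
  have := ENNReal.lintegral_mul_norm_pow_le (μ := (Measure.count : Measure ι))
    (f := f) (g := g) measurable_from_top.aemeasurable measurable_from_top.aemeasurable hp hq hpq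
  simpa [lintegral_count, tsum_fintype] using this

theorem LemR_measurable_ball {k : ℕ} (μ : Measure (Fin k → ℝ)) [IsFiniteMeasure μ] (r : ℝ) :
    Measurable fun Y : Fin k → ℝ => μ (closedBall Y r) := by
  have hs : MeasurableSet {p : (Fin k → ℝ) × (Fin k → ℝ) | dist p.2 p.1 ≤ r} :=
    measurableSet_le (measurable_snd.dist measurable_fst) measurable_const
  exact measurable_measure_prodMk_left hs

/-- one measure: the differentiation step. -/
theorem LemR_fatou {k : ℕ} (μ : Measure (Fin k → ℝ)) [IsFiniteMeasure μ] (q : ℕ) (r : ℕ → ℝ)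
    (hr : ∀ n, 0 < r n) (hr0 : Tendsto r atTop (𝓝 0)) :
    ∫⁻ Y, ((volume.rnDeriv μ Y)⁻¹) ^ q ∂μ ≤
      liminf (fun n => ∫⁻ Y, (μ (closedBall Y (r n)) / ENNReal.ofReal ((2 * r n) ^ k)) ^ q ∂μ)
        atTop := by
  have hlim : ∀ᵐ Y ∂μ, ((volume.rnDeriv μ Y)⁻¹) ^ q =
      liminf (fun n => (μ (closedBall Y (r n)) / ENNReal.ofReal ((2 * r n) ^ k)) ^ q) atTop := by
    filter_upwards [Besicovitch.ae_tendsto_rnDeriv (volume : Measure (Fin k → ℝ)) μ] with Y hY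
    have hr' : Tendsto r atTop (𝓝[>] 0) :=
      tendsto_nhdsWithin_iff.2 ⟨hr0, Eventually.of_forall fun n => hr n⟩
    have h1 := hY.comp hr'
    have h2 := (continuous_inv (G := ℝ≥0∞)).continuousAt.tendsto.comp h1
    have h3 := ((ENNReal.continuous_pow q).tendsto _).comp h2
    refine (Tendsto.liminf_eq ?_).symm
    refine h3.congr fun n => ?_
    simp only [Function.comp_apply]
    rw [Real.volume_pi_closedBall Y (hr n).le, Fintype.card_fin]
    congr 1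
    have hpos : 0 < (2 * r n) ^ k := by have := hr n; positivity
    rw [ENNReal.inv_div]
    · left; exact measure_ne_top _ _
    · right; simpa using hpos
  rw [lintegral_congr_ae hlim]
  refine lintegral_liminf_le fun n => ?_
  exact ((LemR_measurable_ball μ (r n)).div_const _).pow_const q

theorem LemR_pointwise {x h : ℝ≥0∞} (h0 : h ≠ 0) (ht : h ≠ ⊤) (q : ℕ) :
    x = (x * h) ^ ((q : ℝ) / (q + 1)) * (x * (h⁻¹) ^ q) ^ ((1 : ℝ) / (q + 1)) := by
  have hq1 : (0 : ℝ) < (q : ℝ) + 1 := by positivity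
  rw [ENNReal.mul_rpow_of_nonneg _ _ (by positivity), ENNReal.mul_rpow_of_nonneg _ _ (by positivity),
    ← ENNReal.rpow_natCast, ← ENNReal.rpow_mul]
  have h1 : (q : ℝ) * (1 / (q + 1)) = (q : ℝ) / (q + 1) := by ring
  rw [h1]
  have h2 : x ^ ((q : ℝ) / (q + 1)) * h ^ ((q : ℝ) / (q + 1)) *
      (x ^ ((1 : ℝ) / (q + 1)) * (h⁻¹) ^ ((q : ℝ) / (q + 1))) =
      (x ^ ((q : ℝ) / (q + 1)) * x ^ ((1 : ℝ) / (q + 1))) *
        (h ^ ((q : ℝ) / (q + 1)) * (h⁻¹) ^ ((q : ℝ) / (q + 1))) := by ring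
  rw [h2, ← ENNReal.rpow_add_of_nonneg _ _ (by positivity) (by positivity),
    ← ENNReal.mul_rpow_of_nonneg _ _ (by positivity), ENNReal.mul_inv_cancel h0 ht,
    ENNReal.one_rpow, mul_one]
  have h3 : (q : ℝ) / (q + 1) + 1 / (q + 1) = 1 := by field_simp
  rw [h3, ENNReal.rpow_one]

/-- the lemma with an upper bound `V ≠ 0` of the volume of `K`. -/
theorem lemR' {k : ℕ} {ι : Type*} [Fintype ι] {K : Set (Fin k → ℝ)} (hK : MeasurableSet K)
    {V : ℝ≥0∞} (hKV : volume K ≤ V) (hV0 : V ≠ 0)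
    (m : ι → Measure (Fin k → ℝ)) [∀ j, IsFiniteMeasure (m j)] (hmK : ∀ j, m j Kᶜ = 0)
    (φ : ι → (Fin k → ℝ) → ℝ≥0∞) (hφ : ∀ j, Measurable (φ j)) (hsum : ∀ Y, ∑ j, φ j Y ≤ 1)
    (q : ℕ) (r : ℕ → ℝ) (hr : ∀ n, 0 < r n) (hr0 : Tendsto r atTop (𝓝 0)) :
    (∑ j, ∫⁻ Y, φ j Y ∂(m j)) ^ (q + 1) ≤
      V ^ q * liminf (fun n => ∑ j, ∫⁻ Y,
        (m j (closedBall Y (r n)) / ENNReal.ofReal ((2 * r n) ^ k)) ^ q ∂(m j)) atTop := by
  have hq1 : (0 : ℝ) < (q : ℝ) + 1 := by positivity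
  have hφ1 : ∀ j Y, φ j Y ≤ 1 := fun j Y =>
    (Finset.single_le_sum (f := fun j => φ j Y) (fun _ _ => bot_le) (Finset.mem_univ j)).trans
      (hsum Y)
  set h : ι → (Fin k → ℝ) → ℝ≥0∞ := fun j => volume.rnDeriv (m j) with hh
  have hhm : ∀ j, Measurable (h j) := fun j => Measure.measurable_rnDeriv _ _
  -- the lower limit dominates the sum of the integrals
  have hB : ∑ j, ∫⁻ Y, ((h j Y)⁻¹) ^ q ∂(m j) ≤
      liminf (fun n => ∑ j, ∫⁻ Y,
        (m j (closedBall Y (r n)) / ENNReal.ofReal ((2 * r n) ^ k)) ^ q ∂(m j)) atTop := by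
    calc ∑ j, ∫⁻ Y, ((h j Y)⁻¹) ^ q ∂(m j)
        ≤ ∑ j, liminf (fun n => ∫⁻ Y,
          (m j (closedBall Y (r n)) / ENNReal.ofReal ((2 * r n) ^ k)) ^ q ∂(m j)) atTop :=
          Finset.sum_le_sum fun j _ => LemR_fatou (m j) q r hr hr0
      _ ≤ _ := LemR_sum_liminf_le _
  refine le_trans ?_ (mul_le_mul_right hB _)
  by_cases hfin : ∑ j, ∫⁻ Y, ((h j Y)⁻¹) ^ q ∂(m j) = ⊤
  · rw [hfin, ENNReal.mul_top (pow_ne_zero _ hV0)]
    exact le_top
  · rcases Nat.eq_zero_or_pos q with rfl | hq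
    · simp only [zero_add, pow_one, pow_zero, one_mul, lintegral_const]
      refine Finset.sum_le_sum fun j _ => ?_
      calc ∫⁻ Y, φ j Y ∂(m j) ≤ ∫⁻ Y, 1 ∂(m j) := lintegral_mono fun Y => hφ1 j Y
        _ = _ := by simp
    -- positivity of the densities
    have hpos : ∀ j, ∀ᵐ Y ∂(m j), h j Y ≠ 0 := by
      intro j
      have h1 : ∫⁻ Y, ((h j Y)⁻¹) ^ q ∂(m j) ≠ ⊤ := by
        intro htop
        apply hfin
        exact ENNReal.sum_eq_top.2 ⟨j, Finset.mem_univ j, htop⟩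
      have h2 := ae_lt_top ((hhm j).inv.pow_const q) h1
      filter_upwards [h2] with Y hY hY0
      rw [Pi.inv_apply, hY0, ENNReal.inv_zero, ENNReal.top_pow hq.ne'] at hY
      exact lt_irrefl _ hY
    have hltt : ∀ j, ∀ᵐ Y ∂(m j), h j Y ≠ ⊤ := fun j =>
      (Measure.rnDeriv_lt_top (volume : Measure (Fin k → ℝ)) (m j)).mono fun Y hY => hY.ne
    have hA : ∑ j, ∫⁻ Y, φ j Y * h j Y ∂(m j) ≤ V := by
      have h1 : ∀ j, ∫⁻ Y, φ j Y * h j Y ∂(m j) ≤ ∫⁻ Y in K, φ j Y := by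
        intro j
        have hres : (m j).restrict K = m j := by
          apply Measure.restrict_eq_self_of_ae_mem
          rw [ae_iff]
          exact hmK j
        calc ∫⁻ Y, φ j Y * h j Y ∂(m j) = ∫⁻ Y in K, φ j Y * h j Y ∂(m j) := by rw [hres]
          _ = ∫⁻ Y in K, (h j * φ j) Y ∂(m j) := by
              refine lintegral_congr fun Y => ?_
              simp only [Pi.mul_apply]
              rw [mul_comm]
          _ = ∫⁻ Y in K, φ j Y ∂((m j).withDensity (h j)) := by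
              rw [setLIntegral_withDensity_eq_setLIntegral_mul _ (hhm j) (hφ j) hK]
          _ ≤ ∫⁻ Y in K, φ j Y := by
              apply lintegral_mono' _ le_rfl
              exact Measure.restrict_mono_measure (Measure.withDensity_rnDeriv_le _ _) K
      calc ∑ j, ∫⁻ Y, φ j Y * h j Y ∂(m j) ≤ ∑ j, ∫⁻ Y in K, φ j Y :=
            Finset.sum_le_sum fun j _ => h1 j
        _ = ∫⁻ Y in K, ∑ j, φ j Y := by
            rw [lintegral_finsetSum _ fun j _ => hφ j]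
        _ ≤ ∫⁻ Y in K, 1 := lintegral_mono fun Y => hsum Y
        _ = volume K := by simp
        _ ≤ V := hKV
    have hBle : ∑ j, ∫⁻ Y, φ j Y * ((h j Y)⁻¹) ^ q ∂(m j) ≤
        ∑ j, ∫⁻ Y, ((h j Y)⁻¹) ^ q ∂(m j) := by
      refine Finset.sum_le_sum fun j _ => lintegral_mono fun Y => ?_
      calc φ j Y * ((h j Y)⁻¹) ^ q ≤ 1 * ((h j Y)⁻¹) ^ q := by gcongr; exact hφ1 j Y
        _ = _ := one_mul _
    have hS : ∑ j, ∫⁻ Y, φ j Y ∂(m j) ≤
        (∑ j, ∫⁻ Y, φ j Y * h j Y ∂(m j)) ^ ((q : ℝ) / (q + 1)) *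
          (∑ j, ∫⁻ Y, φ j Y * ((h j Y)⁻¹) ^ q ∂(m j)) ^ ((1 : ℝ) / (q + 1)) := by
      have h3 : (q : ℝ) / (q + 1) + 1 / (q + 1) = 1 := by field_simp
      refine le_trans (Finset.sum_le_sum fun j _ => ?_)
        (LemR_sum_mul_le _ _ (by positivity) (by positivity) h3)
      calc ∫⁻ Y, φ j Y ∂(m j)
          = ∫⁻ Y, (φ j Y * h j Y) ^ ((q : ℝ) / (q + 1)) *
              (φ j Y * ((h j Y)⁻¹) ^ q) ^ ((1 : ℝ) / (q + 1)) ∂(m j) := by
            refine lintegral_congr_ae ?_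
            filter_upwards [hpos j, hltt j] with Y h0 ht
            exact LemR_pointwise h0 ht q
        _ ≤ _ := ENNReal.lintegral_mul_norm_pow_le ((hφ j).mul (hhm j)).aemeasurable
            ((hφ j).mul ((hhm j).inv.pow_const q)).aemeasurable (by positivity) (by positivity) h3
    have hS2 : ∑ j, ∫⁻ Y, φ j Y ∂(m j) ≤
        V ^ ((q : ℝ) / (q + 1)) *
          (∑ j, ∫⁻ Y, ((h j Y)⁻¹) ^ q ∂(m j)) ^ ((1 : ℝ) / (q + 1)) :=
      hS.trans (mul_le_mul' (ENNReal.rpow_le_rpow hA (by positivity))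
        (ENNReal.rpow_le_rpow hBle (by positivity)))
    calc (∑ j, ∫⁻ Y, φ j Y ∂(m j)) ^ (q + 1)
        ≤ (V ^ ((q : ℝ) / (q + 1)) *
          (∑ j, ∫⁻ Y, ((h j Y)⁻¹) ^ q ∂(m j)) ^ ((1 : ℝ) / (q + 1))) ^ (q + 1) := by
          gcongr
      _ = V ^ q * ∑ j, ∫⁻ Y, ((h j Y)⁻¹) ^ q ∂(m j) := by
          rw [mul_pow, ← ENNReal.rpow_natCast, ← ENNReal.rpow_natCast, ← ENNReal.rpow_mul,
            ← ENNReal.rpow_mul]
          have e1 : (q : ℝ) / (q + 1) * ((q + 1 : ℕ) : ℝ) = (q : ℝ) := by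
            push_cast; field_simp
          have e2 : (1 : ℝ) / (q + 1) * ((q + 1 : ℕ) : ℝ) = 1 := by
            push_cast; field_simp
          rw [e1, e2, ENNReal.rpow_natCast, ENNReal.rpow_one]

theorem lemR {k : ℕ} {ι : Type*} [Fintype ι] {K : Set (Fin k → ℝ)} (hK : MeasurableSet K)
    (hK0 : volume K ≠ 0)
    (m : ι → Measure (Fin k → ℝ)) [∀ j, IsFiniteMeasure (m j)] (hmK : ∀ j, m j Kᶜ = 0)
    (φ : ι → (Fin k → ℝ) → ℝ≥0∞) (hφ : ∀ j, Measurable (φ j)) (hsum : ∀ Y, ∑ j, φ j Y ≤ 1)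
    (q : ℕ) (r : ℕ → ℝ) (hr : ∀ n, 0 < r n) (hr0 : Tendsto r atTop (𝓝 0)) :
    (∑ j, ∫⁻ Y, φ j Y ∂(m j)) ^ (q + 1) ≤
      volume K ^ q * liminf (fun n => ∑ j, ∫⁻ Y,
        (m j (closedBall Y (r n)) / ENNReal.ofReal ((2 * r n) ^ k)) ^ q ∂(m j)) atTop :=
  lemR' hK le_rfl hK0 m hmK φ hφ hsum q r hr hr0

end P309
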