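import Mathlib
import Vale.Agent.P309.Defs
import Vale.Agent.P309.GaussA

/-! P309 module Gauss, part B: slicing. -/

open MeasureTheory ProbabilityTheory Metric Matrix Filter Topology
open scoped ENNReal RealInnerProductSpace

namespace P309

theorem Gauss_int_line (b : ℝ) (hb : 0 < b) :
    ∫⁻ t : ℝ, ENNReal.ofReal (Real.exp (-b * t ^ 2)) = ENNReal.ofReal √(Real.pi / b) := by
  rw [← integral_gaussian b, ofReal_integral_eq_lintegral_ofReal (integrable_exp_neg_mul_sq hb)
    (ae_of_all _ fun x => (Real.exp_pos _).le)]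

/-- the part of the density orthogonal to `e`. -/
noncomputable def gperp {d : ℕ} (b : ℝ) (e : E d) (x : E d) : ℝ :=
  (√(Real.pi / b))⁻¹ ^ d * Real.exp (-b * (‖x‖ ^ 2 - ⟪x, e⟫ ^ 2))

theorem gdens_eq {d : ℕ} (b : ℝ) (e x : E d) :
    gdens d b x = gperp b e x * Real.exp (-b * ⟪x, e⟫ ^ 2) := by
  unfold gdens gperp
  rw [mul_assoc, ← Real.exp_add]
  congr 2
  ring

theorem gperp_inv {d : ℕ} (b : ℝ) {e : E d} (he : ‖e‖ = 1) (x : E d) (t : ℝ) :
    gperp b e (x + t • e) = gperp b e x := by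
  unfold gperp
  have h1 : ‖x + t • e‖ ^ 2 = ‖x‖ ^ 2 + 2 * t * ⟪x, e⟫ + t ^ 2 := by
    rw [norm_add_sq_real, norm_smul, he, real_inner_smul_right]
    simp only [Real.norm_eq_abs, mul_one, sq_abs]
    ring
  have h2 : ⟪x + t • e, e⟫ = ⟪x, e⟫ + t := by
    rw [inner_add_left, real_inner_smul_left, real_inner_self_eq_norm_sq, he]
    ring
  rw [h1, h2]
  congr 2
  ring

theorem measurable_gperp {d : ℕ} (b : ℝ) (e : E d) : Measurable (gperp b e) := by
  unfold gperp; fun_prop

/-- slicing along a unit vector. -/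
theorem Gauss_slice {d : ℕ} {e : E d} (he : ‖e‖ = 1) {b : ℝ} (hb : 0 < b)
    (hb' : 1 ≤ √(Real.pi / b))
    {h : E d → ℝ≥0∞} (hm : Measurable h) (hinv : ∀ x (t : ℝ), h (x + t • e) = h x)
    {B : Set (E d)} (hB : MeasurableSet B) {L : ℝ≥0∞}
    (hL : ∀ x, (volume : Measure ℝ) {t : ℝ | x + t • e ∈ B} ≤ L) :
    ∫⁻ x, ENNReal.ofReal (gdens d b x) * (h x * B.indicator 1 x) ≤
      (∫⁻ x, ENNReal.ofReal (gdens d b x) * h x) * L := by
  set φ : ℝ → ℝ≥0∞ := fun t => ENNReal.ofReal (Real.exp (-b * t ^ 2)) with hφ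
  have hφm : Measurable φ := by rw [hφ]; fun_prop
  set K : E d → ℝ≥0∞ := fun x => ENNReal.ofReal (gperp b e x) * h x with hK
  have hKm : Measurable K := (measurable_gperp b e).ennreal_ofReal.mul hm
  have hKinv : ∀ x (t : ℝ), K (x + t • e) = K x := by
    intro x t; simp only [hK]; rw [gperp_inv b he, hinv]
  have hBm : Measurable (B.indicator (1 : E d → ℝ≥0∞)) := measurable_one.indicator hB
  have hφ1 : ∀ t, φ t ≤ 1 := by
    intro t
    simp only [hφ]
    rw [← ENNReal.ofReal_one]
    apply ENNReal.ofReal_le_ofReal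
    rw [← Real.exp_zero]
    apply Real.exp_le_exp.2
    nlinarith [sq_nonneg t]
  have hgd : ∀ x, ENNReal.ofReal (gdens d b x) = ENNReal.ofReal (gperp b e x) * φ ⟪x, e⟫ := by
    intro x
    rw [gdens_eq b e x, ENNReal.ofReal_mul (by unfold gperp; positivity)]
  have hint : ∀ x : E d, 1 ≤ ∫⁻ t : ℝ, φ (⟪x, e⟫ - t) := by
    intro x
    rw [lintegral_sub_left_eq_self, Gauss_int_line b hb, ← ENNReal.ofReal_one]
    exact ENNReal.ofReal_le_ofReal hb'
  have hinn : Measurable fun x : E d => ⟪x, e⟫ := by fun_prop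
  calc ∫⁻ x, ENNReal.ofReal (gdens d b x) * (h x * B.indicator 1 x)
      ≤ ∫⁻ x, K x * B.indicator 1 x := by
        refine lintegral_mono fun x => ?_
        rw [hgd x]
        simp only [hK]
        calc ENNReal.ofReal (gperp b e x) * φ ⟪x, e⟫ * (h x * B.indicator 1 x)
            ≤ ENNReal.ofReal (gperp b e x) * 1 * (h x * B.indicator 1 x) := by
              gcongr; exact hφ1 _
          _ = _ := by ring
    _ ≤ ∫⁻ x, ∫⁻ t : ℝ, K x * B.indicator 1 x * φ (⟪x, e⟫ - t) := by
        refine lintegral_mono fun x => ?_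
        simp only
        rw [lintegral_const_mul _ (by fun_prop)]
        calc K x * B.indicator 1 x = K x * B.indicator 1 x * 1 := by ring
          _ ≤ _ := by gcongr; exact hint x
    _ = ∫⁻ t : ℝ, ∫⁻ x, K x * B.indicator 1 x * φ (⟪x, e⟫ - t) := by
        rw [lintegral_lintegral_swap]
        apply Measurable.aemeasurable
        apply Measurable.mul
        · exact (hKm.comp measurable_fst).mul (hBm.comp measurable_fst)
        · exact hφm.comp ((hinn.comp measurable_fst).sub measurable_snd)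
    _ = ∫⁻ t : ℝ, ∫⁻ x, K x * φ ⟪x, e⟫ * B.indicator 1 (x + t • e) := by
        refine lintegral_congr fun t => ?_
        rw [← lintegral_add_right_eq_self _ (t • e)]
        refine lintegral_congr fun x => ?_
        rw [hKinv]
        have : ⟪x + t • e, e⟫ - t = ⟪x, e⟫ := by
          rw [inner_add_left, real_inner_smul_left, real_inner_self_eq_norm_sq, he]
          ring
        rw [this]
        ring
    _ = ∫⁻ x, ∫⁻ t : ℝ, K x * φ ⟪x, e⟫ * B.indicator 1 (x + t • e) := by
        rw [lintegral_lintegral_swap]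
        apply Measurable.aemeasurable
        apply Measurable.mul
        · exact (hKm.comp measurable_snd).mul (hφm.comp (hinn.comp measurable_snd))
        · exact hBm.comp (measurable_snd.add (measurable_fst.smul_const e))
    _ ≤ ∫⁻ x, K x * φ ⟪x, e⟫ * L := by
        refine lintegral_mono fun x => ?_
        simp only
        have hm2 : Measurable fun t : ℝ => x + t • e := by fun_prop
        have hm3 : Measurable fun t : ℝ => B.indicator (1 : E d → ℝ≥0∞) (x + t • e) :=
          hBm.comp hm2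
        rw [lintegral_const_mul _ hm3]
        gcongr
        calc ∫⁻ t : ℝ, B.indicator 1 (x + t • e)
            = ∫⁻ t : ℝ, Set.indicator {t : ℝ | x + t • e ∈ B} 1 t := by
              refine lintegral_congr fun t => ?_
              by_cases ht : x + t • e ∈ B
              · rw [Set.indicator_of_mem ht, Set.indicator_of_mem (show t ∈ {t : ℝ | x + t • e ∈ B} from ht)]
                rfl
              · rw [Set.indicator_of_notMem ht, Set.indicator_of_notMem (show t ∉ {t : ℝ | x + t • e ∈ B} from ht)]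
          _ = volume {t : ℝ | x + t • e ∈ B} := by
              rw [lintegral_indicator_one]
              exact hm2 hB
          _ ≤ L := hL x
    _ = (∫⁻ x, ENNReal.ofReal (gdens d b x) * h x) * L := by
        have hm4 : Measurable fun x : E d => K x * φ ⟪x, e⟫ := hKm.mul (hφm.comp hinn)
        rw [lintegral_mul_const _ hm4]
        congr 1
        refine lintegral_congr fun x => ?_
        rw [hgd x]
        simp only [hK]
        ring

theorem Gauss_Dlt_castSucc {d q : ℕ} (δ : Fin (q + 1) → E d) (i : Fin q) :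
    Dlt (fun j : Fin q => δ j.castSucc) i = Dlt δ i.castSucc := by
  unfold Dlt
  congr 1
  ext x
  constructor
  · rintro ⟨j, hj, rfl⟩
    exact ⟨j.castSucc, by simpa using hj, rfl⟩
  · rintro ⟨j, hj, rfl⟩
    have hj' : j < i.castSucc := hj
    have hjq : (j : ℕ) < q := lt_trans (Fin.lt_def.1 hj') i.2
    refine ⟨⟨j, hjq⟩, ?_, ?_⟩
    · exact Fin.lt_def.2 (Fin.lt_def.1 hj')
    · rfl

theorem Gauss_dst_castSucc {d q : ℕ} (δ : Fin (q + 1) → E d) (i : Fin q) :
    dst (fun j : Fin q => δ j.castSucc) i = dst δ i.castSucc := by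
  unfold dst
  simp only [Gauss_Dlt_castSucc]

theorem Gauss_vol_slab {a s r : ℝ} (hs : 0 < s) :
    (volume : Measure ℝ) {t : ℝ | |a + t * s| ≤ r} ≤
      ENNReal.ofReal (2 * r) / ENNReal.ofReal s := by
  have : {t : ℝ | |a + t * s| ≤ r} ⊆ Set.Icc ((-r - a) / s) ((r - a) / s) := by
    intro t ht
    have ht' : |a + t * s| ≤ r := ht
    rw [abs_le] at ht'
    constructor
    · rw [div_le_iff₀ hs]; linarith [ht'.1]
    · rw [le_div_iff₀ hs]; linarith [ht'.2]
  refine (measure_mono this).trans ?_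
  rw [Real.volume_Icc, ← ENNReal.ofReal_div_of_pos hs]
  apply le_of_eq
  congr 1
  ring

theorem Gauss_slab_aux {d : ℕ} {b : ℝ} (hb : 0 < b) (hb' : 1 ≤ √(Real.pi / b))
    {r : ℝ} : ∀ (q : ℕ) (δ : Fin q → E d), (∀ i, dst δ i ≠ 0) →
    ∫⁻ x, ENNReal.ofReal (gdens d b x) * Set.indicator {x : E d | ∀ i, |⟪x, δ i⟫| ≤ r} 1 x ≤
      ∏ i, (ENNReal.ofReal (2 * r) / ENNReal.ofReal (dst δ i)) := by
  intro q
  induction q with
  | zero =>
    intro δ _
    simp only [IsEmpty.forall_iff, Set.ofPred_true, Set.indicator_univ, Pi.one_apply, mul_one,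
      Finset.univ_eq_empty, Finset.prod_empty]
    exact (lintegral_gdens d b hb).le
  | succ q ih =>
    intro δ hδ
    rw [Fin.prod_univ_castSucc]
    set w : E d := (Dlt δ (Fin.last q))ᗮ.starProjection (δ (Fin.last q)) with hw
    have hwn : ‖w‖ = dst δ (Fin.last q) := rfl
    have hw0 : ‖w‖ ≠ 0 := by rw [hwn]; exact hδ _
    have hwpos : 0 < ‖w‖ := lt_of_le_of_ne (norm_nonneg _) (Ne.symm hw0)
    set e : E d := ‖w‖⁻¹ • w with he
    have he1 : ‖e‖ = 1 := by
      rw [he, norm_smul, norm_inv, norm_norm, inv_mul_cancel₀ hw0]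
    have hwD : w ∈ (Dlt δ (Fin.last q))ᗮ := Submodule.starProjection_apply_mem _ _
    have heδ : ∀ j : Fin q, ⟪e, δ j.castSucc⟫ = 0 := by
      intro j
      have hmem : δ j.castSucc ∈ Dlt δ (Fin.last q) :=
        Submodule.subset_span ⟨j.castSucc, Fin.castSucc_lt_last j, rfl⟩
      have : ⟪w, δ j.castSucc⟫ = 0 := (Submodule.mem_orthogonal' _ _).1 hwD _ hmem
      rw [he, real_inner_smul_left, this, mul_zero]
    have heq : ⟪e, δ (Fin.last q)⟫ = ‖w‖ := by
      have h1 : ⟪w, δ (Fin.last q)⟫ = ‖w‖ ^ 2 := by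
        have h2 : ⟪w, δ (Fin.last q) - w⟫ = 0 := by
          have := Submodule.starProjection_inner_eq_zero (K := (Dlt δ (Fin.last q))ᗮ)
            (δ (Fin.last q)) w hwD
          rw [real_inner_comm]; exact this
        rw [inner_sub_right, real_inner_self_eq_norm_sq] at h2
        linarith
      rw [he, real_inner_smul_left, h1]
      field_simp
    have hA : MeasurableSet {x : E d | ∀ i : Fin q, |⟪x, δ i.castSucc⟫| ≤ r} := by
      have : {x : E d | ∀ i : Fin q, |⟪x, δ i.castSucc⟫| ≤ r} =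
          ⋂ i : Fin q, {x : E d | |⟪x, δ i.castSucc⟫| ≤ r} := by ext x; simp
      rw [this]
      exact MeasurableSet.iInter fun i =>
        measurableSet_le (by fun_prop) measurable_const
    have hB : MeasurableSet {x : E d | |⟪x, δ (Fin.last q)⟫| ≤ r} :=
      measurableSet_le (by fun_prop) measurable_const
    have hsplit : ∀ x : E d, Set.indicator {x : E d | ∀ i, |⟪x, δ i⟫| ≤ r} (1 : E d → ℝ≥0∞) x =
        Set.indicator {x : E d | ∀ i : Fin q, |⟪x, δ i.castSucc⟫| ≤ r} (1 : E d → ℝ≥0∞) x *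
        Set.indicator {x : E d | |⟪x, δ (Fin.last q)⟫| ≤ r} (1 : E d → ℝ≥0∞) x := by
      intro x
      have hiff : (x ∈ {x : E d | ∀ i, |⟪x, δ i⟫| ≤ r}) ↔
          (x ∈ {x : E d | ∀ i : Fin q, |⟪x, δ i.castSucc⟫| ≤ r} ∧
            x ∈ {x : E d | |⟪x, δ (Fin.last q)⟫| ≤ r}) := by
        simp only [Set.mem_ofPred_eq]
        exact Fin.forall_fin_succ'
      by_cases h1 : x ∈ {x : E d | ∀ i : Fin q, |⟪x, δ i.castSucc⟫| ≤ r}
      · by_cases h2 : x ∈ {x : E d | |⟪x, δ (Fin.last q)⟫| ≤ r}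
        · rw [Set.indicator_of_mem (hiff.2 ⟨h1, h2⟩), Set.indicator_of_mem h1,
            Set.indicator_of_mem h2]
          simp
        · rw [Set.indicator_of_notMem (fun h => h2 (hiff.1 h).2), Set.indicator_of_notMem h2]
          simp
      · rw [Set.indicator_of_notMem (fun h => h1 (hiff.1 h).1), Set.indicator_of_notMem h1]
        simp
    simp_rw [hsplit]
    have hinv : ∀ (x : E d) (t : ℝ),
        Set.indicator {x : E d | ∀ i : Fin q, |⟪x, δ i.castSucc⟫| ≤ r} (1 : E d → ℝ≥0∞)
          (x + t • e) =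
        Set.indicator {x : E d | ∀ i : Fin q, |⟪x, δ i.castSucc⟫| ≤ r} (1 : E d → ℝ≥0∞) x := by
      intro x t
      have hiff : (x + t • e ∈ {x : E d | ∀ i : Fin q, |⟪x, δ i.castSucc⟫| ≤ r}) ↔
          (x ∈ {x : E d | ∀ i : Fin q, |⟪x, δ i.castSucc⟫| ≤ r}) := by
        simp only [Set.mem_ofPred_eq]
        refine forall_congr' fun i => ?_
        rw [inner_add_left, real_inner_smul_left, heδ i, mul_zero, add_zero]
      by_cases h1 : x ∈ {x : E d | ∀ i : Fin q, |⟪x, δ i.castSucc⟫| ≤ r}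
      · rw [Set.indicator_of_mem h1, Set.indicator_of_mem (hiff.2 h1)]; rfl
      · rw [Set.indicator_of_notMem h1, Set.indicator_of_notMem (fun h => h1 (hiff.1 h))]
    refine (Gauss_slice he1 hb hb' (measurable_one.indicator hA) hinv hB
      (L := ENNReal.ofReal (2 * r) / ENNReal.ofReal (dst δ (Fin.last q))) ?_).trans ?_
    · intro x
      rw [← hwn]
      have : {t : ℝ | x + t • e ∈ {x : E d | |⟪x, δ (Fin.last q)⟫| ≤ r}} =
          {t : ℝ | |⟪x, δ (Fin.last q)⟫ + t * ‖w‖| ≤ r} := by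
        ext t
        simp only [Set.mem_ofPred_eq]
        rw [inner_add_left, real_inner_smul_left, heq]
      rw [this]
      exact Gauss_vol_slab hwpos
    · gcongr
      have := ih (fun j : Fin q => δ j.castSucc) (fun i => by
        rw [Gauss_dst_castSucc]; exact hδ _)
      simp_rw [Gauss_dst_castSucc] at this
      exact this

end P309
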