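import Mathlib
import Vale.Agent.P309.Defs
import Vale.Agent.P309.GaussA
import Vale.Agent.P309.GaussB

/-! P309 module Gauss: the Gaussian row bound. -/

open MeasureTheory ProbabilityTheory Metric Matrix Filter Topology
open scoped ENNReal RealInnerProductSpace

namespace P309

/-- `(u+1)^q ≤ (2√q)^q e^{u²/4}`. -/
theorem pow_le_exp {q : ℕ} (hq : 0 < q) {u : ℝ} (hu : 0 ≤ u) :
    (u + 1) ^ q ≤ (2 * √(q : ℝ)) ^ q * Real.exp (u ^ 2 / 4) :=
  Gauss_pow_le_exp hq hu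

theorem Gauss_tilt (d : ℕ) (x : E d) :
    gdens d (1 / 2) x * Real.exp (‖x‖ ^ 2 / 4) = √2 ^ d * gdens d (1 / 4) x := by
  unfold gdens
  have h1 : √(Real.pi / (1 / 4)) = √2 * √(Real.pi / (1 / 2)) := by
    rw [← Real.sqrt_mul (by norm_num)]
    congr 1
    ring
  have h2 : 0 < √(Real.pi / (1 / 2)) := Real.sqrt_pos.2 (by positivity)
  have h3 : 0 < √(2 : ℝ) := by positivity
  have h4 : √2 ^ d * (√(Real.pi / (1 / 4)))⁻¹ ^ d = (√(Real.pi / (1 / 2)))⁻¹ ^ d := by
    rw [← mul_pow, h1, mul_inv, ← mul_assoc, mul_inv_cancel₀ h3.ne', one_mul]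
  rw [← mul_assoc, h4, mul_assoc, ← Real.exp_add]
  congr 2
  ring

theorem Gauss_measurableSet_slab {d q : ℕ} (δ : Fin q → E d) (r : ℝ) :
    MeasurableSet {x : E d | ∀ i, |⟪x, δ i⟫| ≤ r} := by
  have : {x : E d | ∀ i, |⟪x, δ i⟫| ≤ r} = ⋂ i, {x : E d | |⟪x, δ i⟫| ≤ r} := by
    ext x; simp
  rw [this]
  exact MeasurableSet.iInter fun i => measurableSet_le (by fun_prop) measurable_const

/-- slab probabilities under the tilted Gaussian. -/
theorem gauss_slab {d q : ℕ} (δ : Fin q → E d) {r : ℝ} (hr : 0 < r) :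
    ∫⁻ x, ENNReal.ofReal (Real.exp (‖x‖ ^ 2 / 4)) *
        Set.indicator {x : E d | ∀ i, |⟪x, δ i⟫| ≤ r} 1 x ∂(stdGaussian (E d)) ≤
      ENNReal.ofReal (√2 ^ d) *
        ∏ i, (ENNReal.ofReal (2 * r) / ENNReal.ofReal (dst δ i)) := by
  by_cases hδ : ∀ i, dst δ i ≠ 0
  · have hb : 1 ≤ √(Real.pi / (1 / 4)) := by
      rw [show (1 : ℝ) = √1 by simp]
      apply Real.sqrt_le_sqrt
      nlinarith [Real.pi_gt_three]
    have hm := Gauss_measurableSet_slab δ r
    have key := Gauss_slab_aux (d := d) (b := 1 / 4) (by norm_num) hb (r := r) q δ hδ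
    have hm2 : Measurable fun x : E d => ENNReal.ofReal (Real.exp (‖x‖ ^ 2 / 4)) *
        Set.indicator {x : E d | ∀ i, |⟪x, δ i⟫| ≤ r} (1 : E d → ℝ≥0∞) x :=
      Measurable.mul (by fun_prop) (measurable_one.indicator hm)
    have hm3 : Measurable fun x : E d => ENNReal.ofReal (gdens d (1 / 4) x) *
        Set.indicator {x : E d | ∀ i, |⟪x, δ i⟫| ≤ r} (1 : E d → ℝ≥0∞) x :=
      (measurable_gdens d _).ennreal_ofReal.mul (measurable_one.indicator hm)
    rw [gauss_density, lintegral_withDensity_eq_lintegral_mul _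
      (measurable_gdens d _).ennreal_ofReal hm2]
    calc ∫⁻ x, ((fun x : E d => ENNReal.ofReal (gdens d (1 / 2) x)) *
          fun x => ENNReal.ofReal (Real.exp (‖x‖ ^ 2 / 4)) *
            Set.indicator {x : E d | ∀ i, |⟪x, δ i⟫| ≤ r} 1 x) x
        = ∫⁻ x, ENNReal.ofReal (√2 ^ d) * (ENNReal.ofReal (gdens d (1 / 4) x) *
            Set.indicator {x : E d | ∀ i, |⟪x, δ i⟫| ≤ r} 1 x) := by
          refine lintegral_congr fun x => ?_
          simp only [Pi.mul_apply]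
          rw [← mul_assoc, ← mul_assoc, ← ENNReal.ofReal_mul (gdens_nonneg _ _ _),
            ← ENNReal.ofReal_mul (by positivity), Gauss_tilt]
      _ = ENNReal.ofReal (√2 ^ d) * ∫⁻ x, (ENNReal.ofReal (gdens d (1 / 4) x) *
            Set.indicator {x : E d | ∀ i, |⟪x, δ i⟫| ≤ r} 1 x) := by
          rw [lintegral_const_mul _ hm3]
      _ ≤ _ := by gcongr
  · push Not at hδ
    obtain ⟨i, hi⟩ := hδ
    have h1 : ∏ i, (ENNReal.ofReal (2 * r) / ENNReal.ofReal (dst δ i)) = ⊤ := by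
      refine WithTop.prod_eq_top (Finset.mem_univ i) ?_ ?_
      · rw [hi, ENNReal.ofReal_zero]
        exact ENNReal.div_zero (by simpa using hr)
      · intro j _
        exact (ENNReal.div_pos (by simpa using hr) ENNReal.ofReal_ne_top).ne'
    rw [h1, ENNReal.mul_top (by simp)]
    exact le_top

theorem gauss_row {d q : ℕ} (hq : 0 < q) (δ : Fin q → E d) {r : ℝ} (hr : 0 < r) :
    ∫⁻ x, ENNReal.ofReal ((‖x‖ + 1) ^ q) *
        Set.indicator {x : E d | ∀ i, |⟪x, δ i⟫| ≤ r} 1 x ∂(stdGaussian (E d)) ≤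
      ENNReal.ofReal ((2 * √(q : ℝ)) ^ q * √2 ^ d) *
        ∏ i, (ENNReal.ofReal (2 * r) / ENNReal.ofReal (dst δ i)) := by
  have hm := Gauss_measurableSet_slab δ r
  have hm2 : Measurable fun x : E d => ENNReal.ofReal (Real.exp (‖x‖ ^ 2 / 4)) *
      Set.indicator {x : E d | ∀ i, |⟪x, δ i⟫| ≤ r} (1 : E d → ℝ≥0∞) x :=
    Measurable.mul (by fun_prop) (measurable_one.indicator hm)
  calc ∫⁻ x, ENNReal.ofReal ((‖x‖ + 1) ^ q) *
        Set.indicator {x : E d | ∀ i, |⟪x, δ i⟫| ≤ r} 1 x ∂(stdGaussian (E d))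
      ≤ ∫⁻ x, ENNReal.ofReal ((2 * √(q : ℝ)) ^ q) * (ENNReal.ofReal (Real.exp (‖x‖ ^ 2 / 4)) *
        Set.indicator {x : E d | ∀ i, |⟪x, δ i⟫| ≤ r} 1 x) ∂(stdGaussian (E d)) := by
        refine lintegral_mono fun x => ?_
        simp only
        rw [← mul_assoc, ← ENNReal.ofReal_mul (by positivity)]
        gcongr
        exact pow_le_exp hq (norm_nonneg x)
    _ = ENNReal.ofReal ((2 * √(q : ℝ)) ^ q) * ∫⁻ x, (ENNReal.ofReal (Real.exp (‖x‖ ^ 2 / 4)) *
        Set.indicator {x : E d | ∀ i, |⟪x, δ i⟫| ≤ r} 1 x) ∂(stdGaussian (E d)) := by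
        rw [lintegral_const_mul _ hm2]
    _ ≤ ENNReal.ofReal ((2 * √(q : ℝ)) ^ q) * (ENNReal.ofReal (√2 ^ d) *
        ∏ i, (ENNReal.ofReal (2 * r) / ENNReal.ofReal (dst δ i))) := by
        gcongr
        exact gauss_slab δ hr
    _ = _ := by
        rw [← mul_assoc, ← ENNReal.ofReal_mul (by positivity)]

/-- product over the rows of a block. -/
theorem gauss_block {d q : ℕ} (hq : 0 < q) (δ : Fin q → E d) {r : ℝ} (hr : 0 < r) :
    ∫⁻ X : Fin q → E d, (∏ l, ENNReal.ofReal ((‖X l‖ + 1) ^ q)) *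
        Set.indicator {X : Fin q → E d | ∀ l i, |⟪X l, δ i⟫| ≤ r} 1 X ∂(blk q d) ≤
      (ENNReal.ofReal ((2 * √(q : ℝ)) ^ q * √2 ^ d) *
        ∏ i, (ENNReal.ofReal (2 * r) / ENNReal.ofReal (dst δ i))) ^ q := by
  have hm := Gauss_measurableSet_slab δ r
  set f : E d → ℝ≥0∞ := fun x => ENNReal.ofReal ((‖x‖ + 1) ^ q) *
        Set.indicator {x : E d | ∀ i, |⟪x, δ i⟫| ≤ r} 1 x with hf
  have hfm : Measurable f := Measurable.mul (by fun_prop) (measurable_one.indicator hm)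
  have hprod : ∀ X : Fin q → E d, (∏ l, ENNReal.ofReal ((‖X l‖ + 1) ^ q)) *
        Set.indicator {X : Fin q → E d | ∀ l i, |⟪X l, δ i⟫| ≤ r} 1 X = ∏ l, f (X l) := by
    intro X
    simp only [hf]
    rw [Finset.prod_mul_distrib]
    congr 1
    by_cases h : ∀ l i, |⟪X l, δ i⟫| ≤ r
    · rw [Set.indicator_of_mem (show X ∈ {X : Fin q → E d | ∀ l i, |⟪X l, δ i⟫| ≤ r} from h)]
      symm
      simp only [Pi.one_apply]
      apply Finset.prod_eq_one
      intro l _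
      rw [Set.indicator_of_mem (show X l ∈ {x : E d | ∀ i, |⟪x, δ i⟫| ≤ r} from h l)]
      rfl
    · rw [Set.indicator_of_notMem (show X ∉ {X : Fin q → E d | ∀ l i, |⟪X l, δ i⟫| ≤ r} from h)]
      symm
      have h' : ∃ l, ¬ ∀ i, |⟪X l, δ i⟫| ≤ r := by
        by_contra hcon
        exact h fun l => by
          by_contra hl
          exact hcon ⟨l, hl⟩
      obtain ⟨l, hl⟩ := h'
      apply Finset.prod_eq_zero (Finset.mem_univ l)
      rw [Set.indicator_of_notMem (show X l ∉ {x : E d | ∀ i, |⟪x, δ i⟫| ≤ r} from hl)]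
  simp_rw [hprod]
  unfold blk
  have hind : iIndepFun (fun (l : Fin q) (X : Fin q → E d) => f (X l))
      (Measure.pi fun _ : Fin q => stdGaussian (E d)) :=
    iIndepFun_pi (X := fun _ => f) fun _ => hfm.aemeasurable
  rw [lintegral_prod_eq_prod_lintegral_of_indepFun Finset.univ _ hind
    fun l => hfm.comp (measurable_pi_apply l)]
  have hone : ∀ l : Fin q, ∫⁻ X : Fin q → E d, f (X l)
      ∂(Measure.pi fun _ : Fin q => stdGaussian (E d)) = ∫⁻ x, f x ∂(stdGaussian (E d)) := by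
    intro l
    exact (measurePreserving_eval (fun _ : Fin q => stdGaussian (E d)) l).lintegral_comp hfm
  simp_rw [hone]
  rw [Finset.prod_const, Finset.card_univ, Fintype.card_fin]
  gcongr
  exact gauss_row hq δ hr

end P309
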