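import Mathlib
import Vale.Agent.P309.Proj
import Vale.Agent.P309.Gauss

/-! P309 module Hr: limit and domination of `h_r`. -/

open MeasureTheory ProbabilityTheory Metric Matrix Filter Topology
open scoped ENNReal RealInnerProductSpace

namespace P309

theorem Hr_span {d q : ℕ} (δ : Fin q → E d) {v : E d}
    (hv : v ∈ Submodule.span ℝ (Set.range δ)) :
    ∃ C : ℝ, 0 ≤ C ∧ ∀ (x : E d) (r : ℝ), (∀ i, |⟪x, δ i⟫| ≤ r) → |⟪x, v⟫| ≤ C * r := by
  induction hv using Submodule.span_induction with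
  | mem v hv =>
    obtain ⟨i, rfl⟩ := hv
    exact ⟨1, zero_le_one, fun x r h => by rw [one_mul]; exact h i⟩
  | zero => exact ⟨0, le_rfl, fun x r h => by simp⟩
  | add v w _ _ hv hw =>
    obtain ⟨C1, h1, hC1⟩ := hv
    obtain ⟨C2, h2, hC2⟩ := hw
    refine ⟨C1 + C2, add_nonneg h1 h2, fun x r h => ?_⟩
    rw [inner_add_right, add_mul]
    exact (abs_add_le _ _).trans (add_le_add (hC1 x r h) (hC2 x r h))
  | smul a v _ hv =>
    obtain ⟨C1, h1, hC1⟩ := hv
    refine ⟨|a| * C1, mul_nonneg (abs_nonneg _) h1, fun x r h => ?_⟩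
    rw [inner_smul_right, abs_mul, mul_assoc]
    exact mul_le_mul_of_nonneg_left (hC1 x r h) (abs_nonneg _)

theorem Hr_proj {d q : ℕ} (δ : Fin q → E d) (D : Submodule ℝ (E d))
    (hD : D ≤ Submodule.span ℝ (Set.range δ)) :
    ∃ C : ℝ, 0 ≤ C ∧ ∀ (x : E d) (r : ℝ), (∀ i, |⟪x, δ i⟫| ≤ r) →
      ‖D.starProjection x‖ ≤ C * r := by
  set b := stdOrthonormalBasis ℝ D with hb
  have h1 : ∀ k, ∃ C : ℝ, 0 ≤ C ∧ ∀ (x : E d) (r : ℝ), (∀ i, |⟪x, δ i⟫| ≤ r) →
      |⟪x, ((b k : D) : E d)⟫| ≤ C * r := fun k => Hr_span δ (hD (b k).2)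
  choose C hC0 hC using h1
  refine ⟨∑ k, C k, Finset.sum_nonneg fun k _ => hC0 k, fun x r h => ?_⟩
  rw [Submodule.starProjection_apply,
      OrthonormalBasis.orthogonalProjectionOnto_apply_eq_sum b x, Submodule.norm_coe,
      Finset.sum_mul]
  refine (norm_sum_le _ _).trans (Finset.sum_le_sum fun k _ => ?_)
  rw [norm_smul, b.norm_eq_one, mul_one, Real.norm_eq_abs, real_inner_comm]
  exact hC k x r h

/-- On the event that all `|⟪x, δ_i⟫| ≤ r` with `r` small (depending on `δ`), the projection of `x`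
to the span of the `δ_i` is small. -/
theorem exists_small_proj {d q : ℕ} (δ : Fin q → E d) {η : ℝ} (hη : 0 < η) :
    ∃ r₀ : ℝ, 0 < r₀ ∧ ∀ x : E d, (∀ i, |⟪x, δ i⟫| ≤ r₀) →
      ∀ i, ‖(Dlt δ i).starProjection x‖ ≤ η := by
  have h1 : ∀ i, ∃ C : ℝ, 0 ≤ C ∧ ∀ (x : E d) (r : ℝ), (∀ i, |⟪x, δ i⟫| ≤ r) →
      ‖(Dlt δ i).starProjection x‖ ≤ C * r := fun i =>
    Hr_proj δ (Dlt δ i) (Submodule.span_mono (Set.image_subset_range _ _))
  choose C hC0 hC using h1
  have hs : 0 ≤ ∑ i, C i := Finset.sum_nonneg fun i _ => hC0 i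
  refine ⟨η / (∑ i, C i + 1), by positivity, fun x h i => (hC i x _ h).trans ?_⟩
  have h2 : C i ≤ ∑ i, C i + 1 :=
    (Finset.single_le_sum (fun j _ => hC0 j) (Finset.mem_univ i)).trans (by linarith)
  rw [mul_div_assoc', div_le_iff₀ (by positivity), mul_comm]
  exact mul_le_mul_of_nonneg_left h2 hη.le

theorem Hr_isProb (k d : ℕ) : IsProbabilityMeasure (blk k d) := by
  unfold blk; infer_instance

theorem Hr_measurable_vol {d : ℕ} (H : Matrix (Fin d) (Fin d) ℝ) (q : ℕ) :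
    Measurable fun X : Fin q → E d => ENNReal.ofReal ((vb q * √(vol2 H X)) ^ q) := by
  have h1 : Continuous fun X : Fin q → E d => (vb q * √(vol2 H X)) ^ q :=
    ((Real.continuous_sqrt.comp (continuous_vol2 H)).const_mul _).pow _
  exact h1.measurable.ennreal_ofReal

theorem Hr_isClosed (d q : ℕ) (r : ℝ) :
    IsClosed {p : (Fin q → E d) × (Fin q → E d) | ∀ l i, |⟪p.2 l, p.1 i⟫| ≤ r} := by
  simp only [Set.ofPred_forall]
  refine isClosed_iInter fun l => isClosed_iInter fun i => ?_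
  exact isClosed_le (by fun_prop) continuous_const

theorem measurable_hr {d : ℕ} (H : Matrix (Fin d) (Fin d) ℝ) (q : ℕ) (r : ℝ) :
    Measurable (fun δ : Fin q → E d => hr H q r δ) := by
  have := Hr_isProb q d
  have h1 : Measurable fun p : (Fin q → E d) × (Fin q → E d) =>
      ENNReal.ofReal ((vb q * √(vol2 H p.2)) ^ q) *
        Set.indicator {p : (Fin q → E d) × (Fin q → E d) | ∀ l i, |⟪p.2 l, p.1 i⟫| ≤ r}
          (1 : (Fin q → E d) × (Fin q → E d) → ℝ≥0∞) p :=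
    ((Hr_measurable_vol H q).comp measurable_snd).mul
      (measurable_one.indicator (Hr_isClosed d q r).measurableSet)
  have h2 := h1.lintegral_prod_right' (ν := blk q d)
  exact h2.div_const _

/-- the common part of the limit and of the domination. -/
theorem Hr_core {d q : ℕ} (hq : 0 < q) {H : Matrix (Fin d) (Fin d) ℝ}
    (δ : Fin q → E d) {r : ℝ} (hr' : 0 < r) (A : Fin q → ℝ)
    (hA : ∀ X : Fin q → E d, (∀ l i, |⟪X l, δ i⟫| ≤ r) →
      ∀ i, vol2 H X ≤ (∏ l, (‖X l‖ + 1) ^ 2) * A i) :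
    hr H q r δ ≤ ∏ i, (ENNReal.ofReal (c1 q d * √(A i)) / ENNReal.ofReal (dst δ i) ^ q) := by
  have hvb : 0 ≤ vb q := ENNReal.toReal_nonneg
  set K : ℝ := (2 * √(q : ℝ)) ^ q * √2 ^ d with hK
  have hK0 : 0 ≤ K := by positivity
  set G : (Fin q → E d) → ℝ≥0∞ := fun X => (∏ l, ENNReal.ofReal ((‖X l‖ + 1) ^ q)) *
        Set.indicator {X : Fin q → E d | ∀ l i, |⟪X l, δ i⟫| ≤ r} 1 X with hG
  set B : ℝ := ∏ i, (vb q * √(A i)) with hB
  have hB0 : 0 ≤ B := Finset.prod_nonneg fun i _ => by positivity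
  have h1 : ∀ X : Fin q → E d, ENNReal.ofReal ((vb q * √(vol2 H X)) ^ q) *
      Set.indicator {X : Fin q → E d | ∀ l i, |⟪X l, δ i⟫| ≤ r} 1 X ≤
      ENNReal.ofReal B * G X := by
    intro X
    by_cases hX : ∀ l i, |⟪X l, δ i⟫| ≤ r
    · simp only [hG]
      rw [Set.indicator_of_mem (show X ∈ {X : Fin q → E d | ∀ l i, |⟪X l, δ i⟫| ≤ r} from hX),
        Pi.one_apply, mul_one, mul_one, ← ENNReal.ofReal_prod_of_nonneg (fun l _ => by positivity),
        ← ENNReal.ofReal_mul hB0]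
      apply ENNReal.ofReal_le_ofReal
      have h2 : (vb q * √(vol2 H X)) ^ q = ∏ _i : Fin q, (vb q * √(vol2 H X)) := by simp
      rw [h2, Finset.prod_pow, ← Fin.prod_const, hB, ← Finset.prod_mul_distrib]
      refine Finset.prod_le_prod (fun i _ => by positivity) fun i _ => ?_
      rw [mul_assoc]
      refine mul_le_mul_of_nonneg_left ?_ hvb
      have h3 : √(vol2 H X) ≤ √((∏ l, (‖X l‖ + 1) ^ 2) * A i) := Real.sqrt_le_sqrt (hA X hX i)
      rw [Finset.prod_pow, Real.sqrt_mul (by positivity), Real.sqrt_sq (by positivity)] at h3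
      rw [mul_comm]
      exact h3
    · rw [Set.indicator_of_notMem
        (show X ∉ {X : Fin q → E d | ∀ l i, |⟪X l, δ i⟫| ≤ r} from hX), mul_zero]
      exact zero_le
  have h2 : ∫⁻ X : Fin q → E d, ENNReal.ofReal ((vb q * √(vol2 H X)) ^ q) *
      Set.indicator {X : Fin q → E d | ∀ l i, |⟪X l, δ i⟫| ≤ r} 1 X ∂(blk q d) ≤
      ENNReal.ofReal B * (ENNReal.ofReal K *
        ∏ i, (ENNReal.ofReal (2 * r) / ENNReal.ofReal (dst δ i))) ^ q := by
    calc _ ≤ ∫⁻ X : Fin q → E d, ENNReal.ofReal B * G X ∂(blk q d) := lintegral_mono h1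
      _ = ENNReal.ofReal B * ∫⁻ X : Fin q → E d, G X ∂(blk q d) :=
          lintegral_const_mul' _ _ ENNReal.ofReal_ne_top
      _ ≤ _ := mul_le_mul_right (gauss_block hq δ hr') _
  unfold hr
  refine (ENNReal.div_le_div_right h2 _).trans (le_of_eq ?_)
  have hR0 : ENNReal.ofReal (2 * r) ^ (q * q) ≠ 0 := by
    apply pow_ne_zero
    simpa using hr'
  have hRt : ENNReal.ofReal (2 * r) ^ (q * q) ≠ ⊤ := ENNReal.pow_ne_top ENNReal.ofReal_ne_top
  have e1 : ∀ i, ENNReal.ofReal (2 * r) / ENNReal.ofReal (dst δ i) =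
      ENNReal.ofReal (2 * r) * (ENNReal.ofReal (dst δ i))⁻¹ := fun i => div_eq_mul_inv _ _
  simp_rw [e1]
  rw [Finset.prod_mul_distrib, Fin.prod_const, mul_pow, mul_pow, ← pow_mul,
    ENNReal.ofReal_pow (by positivity)]
  have e2 : ENNReal.ofReal B * (ENNReal.ofReal K ^ q * (ENNReal.ofReal (2 * r) ^ (q * q) *
      (∏ i, (ENNReal.ofReal (dst δ i))⁻¹) ^ q)) =
      (ENNReal.ofReal B * ENNReal.ofReal K ^ q * (∏ i, (ENNReal.ofReal (dst δ i))⁻¹) ^ q) *
        ENNReal.ofReal (2 * r) ^ (q * q) := by ring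
  rw [e2, ENNReal.mul_div_cancel_right hR0 hRt, hB,
    ENNReal.ofReal_prod_of_nonneg (fun i _ => by positivity), ← Finset.prod_pow,
    ← Fin.prod_const, ← Finset.prod_mul_distrib, ← Finset.prod_mul_distrib]
  refine Finset.prod_congr rfl fun i _ => ?_
  rw [div_eq_mul_inv, ENNReal.inv_pow, ← ENNReal.ofReal_mul (by positivity)]
  congr 2
  unfold c1
  rw [hK]
  ring

theorem Hr_vb_pos (q : ℕ) : 0 < vb q := by
  unfold vb
  refine ENNReal.toReal_pos ?_ ?_
  · exact (measure_closedBall_pos _ _ one_pos).ne'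
  · exact measure_closedBall_lt_top.ne

theorem Hr_c1_pos {q : ℕ} (hq : 0 < q) (d : ℕ) : 0 < c1 q d := by
  have := Hr_vb_pos q
  have h2 : (0 : ℝ) < q := by exact_mod_cast hq
  unfold c1
  positivity

theorem Hr_finrank {d q : ℕ} (δ : Fin q → E d) (i : Fin q) :
    Module.finrank ℝ (Dlt δ i) ≤ i := by
  classical
  unfold Dlt
  have h1 : δ '' {j | j < i} = ((Finset.univ.filter fun j : Fin q => j < i).image δ : Finset (E d)) := by
    ext x; simp
  rw [h1]
  refine (finrank_span_finset_le_card _).trans (Finset.card_image_le.trans ?_)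
  have h2 : (Finset.univ.filter fun j : Fin q => j < i) = Finset.Iio i := by ext; simp
  rw [h2, Fin.card_Iio]

theorem hr_limsup {d q : ℕ} (hq : 0 < q) (hd : 2 * q ≤ d) {H : Matrix (Fin d) (Fin d) ℝ}
    (hH : H.PosDef) (δ : Fin q → E d) {r : ℕ → ℝ} (hr0 : ∀ n, 0 < r n)
    (hrt : Tendsto r atTop (𝓝 0)) :
    limsup (fun n => hr H q (r n) δ) atTop ≤
      ∏ i, (ENNReal.ofReal (c1 q d * √(Ek H (perpMat (Dlt δ i)) q)) /
        ENNReal.ofReal (dst δ i) ^ q) := by
  have hc1 := Hr_c1_pos hq d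
  have hEk : ∀ i, 0 < Ek H (perpMat (Dlt δ i)) q := fun i =>
    Ek_perp_pos hH _ (by have := Hr_finrank δ i; have := i.2; omega)
  -- the bound with `ε`
  have key : ∀ ε : ℝ, 0 < ε → limsup (fun n => hr H q (r n) δ) atTop ≤
      ∏ i, (ENNReal.ofReal (c1 q d * √(Ek H (perpMat (Dlt δ i)) q + ε)) /
        ENNReal.ofReal (dst δ i) ^ q) := by
    intro ε hε
    have h1 : ∀ i, ∃ τ : ℝ, 0 < τ ∧ (H + τ • perpMat (Dlt δ i)).det / (τ ^ q * H.det) <
        Ek H (perpMat (Dlt δ i)) q + ε := fun i =>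
      exists_lt_Ek hH (perpMat_posSemidef _) q hε
    choose τ hτ0 hτ using h1
    have h2 : ∀ i, ∀ᶠ η : ℝ in 𝓝 0, (H + τ i • (perpMat (Dlt δ i) +
        η ^ 2 • (1 - perpMat (Dlt δ i)))).det / (τ i ^ q * H.det) <
        Ek H (perpMat (Dlt δ i)) q + ε := by
      intro i
      have hc : Continuous fun η : ℝ => (H + τ i • (perpMat (Dlt δ i) +
        η ^ 2 • (1 - perpMat (Dlt δ i)))).det / (τ i ^ q * H.det) := by
        refine Continuous.div_const (Continuous.matrix_det ?_) _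
        have h0 : Continuous fun η : ℝ => η ^ 2 • (1 - perpMat (Dlt δ i)) :=
          (continuous_pow 2).smul continuous_const
        have h0' : Continuous fun η : ℝ => perpMat (Dlt δ i) +
            η ^ 2 • (1 - perpMat (Dlt δ i)) := continuous_const.add h0
        have h0'' : Continuous fun η : ℝ => τ i • (perpMat (Dlt δ i) +
            η ^ 2 • (1 - perpMat (Dlt δ i))) := h0'.const_smul (τ i)
        exact continuous_const.add h0''
      have h3 := hc.tendsto 0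
      have h4 : (H + τ i • (perpMat (Dlt δ i) +
        (0 : ℝ) ^ 2 • (1 - perpMat (Dlt δ i)))).det / (τ i ^ q * H.det) <
        Ek H (perpMat (Dlt δ i)) q + ε := by
        have := hτ i
        rwa [zero_pow two_ne_zero, zero_smul, add_zero]
      exact h3.eventually_lt_const h4
    have h3 : ∀ᶠ η : ℝ in 𝓝[>] 0, ∀ i, (H + τ i • (perpMat (Dlt δ i) +
        η ^ 2 • (1 - perpMat (Dlt δ i)))).det / (τ i ^ q * H.det) <
        Ek H (perpMat (Dlt δ i)) q + ε :=
      (eventually_all.2 h2).filter_mono nhdsWithin_le_nhds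
    obtain ⟨η, hη, hη0⟩ := (h3.and self_mem_nhdsWithin).exists
    have hη0' : (0 : ℝ) < η := hη0
    obtain ⟨r₀, hr₀, hr₀'⟩ := exists_small_proj δ hη0'
    have h5 : ∀ᶠ n in atTop, r n < r₀ := hrt.eventually_lt_const hr₀
    refine limsup_le_of_le (h := ?_)
    filter_upwards [h5] with n hn
    refine Hr_core hq δ (hr0 n) _ fun X hX i => ?_
    have h6 := vol2_le hH (Dlt δ i) X hη0' (hτ0 i)
      (fun l => hr₀' (X l) (fun j => (hX l j).trans hn.le) i)
    refine h6.trans (mul_le_mul_of_nonneg_left (hη i).le (by positivity))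
  by_cases hδ : ∀ i, 0 < dst δ i
  · have e1 : ∀ ε : ℝ, 0 ≤ ε → ∏ i, (ENNReal.ofReal (c1 q d * √(Ek H (perpMat (Dlt δ i)) q + ε)) /
        ENNReal.ofReal (dst δ i) ^ q) =
        ENNReal.ofReal (∏ i, (c1 q d * √(Ek H (perpMat (Dlt δ i)) q + ε) / dst δ i ^ q)) := by
      intro ε hε
      rw [ENNReal.ofReal_prod_of_nonneg fun i _ => ?_]
      · refine Finset.prod_congr rfl fun i _ => ?_
        have := hδ i
        rw [ENNReal.ofReal_div_of_pos (by positivity), ENNReal.ofReal_pow this.le]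
      · have := hδ i
        positivity
    have hc : Continuous fun ε : ℝ =>
        ENNReal.ofReal (∏ i, (c1 q d * √(Ek H (perpMat (Dlt δ i)) q + ε) / dst δ i ^ q)) := by
      refine ENNReal.continuous_ofReal.comp (continuous_finsetProd _ fun i _ => ?_)
      refine Continuous.div_const ?_ _
      exact (Real.continuous_sqrt.comp (continuous_const.add continuous_id)).const_mul _
    have h1 : Tendsto (fun ε : ℝ =>
        ENNReal.ofReal (∏ i, (c1 q d * √(Ek H (perpMat (Dlt δ i)) q + ε) / dst δ i ^ q)))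
        (𝓝[>] 0) (𝓝 (ENNReal.ofReal
          (∏ i, (c1 q d * √(Ek H (perpMat (Dlt δ i)) q + 0) / dst δ i ^ q)))) :=
      (hc.tendsto 0).mono_left nhdsWithin_le_nhds
    have h2 := ge_of_tendsto h1 (b := limsup (fun n => hr H q (r n) δ) atTop) (by
      filter_upwards [self_mem_nhdsWithin] with ε hε
      have hε' : (0 : ℝ) < ε := hε
      rw [← e1 ε hε'.le]
      exact key ε hε')
    rw [← e1 0 le_rfl] at h2
    simpa only [add_zero] using h2
  · push Not at hδ
    obtain ⟨i, hi⟩ := hδ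
    have hi0 : dst δ i = 0 := le_antisymm hi (norm_nonneg _)
    have hpos : ∀ j, 0 < c1 q d * √(Ek H (perpMat (Dlt δ j)) q) := fun j =>
      mul_pos hc1 (Real.sqrt_pos.2 (hEk j))
    have h1 : ∏ i, (ENNReal.ofReal (c1 q d * √(Ek H (perpMat (Dlt δ i)) q)) /
        ENNReal.ofReal (dst δ i) ^ q) = ⊤ := by
      refine WithTop.prod_eq_top (Finset.mem_univ i) ?_ ?_
      · rw [hi0, ENNReal.ofReal_zero, zero_pow hq.ne']
        exact ENNReal.div_zero (by simpa using hpos i)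
      · intro j _
        exact (ENNReal.div_pos (by simpa using hpos j)
          (ENNReal.pow_ne_top ENNReal.ofReal_ne_top)).ne'
    rw [h1]
    exact le_top

theorem hr_dom {d q : ℕ} (hq : 0 < q) {H : Matrix (Fin d) (Fin d) ℝ} (hH : H.PosDef) :
    ∃ C : ℝ, ∀ r : ℝ, 0 < r → ∀ δ : Fin q → E d,
      hr H q r δ ≤ ∏ i, (ENNReal.ofReal C / ENNReal.ofReal (dst δ i) ^ q) := by
  refine ⟨c1 q d * √((H + (1 : ℝ) • (1 : Matrix (Fin d) (Fin d) ℝ)).det / ((1 : ℝ) ^ q * H.det)),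
    fun r hr' δ => ?_⟩
  exact Hr_core hq δ hr' _ fun X _ _ => vol2_le_one hH X one_pos

end P309
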