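import Mathlib
import Vale.Agent.P309.Proj

/-! P309 module Geo: ellipsoids: compactness, containments, admissibility, volumes. -/

open MeasureTheory ProbabilityTheory Metric Matrix Filter Topology
open scoped ENNReal RealInnerProductSpace

namespace P309

theorem Geo_dot_self {n : ℕ} (x : Fin n → ℝ) : x ⬝ᵥ x = ∑ i, x i ^ 2 := by
  simp [dotProduct, sq]

theorem Geo_norm_sq {d : ℕ} (x : E d) : ‖x‖ ^ 2 = x.ofLp ⬝ᵥ x.ofLp := by
  rw [EuclideanSpace.norm_sq_eq, Geo_dot_self]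
  simp

theorem Geo_qf_one {d : ℕ} (x : E d) : qf 1 x = ‖x‖ ^ 2 := by
  unfold qf
  rw [one_mulVec, Geo_norm_sq]

theorem Geo_qf_add {d : ℕ} (A B : Matrix (Fin d) (Fin d) ℝ) (x : E d) :
    qf (A + B) x = qf A x + qf B x := by
  unfold qf
  rw [add_mulVec, dotProduct_add]

theorem Geo_qf_sub {d : ℕ} (A B : Matrix (Fin d) (Fin d) ℝ) (x : E d) :
    qf (A - B) x = qf A x - qf B x := by
  unfold qf
  rw [sub_mulVec, dotProduct_sub]

theorem Geo_qf_smul {d : ℕ} (c : ℝ) (A : Matrix (Fin d) (Fin d) ℝ) (x : E d) :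
    qf (c • A) x = c * qf A x := by
  unfold qf
  rw [smul_mulVec, dotProduct_smul, smul_eq_mul]

theorem Geo_qf_factor {d : ℕ} (C : Matrix (Fin d) (Fin d) ℝ) (x : E d) :
    qf (Cᵀ * C) x = (C *ᵥ x.ofLp) ⬝ᵥ (C *ᵥ x.ofLp) := by
  unfold qf
  rw [← mulVec_mulVec, dotProduct_mulVec, ← mulVec_transpose, transpose_transpose]

theorem Geo_qf_nonneg {d : ℕ} {H : Matrix (Fin d) (Fin d) ℝ} (hH : H.PosSemidef) (x : E d) :
    0 ≤ qf H x := by
  obtain ⟨C, hC⟩ := LA_exists_factor hH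
  rw [hC, Geo_qf_factor, Geo_dot_self]
  exact Finset.sum_nonneg fun i _ => sq_nonneg _

theorem Geo_qf_add2 {d : ℕ} {H : Matrix (Fin d) (Fin d) ℝ} (hH : H.PosSemidef) (x y : E d) :
    qf H (x - y) ≤ 2 * qf H x + 2 * qf H y := by
  obtain ⟨C, hC⟩ := LA_exists_factor hH
  rw [hC, Geo_qf_factor, Geo_qf_factor, Geo_qf_factor, Geo_dot_self, Geo_dot_self, Geo_dot_self,
    Finset.mul_sum, Finset.mul_sum, ← Finset.sum_add_distrib]
  refine Finset.sum_le_sum fun i _ => ?_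
  rw [WithLp.ofLp_sub, mulVec_sub, Pi.sub_apply]
  nlinarith [sq_nonneg ((C *ᵥ x.ofLp) i + (C *ᵥ y.ofLp) i)]

theorem Geo_qf_add3 {d : ℕ} {H : Matrix (Fin d) (Fin d) ℝ} (hH : H.PosSemidef) (x y w : E d) :
    qf H (x + y - w) ≤ 3 * qf H x + 3 * qf H y + 3 * qf H w := by
  obtain ⟨C, hC⟩ := LA_exists_factor hH
  rw [hC, Geo_qf_factor, Geo_qf_factor, Geo_qf_factor, Geo_qf_factor, Geo_dot_self, Geo_dot_self,
    Geo_dot_self, Geo_dot_self, Finset.mul_sum, Finset.mul_sum, Finset.mul_sum,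
    ← Finset.sum_add_distrib, ← Finset.sum_add_distrib]
  refine Finset.sum_le_sum fun i _ => ?_
  rw [WithLp.ofLp_sub, WithLp.ofLp_add, mulVec_sub, mulVec_add, Pi.sub_apply, Pi.add_apply]
  nlinarith [sq_nonneg ((C *ᵥ x.ofLp) i - (C *ᵥ y.ofLp) i),
    sq_nonneg ((C *ᵥ x.ofLp) i + (C *ᵥ w.ofLp) i), sq_nonneg ((C *ᵥ y.ofLp) i + (C *ᵥ w.ofLp) i)]

theorem Geo_factor {d : ℕ} {H : Matrix (Fin d) (Fin d) ℝ} (hH : H.PosDef) :
    ∃ C : Matrix (Fin d) (Fin d) ℝ, H = Cᵀ * C ∧ C.det ≠ 0 := by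
  obtain ⟨C, hC⟩ := LA_exists_factor hH.posSemidef
  refine ⟨C, hC, fun h0 => ?_⟩
  have := hH.det_pos
  rw [hC, det_mul, h0, mul_zero] at this
  exact lt_irrefl _ this

/-- an ellipsoid is the image of the unit ball. -/
theorem Geo_ell_eq {d : ℕ} (z : E d) (C : Matrix (Fin d) (Fin d) ℝ) (hC : C.det ≠ 0) :
    ell z (Cᵀ * C) = (fun x => z + x) '' (Matrix.toEuclideanLin C⁻¹ '' closedBall (0 : E d) 1) := by
  have hu : IsUnit C.det := isUnit_iff_ne_zero.2 hC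
  ext s
  simp only [ell, Set.mem_ofPred_eq, Set.mem_image, mem_closedBall, dist_zero_right]
  rw [Geo_qf_factor]
  constructor
  · intro h
    refine ⟨s - z, ⟨WithLp.toLp 2 (C *ᵥ (s - z).ofLp), ?_, ?_⟩, by abel⟩
    · have h1 := Geo_norm_sq (WithLp.toLp 2 (C *ᵥ (s - z).ofLp) : E d)
      have h2 : ‖(WithLp.toLp 2 (C *ᵥ (s - z).ofLp) : E d)‖ ^ 2 ≤ 1 ^ 2 := by
        rw [h1, one_pow]
        exact h
      exact (abs_le_of_sq_le_sq' h2 zero_le_one).2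
    · rw [toLpLin_toLp, toLin'_apply, mulVec_mulVec, nonsing_inv_mul _ hu, one_mulVec]
  · rintro ⟨x, ⟨y, hy, rfl⟩, rfl⟩
    rw [add_sub_cancel_left, ofLp_toLpLin, toLin'_apply, mulVec_mulVec, mul_nonsing_inv _ hu,
      one_mulVec, ← Geo_norm_sq]
    exact pow_le_one₀ (norm_nonneg _) hy

theorem isClosed_ell {d : ℕ} (z : E d) (H : Matrix (Fin d) (Fin d) ℝ) : IsClosed (ell z H) := by
  refine isClosed_le ?_ continuous_const
  unfold qf dotProduct mulVec dotProduct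
  fun_prop

theorem isCompact_ell {d : ℕ} (z : E d) {H : Matrix (Fin d) (Fin d) ℝ} (hH : H.PosDef) :
    IsCompact (ell z H) := by
  obtain ⟨C, hC, hdet⟩ := Geo_factor hH
  rw [hC, Geo_ell_eq z C hdet]
  exact ((isCompact_closedBall (0 : E d) 1).image
    (LinearMap.continuous_of_finiteDimensional _)).image (continuous_const.add continuous_id)

theorem ell_one_eq (d : ℕ) : ell (0 : E d) 1 = closedBall 0 1 := by
  ext s
  simp only [ell, Set.mem_ofPred_eq, mem_closedBall, dist_zero_right]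
  rw [Geo_qf_one, sub_zero]
  exact sq_le_one_iff₀ (norm_nonneg _)

theorem mem_ell_of_shell {d : ℕ} {z s s' s₀ : E d} {H : Matrix (Fin d) (Fin d) ℝ}
    (hH : H.PosDef) (D : Submodule ℝ (E d)) {ρ : ℝ} (hρ : 0 < ρ)
    (hs : s ∈ ell z H) (hs' : s' ∈ ell z H)
    (hd : ‖Dᗮ.starProjection (s - s₀)‖ ≤ ρ) (hd' : ‖Dᗮ.starProjection (s' - s₀)‖ ≤ ρ) :
    s ∈ ell s' ((1 / 8 : ℝ) • (H + (ρ⁻¹ ^ 2) • perpMat D)) := by
  simp only [ell, Set.mem_ofPred_eq] at hs hs' ⊢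
  rw [Geo_qf_smul, Geo_qf_add, Geo_qf_smul, qf_perpMat]
  have h1 : qf H (s - s') ≤ 4 := by
    have h2 := Geo_qf_add2 hH.posSemidef (s - z) (s' - z)
    rw [sub_sub_sub_cancel_right] at h2
    linarith
  have h3 : ‖Dᗮ.starProjection (s - s')‖ ≤ 2 * ρ := by
    have h4 : s - s' = (s - s₀) - (s' - s₀) := by abel
    rw [h4, map_sub]
    refine (norm_sub_le _ _).trans ?_
    linarith
  have h5 : ρ⁻¹ ^ 2 * ‖Dᗮ.starProjection (s - s')‖ ^ 2 ≤ 4 := by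
    rw [← mul_pow]
    have h6 : ρ⁻¹ * ‖Dᗮ.starProjection (s - s')‖ ≤ 2 := by
      rw [inv_mul_le_iff₀ hρ]
      linarith
    have h7 : 0 ≤ ρ⁻¹ * ‖Dᗮ.starProjection (s - s')‖ := by positivity
    nlinarith
  linarith

theorem Geo_adm_qf {d : ℕ} {H : Matrix (Fin d) (Fin d) ℝ} {ε : ℝ} (hH : Adm ε H) (x : E d) :
    qf H x ≤ ε⁻¹ ^ 2 * ‖x‖ ^ 2 := by
  have h := Geo_qf_nonneg hH.le x
  rw [Geo_qf_sub, Geo_qf_smul, Geo_qf_one] at h
  linarith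

theorem mem_ell_of_thick {d : ℕ} {z s s' s₀ x : E d} {H : Matrix (Fin d) (Fin d) ℝ} {ε : ℝ}
    (hε : 0 < ε) (hH : Adm ε H) (D : Submodule ℝ (E d)) {ρ : ℝ} (hρ : 0 < ρ) (hρε : ρ ≤ ε)
    (hs : s ∈ ell z H) (hs' : s' ∈ ell z H)
    (hd : ‖Dᗮ.starProjection (s - s₀)‖ ≤ ρ) (hd' : ‖Dᗮ.starProjection (s' - s₀)‖ ≤ ρ)
    (hx : ‖x - s‖ ≤ ρ) :
    x ∈ ell s' ((1 / 18 : ℝ) • (H + (ρ⁻¹ ^ 2) • perpMat D)) := by
  simp only [ell, Set.mem_ofPred_eq] at hs hs' ⊢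
  rw [Geo_qf_smul, Geo_qf_add, Geo_qf_smul, qf_perpMat]
  have h0 : qf H (x - s) ≤ 1 := by
    refine (Geo_adm_qf hH _).trans ?_
    rw [← mul_pow]
    have h6 : ε⁻¹ * ‖x - s‖ ≤ 1 := by
      rw [inv_mul_le_iff₀ hε]
      linarith
    exact pow_le_one₀ (by positivity) h6
  have h1 : qf H (x - s') ≤ 9 := by
    have h2 := Geo_qf_add3 hH.posDef.posSemidef (x - s) (s - z) (s' - z)
    have h3 : x - s + (s - z) - (s' - z) = x - s' := by abel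
    rw [h3] at h2
    linarith
  have h3 : ‖Dᗮ.starProjection (x - s')‖ ≤ 3 * ρ := by
    have h4 : x - s' = (x - s) + ((s - s₀) - (s' - s₀)) := by abel
    rw [h4, map_add, map_sub Dᗮ.starProjection (s - s₀)]
    have h5 := Submodule.norm_starProjection_apply_le Dᗮ (x - s)
    refine (norm_add_le _ _).trans ?_
    have h6 := norm_sub_le (Dᗮ.starProjection (s - s₀)) (Dᗮ.starProjection (s' - s₀))
    linarith
  have h5 : ρ⁻¹ ^ 2 * ‖Dᗮ.starProjection (x - s')‖ ^ 2 ≤ 9 := by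
    rw [← mul_pow]
    have h6 : ρ⁻¹ * ‖Dᗮ.starProjection (x - s')‖ ≤ 3 := by
      rw [inv_mul_le_iff₀ hρ]
      linarith
    have h7 : 0 ≤ ρ⁻¹ * ‖Dᗮ.starProjection (x - s')‖ := by positivity
    nlinarith
  linarith

theorem adm_shell {d : ℕ} {H : Matrix (Fin d) (Fin d) ℝ} {ε : ℝ} (hε : 0 < ε) (hH : Adm ε H)
    (D : Submodule ℝ (E d)) {ρ : ℝ} (hρ : ε ≤ ρ) :
    Adm ε ((1 / 8 : ℝ) • (H + (ρ⁻¹ ^ 2) • perpMat D)) := by
  have hρ0 : 0 < ρ := hε.trans_le hρ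
  refine ⟨?_, ?_⟩
  · exact (hH.posDef.add_posSemidef ((perpMat_posSemidef D).smul (by positivity))).smul
      (by norm_num)
  · have h1 : ρ⁻¹ ^ 2 ≤ ε⁻¹ ^ 2 :=
      pow_le_pow_left₀ (by positivity) (inv_anti₀ hε hρ) 2
    have h2 : (0 : ℝ) ≤ 7 * ε⁻¹ ^ 2 - ρ⁻¹ ^ 2 := by
      have : (0 : ℝ) ≤ ε⁻¹ ^ 2 := by positivity
      linarith
    have e : ε⁻¹ ^ 2 • (1 : Matrix (Fin d) (Fin d) ℝ) - (1 / 8 : ℝ) • (H + (ρ⁻¹ ^ 2) • perpMat D) =
        (1 / 8 : ℝ) • ((ε⁻¹ ^ 2 • (1 : Matrix (Fin d) (Fin d) ℝ) - H) +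
          (ρ⁻¹ ^ 2) • (1 - perpMat D) +
          (7 * ε⁻¹ ^ 2 - ρ⁻¹ ^ 2) • (1 : Matrix (Fin d) (Fin d) ℝ)) := by
      module
    rw [e]
    exact ((hH.le.add ((one_sub_perpMat_posSemidef D).smul (by positivity))).add
      (PosSemidef.one.smul h2)).smul (by norm_num)

theorem Geo_det_toEuclideanLin {d : ℕ} (A : Matrix (Fin d) (Fin d) ℝ) :
    LinearMap.det (Matrix.toEuclideanLin A) = A.det := by
  rw [Matrix.toEuclideanLin_eq_toLin_orthonormal, LinearMap.det_toLin]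

theorem volume_ell {d : ℕ} {H : Matrix (Fin d) (Fin d) ℝ} (hH : H.PosDef) (z : E d) :
    volume (ell z H) = ENNReal.ofReal (vb d / √H.det) := by
  obtain ⟨C, hC, hdet⟩ := Geo_factor hH
  have hu : IsUnit C.det := isUnit_iff_ne_zero.2 hdet
  have h1 : √H.det = |C.det| := by
    rw [hC, det_mul, det_transpose, Real.sqrt_mul_self_eq_abs]
  have h2 : volume (closedBall (0 : E d) 1) = ENNReal.ofReal (vb d) := by
    unfold vb
    rw [ENNReal.ofReal_toReal]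
    exact measure_closedBall_lt_top.ne
  rw [h1, hC, Geo_ell_eq z C hdet, Set.image_add_left, measure_preimage_add,
    Measure.addHaar_image_linearMap, Geo_det_toEuclideanLin, h2, ← ENNReal.ofReal_mul (abs_nonneg _),
    det_nonsing_inv, Ring.inverse_eq_inv', abs_inv]
  congr 1
  rw [div_eq_mul_inv, mul_comm]

theorem Geo_proj_le {d k : ℕ} (B : Matrix (Fin k) (Fin d) ℝ) {δ : ℝ} (hδ : 0 < δ)
    (y : Fin d → ℝ) :
    (B *ᵥ y) ⬝ᵥ ((B * Bᵀ + δ • (1 : Matrix (Fin k) (Fin k) ℝ))⁻¹ *ᵥ (B *ᵥ y)) ≤ y ⬝ᵥ y := by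
  set G : Matrix (Fin k) (Fin k) ℝ := B * Bᵀ + δ • 1 with hG
  have hpsd : (B * Bᵀ).PosSemidef := by
    have := LA_psd_transpose_mul Bᵀ
    rwa [transpose_transpose] at this
  have hpd : G.PosDef := PosDef.posSemidef_add hpsd (PosDef.one.smul hδ)
  have hu : IsUnit G.det := isUnit_iff_ne_zero.2 hpd.det_pos.ne'
  set v : Fin k → ℝ := G⁻¹ *ᵥ (B *ᵥ y) with hv
  have h1 : G *ᵥ v = B *ᵥ y := by
    rw [hv, mulVec_mulVec, mul_nonsing_inv _ hu, one_mulVec]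
  have h2 : (B *ᵥ y) ⬝ᵥ v = y ⬝ᵥ (Bᵀ *ᵥ v) := by
    rw [mulVec_transpose, dotProduct_comm y, ← dotProduct_mulVec, dotProduct_comm]
  have h3 : (B *ᵥ y) ⬝ᵥ v = (Bᵀ *ᵥ v) ⬝ᵥ (Bᵀ *ᵥ v) + δ * (v ⬝ᵥ v) := by
    have h4 : (Bᵀ *ᵥ v) ⬝ᵥ (Bᵀ *ᵥ v) = ((B * Bᵀ) *ᵥ v) ⬝ᵥ v := by
      rw [← mulVec_mulVec, dotProduct_comm _ v, dotProduct_mulVec v B, ← mulVec_transpose]
    rw [h4, ← h1, hG, add_mulVec, add_dotProduct, smul_mulVec, one_mulVec, smul_dotProduct,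
      smul_eq_mul]
  have h5 : 2 * (y ⬝ᵥ (Bᵀ *ᵥ v)) ≤ y ⬝ᵥ y + (Bᵀ *ᵥ v) ⬝ᵥ (Bᵀ *ᵥ v) := by
    unfold dotProduct
    rw [Finset.mul_sum, ← Finset.sum_add_distrib]
    refine Finset.sum_le_sum fun i _ => ?_
    nlinarith [sq_nonneg (y i - (Bᵀ *ᵥ v) i)]
  have h6 : 0 ≤ v ⬝ᵥ v := by
    rw [Geo_dot_self]
    exact Finset.sum_nonneg fun i _ => sq_nonneg _
  nlinarith

/-- the image of an ellipsoid under `s ↦ (⟪X l, s⟫)_l`. -/
theorem volume_image_le {d k : ℕ} {H : Matrix (Fin d) (Fin d) ℝ} (hH : H.PosDef) (z : E d)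
    (X : Fin k → E d) :
    volume ((fun (s : E d) (l : Fin k) => ⟪X l, s⟫) '' ell z H) ≤
      ENNReal.ofReal (vb k * √(vol2 H X)) := by
  obtain ⟨C, hC, hdet⟩ := Geo_factor hH
  have hu : IsUnit C.det := isUnit_iff_ne_zero.2 hdet
  set B : Matrix (Fin k) (Fin d) ℝ := rowMat X * C⁻¹ with hB
  have hBB : B * Bᵀ = rowMat X * H⁻¹ * (rowMat X)ᵀ := by
    rw [hB, transpose_mul, hC, Matrix.mul_inv_rev, transpose_nonsing_inv]
    simp only [Matrix.mul_assoc]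
  have hpsd : (B * Bᵀ).PosSemidef := by
    have := LA_psd_transpose_mul Bᵀ
    rwa [transpose_transpose] at this
  have hX : ∀ s : E d, (fun l : Fin k => ⟪X l, s⟫) = rowMat X *ᵥ s.ofLp := by
    intro s
    ext l
    simp [rowMat, mulVec, dotProduct, PiLp.inner_apply, mul_comm]
  have key : ∀ δ : ℝ, 0 < δ →
      volume ((fun (s : E d) (l : Fin k) => ⟪X l, s⟫) '' ell z H) ≤
        ENNReal.ofReal (vb k * √(B * Bᵀ + δ • (1 : Matrix (Fin k) (Fin k) ℝ)).det) := by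
    intro δ hδ
    set G : Matrix (Fin k) (Fin k) ℝ := B * Bᵀ + δ • 1 with hG
    have hpd : G.PosDef := PosDef.posSemidef_add hpsd (PosDef.one.smul hδ)
    set c : E k := WithLp.toLp 2 (rowMat X *ᵥ z.ofLp) with hc
    have hsub : (fun (s : E d) (l : Fin k) => ⟪X l, s⟫) '' ell z H ⊆
        (WithLp.toLp 2) ⁻¹' (ell c G⁻¹) := by
      rintro u ⟨s, hs, rfl⟩
      simp only [ell, Set.mem_ofPred_eq, Set.mem_preimage] at hs ⊢
      rw [hC, Geo_qf_factor] at hs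
      have h1 : ((WithLp.toLp 2 (fun l : Fin k => ⟪X l, s⟫) : E k) - c).ofLp =
          B *ᵥ (C *ᵥ (s - z).ofLp) := by
        rw [hX s, hc, hB, mulVec_mulVec, Matrix.mul_assoc, nonsing_inv_mul _ hu, Matrix.mul_one,
          WithLp.ofLp_sub, WithLp.ofLp_sub, mulVec_sub]
      unfold qf
      rw [h1]
      exact (Geo_proj_le B hδ _).trans hs
    refine (measure_mono hsub).trans ?_
    have hm : MeasurableSet (ell c G⁻¹) := (isClosed_ell c G⁻¹).measurableSet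
    rw [(PiLp.volume_preserving_toLp (Fin k)).measure_preimage hm.nullMeasurableSet,
      volume_ell hpd.inv, det_nonsing_inv, Ring.inverse_eq_inv', Real.sqrt_inv, div_inv_eq_mul]
  have hlim : Tendsto (fun δ : ℝ => ENNReal.ofReal
      (vb k * √(B * Bᵀ + δ • (1 : Matrix (Fin k) (Fin k) ℝ)).det)) (𝓝[>] 0)
      (𝓝 (ENNReal.ofReal (vb k * √(vol2 H X)))) := by
    have hcont : Continuous (fun δ : ℝ => ENNReal.ofReal
        (vb k * √(B * Bᵀ + δ • (1 : Matrix (Fin k) (Fin k) ℝ)).det)) := by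
      refine ENNReal.continuous_ofReal.comp (continuous_const.mul (Real.continuous_sqrt.comp ?_))
      exact (continuous_const.add (continuous_id.smul continuous_const)).matrix_det
    have h1 := hcont.tendsto 0
    have h2 : (B * Bᵀ).det = vol2 H X := by rw [hBB]; rfl
    rw [zero_smul, add_zero, h2] at h1
    exact h1.mono_left nhdsWithin_le_nhds
  exact ge_of_tendsto hlim (eventually_nhdsWithin_of_forall fun δ hδ => key δ hδ)

end P309
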