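import Mathlib
import Vale.Agent.P309.Defs

/-! P309 module Sphere: the uniform measure on the sphere satisfies `SphLike`; start of the
iteration. -/

open MeasureTheory ProbabilityTheory Metric Matrix Filter Topology
open scoped ENNReal RealInnerProductSpace

namespace P309

theorem vb_pos (k : ℕ) : 0 < vb k := by
  unfold vb
  apply ENNReal.toReal_pos
  · exact (measure_closedBall_pos _ _ one_pos).ne'
  · exact (isCompact_closedBall _ _).measure_lt_top.ne

theorem volume_closedBall_one (k : ℕ) :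
    volume (closedBall (0 : E k) 1) = ENNReal.ofReal (vb k) := by
  rw [vb, ENNReal.ofReal_toReal (isCompact_closedBall _ _).measure_lt_top.ne]

theorem toSphere_univ_eq {d : ℕ} :
    (volume : Measure (E d)).toSphere Set.univ = d * ENNReal.ofReal (vb d) := by
  rw [Measure.toSphere_apply_univ, ← Measure.addHaar_unitClosedBall_eq_addHaar_unitBall,
    volume_closedBall_one]
  simp

theorem toSphere_univ_ne_zero {d : ℕ} (hd : 0 < d) :
    (volume : Measure (E d)).toSphere Set.univ ≠ 0 := by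
  rw [toSphere_univ_eq]
  apply mul_ne_zero
  · exact_mod_cast hd.ne'
  · simpa using vb_pos d

theorem toSphere_univ_ne_top {d : ℕ} :
    (volume : Measure (E d)).toSphere Set.univ ≠ ⊤ := measure_ne_top _ _

theorem isProbabilityMeasure_unif {d : ℕ} (hd : 0 < d) : IsProbabilityMeasure (unif d) := by
  constructor
  rw [unif, Measure.smul_apply, smul_eq_mul]
  exact ENNReal.inv_mul_cancel (toSphere_univ_ne_zero hd) toSphere_univ_ne_top

open scoped Pointwise in
theorem cone_thick {d : ℕ} (hd : 0 < d) {S : Set (Sph d)} {ρ : ℝ} (hρ : 0 < ρ)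
    (hρ1 : ρ ≤ 1) :
    ENNReal.ofReal ρ * volume (Set.Ioo (0 : ℝ) 1 • ((↑) '' S : Set (E d))) ≤
      volume (Set.Ioo (0 : ℝ) 1 • ((↑) '' S : Set (E d)) \
        ((1 - ρ) • (Set.Ioo (0 : ℝ) 1 • ((↑) '' S : Set (E d))))) := by
  set C : Set (E d) := Set.Ioo (0 : ℝ) 1 • ((↑) '' S : Set (E d)) with hC
  have hCsub : C ⊆ closedBall 0 1 := by
    rintro x ⟨r, hr, s, ⟨s', hs', rfl⟩, rfl⟩
    rw [mem_closedBall_zero_iff]
    change ‖r • (s' : E d)‖ ≤ 1
    rw [norm_smul, Real.norm_eq_abs, abs_of_pos hr.1]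
    have : ‖(s' : E d)‖ = 1 := by simp
    rw [this, mul_one]
    exact hr.2.le
  have hCfin : volume C ≠ ⊤ :=
    (lt_of_le_of_lt (measure_mono hCsub) (isCompact_closedBall _ _).measure_lt_top).ne
  refine le_trans ?_ (le_measure_sdiff)
  rw [Measure.addHaar_smul]
  simp only [finrank_euclideanSpace, Fintype.card_fin]
  have h1 : |(1 - ρ) ^ d| ≤ 1 - ρ := by
    rw [abs_pow, abs_of_nonneg (by linarith)]
    calc (1 - ρ) ^ d ≤ (1 - ρ) ^ 1 := pow_le_pow_of_le_one (by linarith) (by linarith) hd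
      _ = 1 - ρ := pow_one _
  have h2 : ENNReal.ofReal |(1 - ρ) ^ d| * volume C ≤ ENNReal.ofReal (1 - ρ) * volume C :=
    mul_le_mul_left (ENNReal.ofReal_le_ofReal h1) _
  refine le_trans ?_ (tsub_le_tsub_left h2 _)
  have h3 : volume C = ENNReal.ofReal ρ * volume C + ENNReal.ofReal (1 - ρ) * volume C := by
    rw [← add_mul, ← ENNReal.ofReal_add hρ.le (by linarith)]
    simp
  apply ENNReal.le_sub_of_add_le_right
  · exact ENNReal.mul_ne_top ENNReal.ofReal_ne_top hCfin
  · exact h3.symm.le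

open scoped Pointwise in
theorem sphLike_unif {d : ℕ} (hd : 0 < d) :
    SphLike ((unif d).map (Subtype.val : Sph d → E d)) := by
  have hp := isProbabilityMeasure_unif hd
  refine ⟨Measure.isProbabilityMeasure_map measurable_subtype_coe.aemeasurable, ?_, ?_⟩
  · rw [ae_map_iff measurable_subtype_coe.aemeasurable
      ((isClosed_eq continuous_norm continuous_const).measurableSet)]
    exact Eventually.of_forall fun s => by simp
  · intro K U hK ρ hρ hρ1 hKU
    rw [Measure.map_apply measurable_subtype_coe hK]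
    set S : Set (Sph d) := Subtype.val ⁻¹' K with hS
    have hSm : MeasurableSet S := measurable_subtype_coe hK
    have hsub : (Set.Ioo (0 : ℝ) 1 • ((↑) '' S : Set (E d)) \
        ((1 - ρ) • (Set.Ioo (0 : ℝ) 1 • ((↑) '' S : Set (E d))))) ⊆ U := by
      rintro x ⟨⟨r, hr, s, ⟨s', hs', rfl⟩, rfl⟩, hx⟩
      have hn : ‖(s' : E d)‖ = 1 := by simp
      refine hKU s' hs' hn _ ?_
      change ‖r • (s' : E d) - s'‖ ≤ ρ
      have h1 : r • (s' : E d) - s' = (r - 1) • (s' : E d) := by rw [sub_smul, one_smul]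
      rw [h1, norm_smul, hn, mul_one, Real.norm_eq_abs, abs_of_nonpos (by linarith [hr.2])]
      by_contra hcon
      rw [not_le] at hcon
      apply hx
      have h2 : 0 < 1 - ρ := by linarith [hr.1]
      refine ⟨(r / (1 - ρ)) • (s' : E d), ⟨r / (1 - ρ), ⟨by have := hr.1; positivity, ?_⟩,
        s', ⟨s', hs', rfl⟩, rfl⟩, ?_⟩
      · rw [div_lt_one h2]; linarith
      · change (1 - ρ) • (r / (1 - ρ)) • (s' : E d) = r • (s' : E d)
        rw [smul_smul]
        congr 1
        field_simp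
    refine le_trans ?_ (measure_mono hsub)
    refine le_trans ?_ (cone_thick hd hρ hρ1)
    rw [unif, Measure.smul_apply, smul_eq_mul, Measure.toSphere_apply' _ hSm, toSphere_univ_eq]
    simp only [finrank_euclideanSpace, Fintype.card_fin]
    set C : Set (E d) := Set.Ioo (0 : ℝ) 1 • ((↑) '' S : Set (E d)) with hC
    have hd0 : (d : ℝ≥0∞) ≠ 0 := by exact_mod_cast hd.ne'
    have hdt : (d : ℝ≥0∞) ≠ ⊤ := ENNReal.natCast_ne_top d
    have hv0 : ENNReal.ofReal (vb d) ≠ 0 := by simpa using vb_pos d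
    have hvt : ENNReal.ofReal (vb d) ≠ ⊤ := ENNReal.ofReal_ne_top
    rw [ENNReal.mul_inv (Or.inl hd0) (Or.inl hdt), ENNReal.ofReal_mul (vb_pos d).le]
    calc (d : ℝ≥0∞)⁻¹ * (ENNReal.ofReal (vb d))⁻¹ * (d * volume C) *
          (ENNReal.ofReal (vb d) * ENNReal.ofReal ρ)
        = ((d : ℝ≥0∞)⁻¹ * d) * ((ENNReal.ofReal (vb d))⁻¹ * ENNReal.ofReal (vb d)) *
          (ENNReal.ofReal ρ * volume C) := by ring
      _ = ENNReal.ofReal ρ * volume C := by
          rw [ENNReal.inv_mul_cancel hd0 hdt, ENNReal.inv_mul_cancel hv0 hvt, one_mul, one_mul]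
      _ ≤ ENNReal.ofReal ρ * volume C := le_rfl

/-- measure of a cap. -/
theorem cap_le {d : ℕ} (hd : 0 < d) {σ : Measure (E d)} (hσ : SphLike σ) (o : E d)
    {ε : ℝ} (hε : 0 < ε) (hε1 : ε ≤ 1) :
    σ {s : E d | ‖s - o‖ ≤ ε} ≤ ENNReal.ofReal (2 ^ d * ε ^ (d - 1)) := by
  have hKm : MeasurableSet {s : E d | ‖s - o‖ ≤ ε} :=
    (isClosed_le (by fun_prop) continuous_const).measurableSet
  have h1 := hσ.thick {s : E d | ‖s - o‖ ≤ ε} (closedBall o (2 * ε)) hKm ε hε hε1
    (fun s hs _ x hx => by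
      rw [mem_closedBall, dist_eq_norm]
      have hs' : ‖s - o‖ ≤ ε := hs
      calc ‖x - o‖ = ‖(x - s) + (s - o)‖ := by congr 1; abel
        _ ≤ ‖x - s‖ + ‖s - o‖ := norm_add_le _ _
        _ ≤ 2 * ε := by linarith)
  rw [Measure.addHaar_closedBall' _ _ (by positivity), volume_closedBall_one] at h1
  simp only [finrank_euclideanSpace, Fintype.card_fin] at h1
  have hv := vb_pos d
  have hpos : 0 < vb d * ε := by positivity
  have hne0 : ENNReal.ofReal (vb d * ε) ≠ 0 := by simpa using hpos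
  rw [← ENNReal.ofReal_mul (by positivity), ← ENNReal.le_div_iff_mul_le (Or.inl hne0)
    (Or.inl ENNReal.ofReal_ne_top), ← ENNReal.ofReal_div_of_pos hpos] at h1
  refine h1.trans (ENNReal.ofReal_le_ofReal (le_of_eq ?_))
  obtain ⟨m, rfl⟩ : ∃ m, d = m + 1 := ⟨d - 1, by omega⟩
  rw [Nat.add_sub_cancel, mul_pow, pow_succ ε m]
  field_simp

/-- angle at most `ε` implies distance at most `ε`, for unit vectors. -/
theorem norm_sub_le_of_arccos {d : ℕ} {o s : E d} (ho : ‖o‖ = 1) (hs : ‖s‖ = 1) {ε : ℝ}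
    (h : Real.arccos ⟪o, s⟫ ≤ ε) : ‖s - o‖ ≤ ε := by
  set θ := Real.arccos ⟪o, s⟫ with hθ
  have h0 : 0 ≤ θ := Real.arccos_nonneg _
  have hcos : Real.cos θ = ⟪o, s⟫ := by
    apply Real.cos_arccos
    · have := abs_real_inner_le_norm o s
      rw [ho, hs, mul_one] at this
      linarith [neg_abs_le ⟪o, s⟫]
    · have := real_inner_le_norm o s
      rw [ho, hs, mul_one] at this
      exact this
  have h1 : ‖s - o‖ ^ 2 ≤ θ ^ 2 := by
    rw [norm_sub_sq_real, ho, hs, real_inner_comm]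
    have h2 := Real.one_sub_sq_div_two_le_cos (x := θ)
    rw [hcos] at h2
    nlinarith
  have h3 : ‖s - o‖ ≤ θ := le_of_sq_le_sq h1 h0
  exact h3.trans h

end P309
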