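import Mathlib
import Vale.Agent.P309.Geo
import Vale.Agent.P309.Sphere

/-! P309 module Kernel: the kernel bound (dyadic shells). -/

open MeasureTheory ProbabilityTheory Metric Matrix Filter Topology
open scoped ENNReal RealInnerProductSpace

namespace P309

/-- pointwise dyadic bound, in `ℝ≥0∞`. -/
theorem inv_pow_le_tsum {q : ℕ} (hq : 0 < q) {x : ℝ} (hx : 0 ≤ x) (hx2 : x ≤ 2) :
    (ENNReal.ofReal x ^ q)⁻¹ ≤
      ∑' i : ℕ, (if x ≤ 2 * (1 / 2) ^ i then (2 : ℝ≥0∞) ^ (i * q) else 0) := by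
  rcases hx.eq_or_lt with h0 | hpos
  · subst h0
    have h1 : ∀ i : ℕ, (if (0:ℝ) ≤ 2 * (1 / 2) ^ i then (2 : ℝ≥0∞) ^ (i * q) else 0)
        = 2 ^ (i * q) := by
      intro i
      rw [if_pos (by positivity)]
    simp_rw [h1]
    have h2 : (⊤ : ℝ≥0∞) ≤ ∑' i : ℕ, (2 : ℝ≥0∞) ^ (i * q) := by
      calc (⊤ : ℝ≥0∞) = ∑' _ : ℕ, (1 : ℝ≥0∞) :=
            (ENNReal.tsum_const_eq_top_of_ne_zero one_ne_zero).symm
        _ ≤ _ := ENNReal.tsum_le_tsum fun i => one_le_pow₀ (by norm_num)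
    exact le_top.trans h2
  · obtain ⟨n, hn1, hn2⟩ := exists_nat_pow_near_of_lt_one (x := x / 2) (y := (1 / 2 : ℝ))
      (by positivity) (by linarith) (by norm_num) (by norm_num)
    have hterm : (ENNReal.ofReal x ^ q)⁻¹ ≤
        (if x ≤ 2 * (1 / 2) ^ n then (2 : ℝ≥0∞) ^ (n * q) else 0) := by
      rw [if_pos (by linarith), pow_mul, ENNReal.inv_pow]
      apply pow_le_pow_left'
      rw [ENNReal.inv_le_iff_inv_le, ENNReal.inv_pow]
      have h2 : ((2 : ℝ≥0∞))⁻¹ = ENNReal.ofReal (1 / 2) := by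
        rw [ENNReal.ofReal_div_of_pos (by norm_num)]
        simp
      rw [h2, ← ENNReal.ofReal_pow (by norm_num)]
      apply ENNReal.ofReal_le_ofReal
      rw [pow_succ] at hn1
      linarith
    exact hterm.trans (ENNReal.le_tsum n)

/-- the algebra shared by the two kinds of shells. -/
theorem sqrt_shell {d q : ℕ} {H : Matrix (Fin d) (Fin d) ℝ} (hH : H.PosDef)
    {t : ℝ} (ht : 0 < t) (D : Submodule ℝ (E d)) (hD : Module.finrank ℝ D < q)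
    {ρ : ℝ} (hρ : 0 < ρ) :
    √(Ek H (perpMat D) q) *
      √(size2 (2 * q) (H + (ρ⁻¹ ^ 2) • perpMat D) (max t (ρ⁻¹ ^ 2))) ≤
    √2 ^ d * ρ ^ q * √(size2 (2 * q) H t) := by
  obtain ⟨B, hB, hP⟩ := exists_orthonormal_cols D
  have hS : 0 < ρ⁻¹ ^ 2 := by positivity
  have h := lemC (k := q) (κ := 2 * q) hH B hB hP (by omega) hS ht
  have hE := Ek_nonneg hH (perpMat_posSemidef D) q
  rw [← Real.sqrt_mul hE]
  refine (Real.sqrt_le_sqrt h).trans (le_of_eq ?_)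
  have h1 : 0 ≤ 2 ^ d / (ρ⁻¹ ^ 2) ^ q := by positivity
  rw [Real.sqrt_mul h1]
  congr 1
  have h2 : (2:ℝ) ^ d / (ρ⁻¹ ^ 2) ^ q = (√2 ^ d * ρ ^ q) ^ 2 := by
    have ha : (√(2:ℝ) ^ d) ^ 2 = 2 ^ d := by
      rw [← pow_mul, mul_comm d 2, pow_mul, Real.sq_sqrt (by norm_num)]
    rw [mul_pow, ha, inv_pow, inv_pow, div_inv_eq_mul, ← pow_mul, ← pow_mul, mul_comm 2 q]
  rw [h2, Real.sqrt_sq (by positivity)]

/-- large shells: `ρ ≥ ε`. -/
theorem shell_large {d q : ℕ} {ε W : ℝ} (hε : 0 < ε) (hW : 0 ≤ W) {σ : Measure (E d)}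
    {g : E d → ℝ≥0∞} (hg : WBdd σ (2 * q) ε W g)
    {H : Matrix (Fin d) (Fin d) ℝ} (hH : Adm ε H) (z : E d) {t : ℝ} (ht : 0 < t)
    (D : Submodule ℝ (E d)) (hD : Module.finrank ℝ D < q) (s₀ : E d)
    {ρ : ℝ} (hρ : ε ≤ ρ) :
    ENNReal.ofReal (√(Ek H (perpMat D) q)) *
      ∫⁻ s in ell z H ∩ {s | ‖Dᗮ.starProjection (s - s₀)‖ ≤ ρ}, g s ∂σ ≤
    ENNReal.ofReal (W * 8 ^ q * √2 ^ d * ρ ^ q * √(size2 (2 * q) H t)) := by
  have hρ0 : 0 < ρ := hε.trans_le hρ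
  rcases Set.eq_empty_or_nonempty (ell z H ∩ {s | ‖Dᗮ.starProjection (s - s₀)‖ ≤ ρ}) with
    hemp | ⟨s', hs'⟩
  · rw [hemp]; simp
  have hsub : ell z H ∩ {s | ‖Dᗮ.starProjection (s - s₀)‖ ≤ ρ} ⊆
      ell s' ((1 / 8 : ℝ) • (H + (ρ⁻¹ ^ 2) • perpMat D)) := by
    rintro s ⟨hs1, hs2⟩
    exact mem_ell_of_shell hH.posDef D hρ0 hs1 hs'.1 hs2 hs'.2
  have hS : 0 < ρ⁻¹ ^ 2 := by positivity
  have hmx : 0 < max t (ρ⁻¹ ^ 2) := lt_max_of_lt_left ht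
  have h1 : ∫⁻ s in ell z H ∩ {s | ‖Dᗮ.starProjection (s - s₀)‖ ≤ ρ}, g s ∂σ ≤
      ENNReal.ofReal (W * √(size2 (2 * q) ((1 / 8 : ℝ) • (H + (ρ⁻¹ ^ 2) • perpMat D))
        (1 / 8 * max t (ρ⁻¹ ^ 2)))) :=
    (lintegral_mono_set hsub).trans
      (hg s' _ (adm_shell hε hH D hρ) _ (by positivity))
  rw [size2_smul (2 * q) _ (by norm_num : (0:ℝ) < 1 / 8)] at h1
  refine (mul_le_mul_right h1 _).trans ?_
  rw [← ENNReal.ofReal_mul (Real.sqrt_nonneg _)]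
  apply ENNReal.ofReal_le_ofReal
  have h2 : √(((1 / 8 : ℝ)⁻¹) ^ (2 * q) *
      size2 (2 * q) (H + (ρ⁻¹ ^ 2) • perpMat D) (max t (ρ⁻¹ ^ 2))) =
      8 ^ q * √(size2 (2 * q) (H + (ρ⁻¹ ^ 2) • perpMat D) (max t (ρ⁻¹ ^ 2))) := by
    rw [Real.sqrt_mul (by positivity)]
    congr 1
    have : ((1 / 8 : ℝ)⁻¹) ^ (2 * q) = (8 ^ q) ^ 2 := by
      rw [← pow_mul, mul_comm q 2]; norm_num
    rw [this, Real.sqrt_sq (by positivity)]
  rw [h2]
  have h3 := sqrt_shell hH.posDef ht D hD hρ0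
  calc √(Ek H (perpMat D) q) * (W * (8 ^ q *
        √(size2 (2 * q) (H + (ρ⁻¹ ^ 2) • perpMat D) (max t (ρ⁻¹ ^ 2)))))
      = (W * 8 ^ q) * (√(Ek H (perpMat D) q) *
        √(size2 (2 * q) (H + (ρ⁻¹ ^ 2) • perpMat D) (max t (ρ⁻¹ ^ 2)))) := by ring
    _ ≤ (W * 8 ^ q) * (√2 ^ d * ρ ^ q * √(size2 (2 * q) H t)) :=
        mul_le_mul_of_nonneg_left h3 (by positivity)
    _ = _ := by ring

/-- small shells: `ρ ≤ ε`. -/
theorem shell_small {d q : ℕ} (hd : 2 * q < d) {ε : ℝ} (hε : 0 < ε) (hε1 : ε ≤ 1)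
    {σ : Measure (E d)} (hσ : SphLike σ)
    {g : E d → ℝ≥0∞} (hg : ∀ s, g s ≤ 1)
    {H : Matrix (Fin d) (Fin d) ℝ} (hH : Adm ε H) (z : E d) {t : ℝ} (ht : 0 < t)
    (D : Submodule ℝ (E d)) (hD : Module.finrank ℝ D < q) (s₀ : E d)
    {ρ : ℝ} (hρ0 : 0 < ρ) (hρ : ρ ≤ ε) :
    ENNReal.ofReal (√(Ek H (perpMat D) q)) *
      ∫⁻ s in ell z H ∩ {s | ‖Dᗮ.starProjection (s - s₀)‖ ≤ ρ}, g s ∂σ ≤
    ENNReal.ofReal (6 ^ d * ρ ^ (d - 2 * q - 1) * ρ ^ q * √(size2 (2 * q) H t)) := by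
  rcases Set.eq_empty_or_nonempty (ell z H ∩ {s | ‖Dᗮ.starProjection (s - s₀)‖ ≤ ρ}) with
    hemp | ⟨s', hs'⟩
  · rw [hemp]; simp
  set K := ell z H ∩ {s | ‖Dᗮ.starProjection (s - s₀)‖ ≤ ρ} with hK
  set S : ℝ := ρ⁻¹ ^ 2 with hSdef
  have hS : 0 < S := by positivity
  set H₁ := H + S • perpMat D with hH₁
  have hH₁pd : H₁.PosDef := hH.posDef.add_posSemidef
    ((perpMat_posSemidef D).smul hS.le)
  have hpd18 : ((1 / 18 : ℝ) • H₁).PosDef := hH₁pd.smul (by norm_num)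
  have hclosed : IsClosed K := by
    refine (isClosed_ell z H).inter ?_
    exact isClosed_le (by fun_prop) continuous_const
  have hthick := hσ.thick K (ell s' ((1 / 18 : ℝ) • H₁)) hclosed.measurableSet ρ hρ0
    (hρ.trans hε1) (by
      rintro s ⟨hs1, hs2⟩ - x hx
      exact mem_ell_of_thick hε hH D hρ0 hρ hs1 hs'.1 hs2 hs'.2 hx)
  rw [volume_ell hpd18] at hthick
  have hvb := vb_pos d
  have hdet1 : 0 < H₁.det := hH₁pd.det_pos
  have hdet18 : 0 < ((1 / 18 : ℝ) • H₁).det := hpd18.det_pos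
  -- bound on `σ K`
  have hσK : σ K ≤ ENNReal.ofReal (ρ⁻¹ * √(((1 / 18 : ℝ) • H₁).det)⁻¹) := by
    have hpos : ENNReal.ofReal (vb d * ρ) ≠ 0 := by
      simp only [ne_eq, ENNReal.ofReal_eq_zero, not_le]; positivity
    have h1 : σ K ≤ ENNReal.ofReal (vb d / √((1 / 18 : ℝ) • H₁).det) /
        ENNReal.ofReal (vb d * ρ) := by
      rw [ENNReal.le_div_iff_mul_le (Or.inl hpos) (Or.inl ENNReal.ofReal_ne_top)]
      exact hthick
    refine h1.trans (le_of_eq ?_)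
    rw [← ENNReal.ofReal_div_of_pos (by positivity)]
    congr 1
    rw [Real.sqrt_inv]
    field_simp
  have h1 : ∫⁻ s in K, g s ∂σ ≤ σ K := by
    calc ∫⁻ s in K, g s ∂σ ≤ ∫⁻ _ in K, 1 ∂σ := lintegral_mono fun s => hg s
      _ = σ K := by simp
  refine (mul_le_mul_right (h1.trans hσK) _).trans ?_
  rw [← ENNReal.ofReal_mul (Real.sqrt_nonneg _)]
  apply ENNReal.ofReal_le_ofReal
  -- determinant
  have hdet : (((1 / 18 : ℝ) • H₁).det)⁻¹ = 18 ^ d * (H₁.det)⁻¹ := by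
    rw [Matrix.det_smul, Fintype.card_fin, mul_inv, one_div, inv_pow, inv_inv]
  have hmx : 0 < max t S := lt_max_of_lt_left ht
  have h2 : (H₁.det)⁻¹ ≤ size2 (2 * q) H₁ (max t S) / S ^ (d - 2 * q) := by
    refine (inv_det_le_size2 (κ := 2 * q) hd.le hH₁pd hmx).trans ?_
    apply div_le_div_of_nonneg_left (size2_pos _ hH₁pd hmx).le (by positivity)
    exact pow_le_pow_left₀ hS.le (le_max_right _ _) _
  have h3 : √(((1 / 18 : ℝ) • H₁).det)⁻¹ ≤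
      √18 ^ d * (ρ ^ (d - 2 * q) * √(size2 (2 * q) H₁ (max t S))) := by
    rw [hdet, Real.sqrt_mul (by positivity)]
    have ha : √((18:ℝ) ^ d) = √18 ^ d := by
      rw [Real.sqrt_eq_iff_mul_self_eq (by positivity) (by positivity), ← mul_pow,
        Real.mul_self_sqrt (by norm_num)]
    rw [ha]
    apply mul_le_mul_of_nonneg_left _ (by positivity)
    refine (Real.sqrt_le_sqrt h2).trans (le_of_eq ?_)
    rw [Real.sqrt_div (size2_pos _ hH₁pd hmx).le]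
    have hb : √(S ^ (d - 2 * q)) = ρ⁻¹ ^ (d - 2 * q) := by
      rw [hSdef, ← pow_mul, mul_comm 2, pow_mul, Real.sqrt_sq (by positivity)]
    rw [hb, inv_pow, div_inv_eq_mul, mul_comm]
  have h4 := sqrt_shell hH.posDef ht D hD hρ0
  rw [← hSdef, ← hH₁] at h4
  have h5 : √18 * √2 = (6:ℝ) := by
    rw [← Real.sqrt_mul (by norm_num)]
    rw [show (18:ℝ) * 2 = 6 ^ 2 by norm_num, Real.sqrt_sq (by norm_num)]
  have h6 : ρ⁻¹ * ρ ^ (d - 2 * q) = ρ ^ (d - 2 * q - 1) := by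
    obtain ⟨m, hm⟩ : ∃ m, d - 2 * q = m + 1 := ⟨d - 2 * q - 1, by omega⟩
    rw [hm, Nat.add_sub_cancel, pow_succ]
    field_simp
  calc √(Ek H (perpMat D) q) * (ρ⁻¹ * √(((1 / 18 : ℝ) • H₁).det)⁻¹)
      ≤ √(Ek H (perpMat D) q) * (ρ⁻¹ *
        (√18 ^ d * (ρ ^ (d - 2 * q) * √(size2 (2 * q) H₁ (max t S))))) := by
        gcongr
    _ = √18 ^ d * (ρ⁻¹ * ρ ^ (d - 2 * q)) * (√(Ek H (perpMat D) q) *
        √(size2 (2 * q) H₁ (max t S))) := by ring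
    _ ≤ √18 ^ d * (ρ⁻¹ * ρ ^ (d - 2 * q)) * (√2 ^ d * ρ ^ q * √(size2 (2 * q) H t)) := by
        gcongr
    _ = (√18 * √2) ^ d * (ρ⁻¹ * ρ ^ (d - 2 * q)) * ρ ^ q * √(size2 (2 * q) H t) := by
        rw [mul_pow]; ring
    _ = _ := by rw [h5, h6]

theorem kernel_bound {d q L : ℕ} (hq : 0 < q) (hd : 8 * q ≤ d) {W : ℝ}
    (hW : ((1 : ℝ) / 2 ^ L) ^ (d - 2 * q - 1) ≤ W)
    {σ : Measure (E d)} (hσ : SphLike σ)
    {g : E d → ℝ≥0∞} (hgm : Measurable g) (hg1 : ∀ s, g s ≤ 1)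
    (hg : WBdd σ (2 * q) (1 / 2 ^ L) W g)
    {H : Matrix (Fin d) (Fin d) ℝ} (hH : Adm (1 / 2 ^ L) H) (z : E d) {t : ℝ} (ht : 0 < t)
    (D : Submodule ℝ (E d)) (hD : Module.finrank ℝ D < q) (s₀ : E d) (hs₀ : ‖s₀‖ = 1) :
    ENNReal.ofReal (√(Ek H (perpMat D) q)) *
      ∫⁻ s in ell z H, g s / ENNReal.ofReal ‖Dᗮ.starProjection (s - s₀)‖ ^ q ∂σ ≤
    ENNReal.ofReal (16 ^ d * (L + 2) * W * √(size2 (2 * q) H t)) := by
  have hW0 : 0 ≤ W := le_trans (by positivity) hW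
  have hε : (0:ℝ) < 1 / 2 ^ L := by positivity
  have hε1 : (1:ℝ) / 2 ^ L ≤ 1 := by
    rw [div_le_one (by positivity)]; exact one_le_pow₀ (by norm_num)
  set x : E d → ℝ := fun s => ‖Dᗮ.starProjection (s - s₀)‖ with hx
  have hxc : Continuous x := by rw [hx]; fun_prop
  set z₂ : ℝ := √(size2 (2 * q) H t) with hz₂
  have hz₂0 : 0 ≤ z₂ := Real.sqrt_nonneg _
  -- pointwise
  have hpt : ∀ᵐ s ∂σ, s ∈ ell z H → g s / ENNReal.ofReal (x s) ^ q ≤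
      ∑' i : ℕ, (2 : ℝ≥0∞) ^ (i * q) * Set.indicator {s | x s ≤ 2 * (1 / 2) ^ i} g s := by
    filter_upwards [hσ.norm_one] with s hs _
    have hx2 : x s ≤ 2 := by
      calc x s ≤ ‖s - s₀‖ := Submodule.norm_starProjection_apply_le _ _
        _ ≤ ‖s‖ + ‖s₀‖ := norm_sub_le _ _
        _ = 2 := by rw [hs, hs₀]; norm_num
    rw [div_eq_mul_inv]
    refine (mul_le_mul_right (inv_pow_le_tsum hq (norm_nonneg _) hx2) _).trans ?_
    rw [← ENNReal.tsum_mul_left]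
    apply ENNReal.tsum_le_tsum
    intro i
    by_cases hi : x s ≤ 2 * (1 / 2) ^ i
    · have : s ∈ {s | x s ≤ 2 * (1 / 2) ^ i} := hi
      rw [if_pos hi, Set.indicator_of_mem this, mul_comm]
    · rw [if_neg hi]; simp
  have hmeas : ∀ i : ℕ, MeasurableSet {s | x s ≤ 2 * (1 / 2) ^ i} := fun i =>
    (isClosed_le hxc continuous_const).measurableSet
  have hell : MeasurableSet (ell z H) := (isClosed_ell z H).measurableSet
  have hm2 : ∀ i : ℕ, Measurable fun s =>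
      (2 : ℝ≥0∞) ^ (i * q) * Set.indicator {s | x s ≤ 2 * (1 / 2) ^ i} g s := fun i =>
    (hgm.indicator (hmeas i)).const_mul _
  have h1 : ∫⁻ s in ell z H, g s / ENNReal.ofReal (x s) ^ q ∂σ ≤
      ∑' i : ℕ, (2 : ℝ≥0∞) ^ (i * q) *
        ∫⁻ s in ell z H ∩ {s | x s ≤ 2 * (1 / 2) ^ i}, g s ∂σ := by
    calc ∫⁻ s in ell z H, g s / ENNReal.ofReal (x s) ^ q ∂σ
        ≤ ∫⁻ s in ell z H, ∑' i : ℕ, (2 : ℝ≥0∞) ^ (i * q) *
          Set.indicator {s | x s ≤ 2 * (1 / 2) ^ i} g s ∂σ := by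
          apply setLIntegral_mono_ae _ hpt
          exact (Measurable.tsum hm2).aemeasurable
      _ = ∑' i : ℕ, ∫⁻ s in ell z H, (2 : ℝ≥0∞) ^ (i * q) *
          Set.indicator {s | x s ≤ 2 * (1 / 2) ^ i} g s ∂σ :=
          lintegral_tsum fun i => (hm2 i).aemeasurable
      _ = _ := by
          congr 1
          ext i
          rw [lintegral_const_mul _ (hgm.indicator (hmeas i))]
          congr 1
          rw [lintegral_indicator (hmeas i), Measure.restrict_restrict (hmeas i),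
            Set.inter_comm]
  refine (mul_le_mul_right h1 _).trans ?_
  rw [← ENNReal.tsum_mul_left]
  -- termwise bounds
  set b : ℕ → ℝ≥0∞ := fun i => ENNReal.ofReal (√(Ek H (perpMat D) q)) *
      ((2 : ℝ≥0∞) ^ (i * q) *
        ∫⁻ s in ell z H ∩ {s | x s ≤ 2 * (1 / 2) ^ i}, g s ∂σ) with hb
  have hpow2 : ∀ i : ℕ, ((2 : ℝ≥0∞) ^ (i * q)) = ENNReal.ofReal (2 ^ (i * q)) := by
    intro i
    rw [ENNReal.ofReal_pow (by norm_num)]; simp
  have hρq : ∀ i : ℕ, (2:ℝ) ^ (i * q) * (2 * (1 / 2) ^ i) ^ q = 2 ^ q := by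
    intro i
    rw [pow_mul, ← mul_pow]
    congr 1
    rw [one_div, inv_pow]
    field_simp
  have hlarge : ∀ i : ℕ, i < L + 2 → b i ≤ ENNReal.ofReal (4 ^ d * W * z₂) := by
    intro i hi
    have hρ : (1:ℝ) / 2 ^ L ≤ 2 * (1 / 2) ^ i := by
      have h1 : ((1:ℝ) / 2) ^ (L + 1) ≤ (1 / 2) ^ i :=
        pow_le_pow_of_le_one (by norm_num) (by norm_num) (by omega)
      have h2 : (1:ℝ) / 2 ^ L = 2 * (1 / 2) ^ (L + 1) := by
        rw [one_div, one_div, ← inv_pow, pow_succ]; ring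
      rw [h2]; linarith
    have h := shell_large hε hW0 hg hH z ht D hD s₀ hρ
    have hbi : b i = (2 : ℝ≥0∞) ^ (i * q) * (ENNReal.ofReal (√(Ek H (perpMat D) q)) *
        ∫⁻ s in ell z H ∩ {s | x s ≤ 2 * (1 / 2) ^ i}, g s ∂σ) := by
      rw [hb]; ring
    rw [hbi]
    refine (mul_le_mul_right h _).trans ?_
    rw [hpow2, ← ENNReal.ofReal_mul (by positivity)]
    apply ENNReal.ofReal_le_ofReal
    have e1 : (2:ℝ) ^ (i * q) * (W * 8 ^ q * √2 ^ d * (2 * (1 / 2) ^ i) ^ q *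
        √(size2 (2 * q) H t)) = (2 ^ (i * q) * (2 * (1 / 2) ^ i) ^ q) * 8 ^ q * √2 ^ d * W
          * z₂ := by ring
    rw [e1, hρq]
    have e2 : (2:ℝ) ^ q * 8 ^ q * √2 ^ d ≤ 4 ^ d := by
      have f1 : (2:ℝ) ^ q * 8 ^ q = 2 ^ (4 * q) := by
        rw [← mul_pow, pow_mul]; norm_num
      have f2 : (2:ℝ) ^ (4 * q) ≤ 2 ^ d := pow_le_pow_right₀ (by norm_num) (by omega)
      have f3 : √2 ≤ 2 := by
        rw [Real.sqrt_le_left (by norm_num)]; norm_num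
      have f4 : √2 ^ d ≤ 2 ^ d := pow_le_pow_left₀ (Real.sqrt_nonneg _) f3 _
      rw [f1]
      calc (2:ℝ) ^ (4 * q) * √2 ^ d ≤ 2 ^ d * 2 ^ d := by gcongr
        _ = 4 ^ d := by rw [← mul_pow]; norm_num
    gcongr
  have hsmall : ∀ j : ℕ, b (j + (L + 2)) ≤
      ENNReal.ofReal ((12 ^ d * W * z₂) / 2 / 2 ^ j) := by
    intro j
    set ρ : ℝ := 2 * (1 / 2) ^ (j + (L + 2)) with hρdef
    have hρ0 : 0 < ρ := by positivity
    have hρeq : ρ = (1 / 2 ^ L) * (1 / 2) ^ (j + 1) := by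
      rw [hρdef]
      have : (1:ℝ) / 2 ^ L = (1 / 2) ^ L := by rw [one_div, one_div, inv_pow]
      rw [this]
      rw [show j + (L + 2) = 1 + (L + (j + 1)) by ring, pow_add, pow_add (1 / 2 : ℝ) L]
      ring
    have hhalf : ((1:ℝ) / 2) ^ (j + 1) ≤ 1 := pow_le_one₀ (by norm_num) (by norm_num)
    have hρ : ρ ≤ 1 / 2 ^ L := by
      rw [hρeq]; exact mul_le_of_le_one_right hε.le hhalf
    have h := shell_small (by omega) hε hε1 hσ hg1 hH z ht D hD s₀ hρ0 hρ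
    have hbi : b (j + (L + 2)) = (2 : ℝ≥0∞) ^ ((j + (L + 2)) * q) *
        (ENNReal.ofReal (√(Ek H (perpMat D) q)) *
        ∫⁻ s in ell z H ∩ {s | x s ≤ ρ}, g s ∂σ) := by
      rw [hb]; ring
    rw [hbi]
    refine (mul_le_mul_right h _).trans ?_
    rw [hpow2, ← ENNReal.ofReal_mul (by positivity)]
    apply ENNReal.ofReal_le_ofReal
    have e1 : (2:ℝ) ^ ((j + (L + 2)) * q) * (6 ^ d * ρ ^ (d - 2 * q - 1) * ρ ^ q *
        √(size2 (2 * q) H t)) = (2 ^ ((j + (L + 2)) * q) * ρ ^ q) * 6 ^ d *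
          ρ ^ (d - 2 * q - 1) * z₂ := by ring
    rw [e1, hρdef, hρq, ← hρdef]
    have e2 : (2:ℝ) ^ q * 6 ^ d ≤ 12 ^ d := by
      have f2 : (2:ℝ) ^ q ≤ 2 ^ d := pow_le_pow_right₀ (by norm_num) (by omega)
      calc (2:ℝ) ^ q * 6 ^ d ≤ 2 ^ d * 6 ^ d := by gcongr
        _ = 12 ^ d := by rw [← mul_pow]; norm_num
    have e3 : ρ ^ (d - 2 * q - 1) ≤ W * (1 / 2) ^ (j + 1) := by
      rw [hρeq, mul_pow]
      apply mul_le_mul hW _ (by positivity) hW0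
      have : ((1:ℝ) / 2) ^ (j + 1) ≤ 1 := hhalf
      exact pow_le_of_le_one (by positivity) this (by omega)
    calc (2:ℝ) ^ q * 6 ^ d * ρ ^ (d - 2 * q - 1) * z₂ ≤ 12 ^ d * (W * (1 / 2) ^ (j + 1)) * z₂ := by
          gcongr
      _ = 12 ^ d * W * z₂ / 2 / 2 ^ j := by
          rw [one_div, inv_pow, pow_succ]
          field_simp
  -- summation
  have hA : 0 ≤ 12 ^ d * W * z₂ := by positivity
  have hsum : ∑' j : ℕ, ENNReal.ofReal ((12 ^ d * W * z₂) / 2 / 2 ^ j) =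
      ENNReal.ofReal (12 ^ d * W * z₂) := by
    rw [← ENNReal.ofReal_tsum_of_nonneg (fun j => by positivity) (summable_geometric_two' _),
      tsum_geometric_two']
  calc ∑' i, b i = ∑ i ∈ Finset.range (L + 2), b i + ∑' j, b (j + (L + 2)) :=
        (Summable.sum_add_tsum_nat_add' ENNReal.summable).symm
    _ ≤ ∑ _i ∈ Finset.range (L + 2), ENNReal.ofReal (4 ^ d * W * z₂) +
        ∑' j : ℕ, ENNReal.ofReal ((12 ^ d * W * z₂) / 2 / 2 ^ j) := by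
        refine add_le_add (Finset.sum_le_sum fun i hi => hlarge i (Finset.mem_range.1 hi))
          (ENNReal.tsum_le_tsum hsmall)
    _ = ENNReal.ofReal ((L + 2) * (4 ^ d * W * z₂) + 12 ^ d * W * z₂) := by
        have hL : ((L + 2 : ℕ) : ℝ≥0∞) = ENNReal.ofReal ((L:ℝ) + 2) := by
          rw [← ENNReal.ofReal_natCast]; push_cast; rfl
        rw [hsum, Finset.sum_const, Finset.card_range, nsmul_eq_mul,
          ENNReal.ofReal_add (by positivity) (by positivity),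
          ENNReal.ofReal_mul (p := (L:ℝ) + 2) (by positivity), hL]
    _ ≤ _ := by
        apply ENNReal.ofReal_le_ofReal
        have hL2 : (1:ℝ) ≤ (L:ℝ) + 2 := by
          have : (0:ℝ) ≤ L := Nat.cast_nonneg L
          linarith
        have hd1 : d ≠ 0 := by omega
        have h16 : (4:ℝ) ^ d + 12 ^ d ≤ 16 ^ d := by
          have := pow_add_pow_le (x := (4:ℝ)) (y := 12) (by norm_num) (by norm_num) hd1
          norm_num at this
          exact this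
        have hWz : 0 ≤ W * z₂ := by positivity
        calc ((L:ℝ) + 2) * (4 ^ d * W * z₂) + 12 ^ d * W * z₂
            ≤ ((L:ℝ) + 2) * (4 ^ d * W * z₂) + ((L:ℝ) + 2) * (12 ^ d * W * z₂) := by
              have := le_mul_of_one_le_left hA hL2
              linarith
          _ = (4 ^ d + 12 ^ d) * (((L:ℝ) + 2) * (W * z₂)) := by ring
          _ ≤ 16 ^ d * (((L:ℝ) + 2) * (W * z₂)) := by gcongr
          _ = _ := by ring

end P309
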