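import Mathlib
import Vale.Agent.P309.Defs

/-! P309 module Seq: sequential integration. -/

open MeasureTheory ProbabilityTheory Metric Matrix Filter Topology
open scoped ENNReal RealInnerProductSpace

namespace P309

/-- the flag spans only depend on the previous vectors. -/
theorem seq_Dlt_castSucc {d n : ℕ} (u : Fin (n + 1) → E d) (v : Fin n → E d)
    (huv : ∀ j : Fin n, u j.castSucc = v j) (i : Fin n) :
    Dlt u i.castSucc = Dlt v i := by
  unfold Dlt
  have h : u '' {j | j < i.castSucc} = v '' {j | j < i} := by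
    ext w
    constructor
    · rintro ⟨j, hj, rfl⟩
      have hj' : j < i.castSucc := hj
      have hjn : (j : ℕ) < n := lt_trans (Fin.lt_def.mp hj') i.isLt
      refine ⟨⟨j, hjn⟩, ?_, ?_⟩
      · exact Fin.lt_def.mpr (Fin.lt_def.mp hj')
      · rw [← huv]
        rfl
    · rintro ⟨j, hj, rfl⟩
      have hj' : j < i := hj
      exact ⟨j.castSucc, Fin.lt_def.mpr (Fin.lt_def.mp hj'), huv j⟩
  rw [h]

/-- the last span is the span of the range of the previous vectors. -/
theorem seq_Dlt_last {d n : ℕ} (u : Fin (n + 1) → E d) (v : Fin n → E d)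
    (huv : ∀ j : Fin n, u j.castSucc = v j) :
    Dlt u (Fin.last n) = Submodule.span ℝ (Set.range v) := by
  unfold Dlt
  have h : u '' {j | j < Fin.last n} = Set.range v := by
    ext w
    constructor
    · rintro ⟨j, hj, rfl⟩
      have hj' : j < Fin.last n := hj
      have hjn : (j : ℕ) < n := Fin.lt_def.mp hj'
      refine ⟨⟨j, hjn⟩, ?_⟩
      rw [← huv]
      rfl
    · rintro ⟨j, rfl⟩
      exact ⟨j.castSucc, Fin.lt_def.mpr j.isLt, huv j⟩
  rw [h]

theorem seq_step_mul {α β : Type*} [MeasurableSpace α] [MeasurableSpace β] {μ : Measure α}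
    {ν : Measure β} (G : α → ℝ≥0∞) (k : α → β → ℝ≥0∞) {B C : ℝ≥0∞}
    (hk : ∀ y, ∫⁻ x, k y x ∂ν ≤ B) (hG : ∫⁻ y, G y ∂μ ≤ C) (hB : B ≠ ∞)
    (h0 : (∀ y, G y ≠ ∞) ∨ B ≠ 0 ∨ C = 0) :
    ∫⁻ y, ∫⁻ x, G y * k y x ∂ν ∂μ ≤ C * B := by
  by_cases hB0 : B = 0
  · have hfin : ∀ y, G y ≠ ∞ → ∫⁻ x, G y * k y x ∂ν = 0 := by
      intro y hy
      rw [lintegral_const_mul' _ _ hy]
      have : ∫⁻ x, k y x ∂ν = 0 := le_antisymm (by rw [← hB0]; exact hk y) bot_le
      rw [this, mul_zero]
    rcases h0 with h0 | h0 | h0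
    · have : ∀ y, ∫⁻ x, G y * k y x ∂ν = 0 := fun y => hfin y (h0 y)
      simp [this]
    · exact absurd hB0 h0
    · calc ∫⁻ y, ∫⁻ x, G y * k y x ∂ν ∂μ ≤ ∫⁻ y, G y ∂μ := by
            apply lintegral_mono
            intro y
            by_cases hy : G y = ∞
            · simp [hy]
            · simp [hfin y hy]
        _ ≤ C := hG
        _ = C * B := by rw [h0, zero_mul]
  · calc ∫⁻ y, ∫⁻ x, G y * k y x ∂ν ∂μ ≤ ∫⁻ y, G y * B ∂μ := by
          apply lintegral_mono
          intro y
          by_cases hy : G y = ∞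
          · simp only [hy]
            rw [ENNReal.top_mul hB0]
            exact le_top
          · simp only
            rw [lintegral_const_mul' _ _ hy]
            exact mul_le_mul_right (hk y) _
      _ = (∫⁻ y, G y ∂μ) * B := lintegral_mul_const' _ _ hB
      _ ≤ C * B := mul_le_mul_left hG _

theorem seq_aux {d : ℕ} {σ : Measure (E d)} [SigmaFinite σ] {f : E d → ℝ≥0∞}
    (s₀ : E d) (κ : Submodule ℝ (E d) → E d → ℝ≥0∞) {B : ℝ≥0∞} (q : ℕ)
    (hB : ∀ D : Submodule ℝ (E d), Module.finrank ℝ D < q → ∫⁻ s, f s * κ D (s - s₀) ∂σ ≤ B)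
    (n : ℕ) (hn : n ≤ q) :
    ∫⁻ s : Fin n → E d, ∏ i, (f (s i) * κ (Dlt (fun j => s j - s₀) i) (s i - s₀))
      ∂(Measure.pi fun _ => σ) ≤ B ^ n := by
  induction n with
  | zero =>
    simp
  | succ n ih =>
    by_cases hBt : B = ∞
    · rw [hBt, ENNReal.top_pow (Nat.succ_ne_zero n)]
      exact le_top
    have ih' := ih (Nat.le_of_succ_le hn)
    set F : (Fin (n + 1) → E d) → ℝ≥0∞ := fun s =>
      ∏ i, (f (s i) * κ (Dlt (fun j => s j - s₀) i) (s i - s₀)) with hF
    set G : (Fin n → E d) → ℝ≥0∞ := fun s =>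
      ∏ i, (f (s i) * κ (Dlt (fun j => s j - s₀) i) (s i - s₀)) with hG
    have hmp := measurePreserving_piFinSuccAbove (fun _ : Fin (n + 1) => σ) (Fin.last n)
    have h1 : ∫⁻ s, F s ∂(Measure.pi fun _ => σ) =
        ∫⁻ p : E d × (Fin n → E d),
          F ((MeasurableEquiv.piFinSuccAbove (fun _ => E d) (Fin.last n)).symm p)
          ∂(σ.prod (Measure.pi fun _ => σ)) := by
      have := hmp.lintegral_comp_emb
        (MeasurableEquiv.measurableEmbedding _)
        (fun p => F ((MeasurableEquiv.piFinSuccAbove (fun _ => E d) (Fin.last n)).symm p))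
      simp only [MeasurableEquiv.symm_apply_apply] at this
      exact this
    have h2 : ∀ (x : E d) (y : Fin n → E d),
        F ((MeasurableEquiv.piFinSuccAbove (fun _ => E d) (Fin.last n)).symm (x, y)) =
          G y * (f x * κ (Submodule.span ℝ (Set.range fun j => y j - s₀)) (x - s₀)) := by
      intro x y
      set u : Fin (n + 1) → E d :=
        (MeasurableEquiv.piFinSuccAbove (fun _ => E d) (Fin.last n)).symm (x, y) with hu
      have hu1 : ∀ j : Fin n, u j.castSucc = y j := by
        intro j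
        rw [hu, MeasurableEquiv.piFinSuccAbove_symm_apply]
        have := Fin.insertNth_apply_succAbove (α := fun _ => E d) (Fin.last n) x y j
        rw [Fin.succAbove_last] at this
        exact this
      have hu2 : u (Fin.last n) = x := by
        rw [hu, MeasurableEquiv.piFinSuccAbove_symm_apply]
        exact Fin.insertNth_apply_same (α := fun _ => E d) (Fin.last n) x y
      have e1 : ∀ i : Fin n, Dlt (fun j => u j - s₀) i.castSucc = Dlt (fun j => y j - s₀) i :=
        fun i => seq_Dlt_castSucc _ _ (fun j => by simp only [hu1]) i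
      have e2 : Dlt (fun j => u j - s₀) (Fin.last n) =
          Submodule.span ℝ (Set.range fun j => y j - s₀) :=
        seq_Dlt_last _ _ (fun j => by simp only [hu1])
      simp only [hF, hG]
      rw [Fin.prod_univ_castSucc]
      simp only [e1, e2, hu1, hu2]
    rw [h1, ← lintegral_prod_swap]
    refine (lintegral_prod_le _).trans ?_
    simp only [Prod.swap_prod_mk, h2]
    rw [pow_succ]
    refine seq_step_mul G (fun y x => f x * κ (Submodule.span ℝ (Set.range fun j => y j - s₀))
      (x - s₀)) ?_ ih' hBt ?_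
    · intro y
      apply hB
      calc Module.finrank ℝ (Submodule.span ℝ (Set.range fun j => y j - s₀))
          ≤ Fintype.card (Fin n) := finrank_range_le_card _
        _ = n := Fintype.card_fin n
        _ < q := hn
    · rcases Nat.eq_zero_or_pos n with hn0 | hn0
      · left
        intro y
        subst hn0
        simp [hG]
      · by_cases hB0 : B = 0
        · right; right
          rw [hB0, zero_pow hn0.ne']
        · right; left
          exact hB0

/-- If `κ D s` is a kernel depending on a submodule `D`, with `∫ f(s) κ(D, s - s₀) dσ ≤ B` for all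
`D` of dimension `< q`, then integrating the product of the kernels along the flag `Dlt δ i` costs at
most `B^q`.  No measurability of `κ` is needed. -/
theorem seq_integral_le {d q : ℕ} {σ : Measure (E d)} [SigmaFinite σ] {f : E d → ℝ≥0∞}
    (hf : Measurable f) (s₀ : E d) (κ : Submodule ℝ (E d) → E d → ℝ≥0∞) {B : ℝ≥0∞}
    (hB : ∀ D : Submodule ℝ (E d), Module.finrank ℝ D < q → ∫⁻ s, f s * κ D (s - s₀) ∂σ ≤ B) :
    ∫⁻ s : Fin q → E d, ∏ i, (f (s i) * κ (Dlt (fun j => s j - s₀) i) (s i - s₀))
      ∂(Measure.pi fun _ => σ) ≤ B ^ q :=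
  seq_aux s₀ κ q hB q le_rfl

end P309
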