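import Mathlib
import Vale.Agent.P309.Hr
import Vale.Agent.P309.Kernel
import Vale.Agent.P309.Seq

/-! P309 module Rep: the replica integral. -/

open MeasureTheory ProbabilityTheory Metric Matrix Filter Topology
open scoped ENNReal RealInnerProductSpace

namespace P309

/-- the image measure `X_*(f σ)` on `ℝ^q`. -/
noncomputable def imgMeas {d q : ℕ} (σ : Measure (E d)) (f : E d → ℝ≥0∞) (X : Fin q → E d) :
    Measure (Fin q → ℝ) :=
  (σ.withDensity f).map (fun s l => ⟪X l, s⟫)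

/-- the replica functional `I(r)`. -/
noncomputable def repI {d : ℕ} (σ : Measure (E d)) (f : E d → ℝ≥0∞)
    (H : Matrix (Fin d) (Fin d) ℝ) (q : ℕ) (r : ℝ) : ℝ≥0∞ :=
  ∫⁻ X : Fin q → E d, ENNReal.ofReal ((vb q * √(vol2 H X)) ^ q) *
    ∫⁻ Y, (imgMeas σ f X (closedBall Y r) / ENNReal.ofReal ((2 * r) ^ q)) ^ q
      ∂(imgMeas σ f X) ∂(blk q d)

/-! ### products of lintegrals -/

theorem rep_lintegral_pow {d : ℕ} {σ : Measure (E d)} [SigmaFinite σ] {F : E d → ℝ≥0∞}
    (hF : Measurable F) (n : ℕ) :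
    ∫⁻ s : Fin n → E d, ∏ i, F (s i) ∂(Measure.pi fun _ => σ) = (∫⁻ s, F s ∂σ) ^ n := by
  induction n with
  | zero => simp
  | succ n ih =>
    have hmp := measurePreserving_piFinSuccAbove (fun _ : Fin (n + 1) => σ) 0
    have h1 : ∫⁻ s : Fin (n + 1) → E d, ∏ i, F (s i) ∂(Measure.pi fun _ => σ) =
        ∫⁻ p : E d × (Fin n → E d), F p.1 * ∏ i, F (p.2 i)
          ∂(σ.prod (Measure.pi fun _ => σ)) := by
      have := hmp.lintegral_comp_emb
        (MeasurableEquiv.measurableEmbedding _)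
        (fun p : E d × (Fin n → E d) => F p.1 * ∏ i, F (p.2 i))
      rw [← this]
      apply lintegral_congr
      intro s
      rw [Fin.prod_univ_succ]
      rfl
    rw [h1, lintegral_prod_mul (f := F) (g := fun s : Fin n → E d => ∏ i, F (s i))
      hF.aemeasurable, ih, pow_succ']
    exact (Finset.measurable_prod _ fun i _ => hF.comp (measurable_pi_apply i)).aemeasurable

/-! ### the replica identity -/

theorem rep_measurable_V {d : ℕ} (H : Matrix (Fin d) (Fin d) ℝ) (q : ℕ) :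
    Measurable fun X : Fin q → E d => ENNReal.ofReal ((vb q * √(vol2 H X)) ^ q) :=
  ENNReal.measurable_ofReal.comp
    ((measurable_const.mul (continuous_vol2 H).measurable.sqrt).pow_const q)

theorem rep_closed_slab {d q : ℕ} (r : ℝ) :
    MeasurableSet {p : (Fin q → E d) × (E d × (Fin q → E d)) |
      ∀ l i, |⟪p.1 l, p.2.2 i - p.2.1⟫| ≤ r} := by
  have : {p : (Fin q → E d) × (E d × (Fin q → E d)) |
      ∀ l i, |⟪p.1 l, p.2.2 i - p.2.1⟫| ≤ r} =
      ⋂ l, ⋂ i, {p : (Fin q → E d) × (E d × (Fin q → E d)) |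
        |⟪p.1 l, p.2.2 i - p.2.1⟫| ≤ r} := by
    ext p
    simp
  rw [this]
  refine MeasurableSet.iInter fun l => MeasurableSet.iInter fun i => ?_
  refine (isClosed_le ?_ continuous_const).measurableSet
  refine continuous_abs.comp ?_
  refine Continuous.inner ?_ ?_
  · exact (continuous_apply l).comp continuous_fst
  · exact ((continuous_apply i).comp (continuous_snd.comp continuous_snd)).sub
      (continuous_fst.comp continuous_snd)

theorem rep_img_ball {d q : ℕ} (σ : Measure (E d)) {f : E d → ℝ≥0∞}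
    (X : Fin q → E d) {r : ℝ} (hr : 0 < r) (s₀ : E d) :
    imgMeas σ f X (closedBall (fun l => ⟪X l, s₀⟫) r) =
      ∫⁻ s, f s * Set.indicator {s : E d | ∀ l, |⟪X l, s - s₀⟫| ≤ r} 1 s ∂σ := by
  have hT : Measurable (fun (s : E d) (l : Fin q) => ⟪X l, s⟫) :=
    measurable_pi_iff.mpr fun l => (continuous_const.inner continuous_id).measurable
  have hS : MeasurableSet {s : E d | ∀ l, |⟪X l, s - s₀⟫| ≤ r} := by
    have : {s : E d | ∀ l, |⟪X l, s - s₀⟫| ≤ r} = ⋂ l, {s : E d | |⟪X l, s - s₀⟫| ≤ r} := by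
      ext p
      simp
    rw [this]
    refine MeasurableSet.iInter fun l => (isClosed_le ?_ continuous_const).measurableSet
    exact continuous_abs.comp (continuous_const.inner (continuous_id.sub continuous_const))
  unfold imgMeas
  rw [Measure.map_apply hT measurableSet_closedBall]
  have hpre : (fun (s : E d) (l : Fin q) => ⟪X l, s⟫) ⁻¹' closedBall (fun l => ⟪X l, s₀⟫) r =
      {s : E d | ∀ l, |⟪X l, s - s₀⟫| ≤ r} := by
    ext s
    simp only [Set.mem_preimage, Set.mem_ofPred_eq, mem_closedBall, dist_pi_le_iff hr.le,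
      Real.dist_eq, inner_sub_right]
  rw [hpre, withDensity_apply _ hS, ← lintegral_indicator hS]
  apply lintegral_congr
  intro s
  by_cases h : s ∈ {s : E d | ∀ l, |⟪X l, s - s₀⟫| ≤ r}
  · rw [Set.indicator_of_mem h, Set.indicator_of_mem h, Pi.one_apply, mul_one]
  · rw [Set.indicator_of_notMem h, Set.indicator_of_notMem h, mul_zero]

theorem rep_prod_indicator {d q : ℕ} (X : Fin q → E d) (r : ℝ) (s₀ : E d) (f : E d → ℝ≥0∞)
    (s : Fin q → E d) :
    ∏ i, (f (s i) * Set.indicator {s : E d | ∀ l, |⟪X l, s - s₀⟫| ≤ r} 1 (s i)) =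
      (∏ i, f (s i)) *
        Set.indicator {X : Fin q → E d | ∀ l i, |⟪X l, s i - s₀⟫| ≤ r} 1 X := by
  rw [Finset.prod_mul_distrib]
  congr 1
  by_cases h : X ∈ {X : Fin q → E d | ∀ l i, |⟪X l, s i - s₀⟫| ≤ r}
  · rw [Set.indicator_of_mem h]
    simp only [Pi.one_apply]
    apply Finset.prod_eq_one
    intro i _
    have hi : s i ∈ {s : E d | ∀ l, |⟪X l, s - s₀⟫| ≤ r} := fun l => h l i
    rw [Set.indicator_of_mem hi, Pi.one_apply]
  · rw [Set.indicator_of_notMem h]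
    simp only [Set.mem_ofPred_eq, not_forall] at h
    obtain ⟨l, i, hli⟩ := h
    apply Finset.prod_eq_zero (Finset.mem_univ i)
    apply Set.indicator_of_notMem
    intro hmem
    exact hli (hmem l)

/-- inner integral over `Y`. -/
theorem rep_inner {d q : ℕ} {σ : Measure (E d)} [IsFiniteMeasure σ] {f : E d → ℝ≥0∞}
    (hf : Measurable f) (hf1 : ∀ s, f s ≤ 1) (X : Fin q → E d) {r : ℝ} (hr : 0 < r) :
    ∫⁻ Y, (imgMeas σ f X (closedBall Y r) / ENNReal.ofReal ((2 * r) ^ q)) ^ q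
      ∂(imgMeas σ f X) =
    ∫⁻ s₀, f s₀ * ((∫⁻ s : Fin q → E d, (∏ i, f (s i)) *
        Set.indicator {X : Fin q → E d | ∀ l i, |⟪X l, s i - s₀⟫| ≤ r} 1 X
          ∂(Measure.pi fun _ => σ)) * (ENNReal.ofReal ((2 * r) ^ (q * q)))⁻¹) ∂σ := by
  have hT : Measurable (fun (s : E d) (l : Fin q) => ⟪X l, s⟫) :=
    measurable_pi_iff.mpr fun l => (continuous_const.inner continuous_id).measurable
  have hfin : ∫⁻ s, f s ∂σ ≠ ∞ := by
    apply ne_of_lt
    calc ∫⁻ s, f s ∂σ ≤ ∫⁻ _, 1 ∂σ := lintegral_mono hf1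
      _ = σ Set.univ := by simp
      _ < ∞ := measure_lt_top σ _
  have : IsFiniteMeasure (σ.withDensity f) := isFiniteMeasure_withDensity hfin
  have : IsFiniteMeasure (imgMeas σ f X) := by
    unfold imgMeas
    infer_instance
  have hmeas : Measurable fun Y => imgMeas σ f X (closedBall Y r) := by
    have hset : MeasurableSet {p : (Fin q → ℝ) × (Fin q → ℝ) | dist p.2 p.1 ≤ r} :=
      (isClosed_le (continuous_snd.dist continuous_fst) continuous_const).measurableSet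
    exact measurable_measure_prodMk_left (ν := imgMeas σ f X) hset
  have hmeas2 : Measurable fun Y =>
      (imgMeas σ f X (closedBall Y r) / ENNReal.ofReal ((2 * r) ^ q)) ^ q :=
    (hmeas.div_const _).pow_const q
  have h1 : ∫⁻ Y, (imgMeas σ f X (closedBall Y r) / ENNReal.ofReal ((2 * r) ^ q)) ^ q
      ∂(imgMeas σ f X) =
      ∫⁻ s₀, (imgMeas σ f X (closedBall (fun l => ⟪X l, s₀⟫) r) /
        ENNReal.ofReal ((2 * r) ^ q)) ^ q ∂(σ.withDensity f) :=
    lintegral_map hmeas2 hT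
  have h2 : ∫⁻ s₀, (imgMeas σ f X (closedBall (fun l => ⟪X l, s₀⟫) r) /
        ENNReal.ofReal ((2 * r) ^ q)) ^ q ∂(σ.withDensity f) =
      ∫⁻ s₀, f s₀ * (imgMeas σ f X (closedBall (fun l => ⟪X l, s₀⟫) r) /
        ENNReal.ofReal ((2 * r) ^ q)) ^ q ∂σ :=
    lintegral_withDensity_eq_lintegral_mul σ hf (hmeas2.comp hT)
  rw [h1, h2]
  apply lintegral_congr
  intro s₀
  congr 1
  rw [rep_img_ball σ X hr s₀]
  have hS : MeasurableSet {s : E d | ∀ l, |⟪X l, s - s₀⟫| ≤ r} := by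
    have : {s : E d | ∀ l, |⟪X l, s - s₀⟫| ≤ r} = ⋂ l, {s : E d | |⟪X l, s - s₀⟫| ≤ r} := by
      ext p
      simp
    rw [this]
    refine MeasurableSet.iInter fun l => (isClosed_le ?_ continuous_const).measurableSet
    exact continuous_abs.comp (continuous_const.inner (continuous_id.sub continuous_const))
  have hFm : Measurable fun s => f s *
      Set.indicator {s : E d | ∀ l, |⟪X l, s - s₀⟫| ≤ r} (1 : E d → ℝ≥0∞) s :=
    hf.mul (measurable_one.indicator hS)
  rw [div_eq_mul_inv, mul_pow, ← rep_lintegral_pow hFm, ← ENNReal.inv_pow,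
    ← ENNReal.ofReal_pow (by positivity), ← pow_mul]
  simp only [rep_prod_indicator]

/-- the slab indicator. -/
theorem rep_measurable_K {d q : ℕ} {f : E d → ℝ≥0∞} (hf : Measurable f) (r : ℝ) :
    Measurable fun p : (Fin q → E d) × (E d × (Fin q → E d)) =>
      (∏ i, f (p.2.2 i)) *
        Set.indicator {X : Fin q → E d | ∀ l i, |⟪X l, p.2.2 i - p.2.1⟫| ≤ r}
          (1 : (Fin q → E d) → ℝ≥0∞) p.1 := by
  refine Measurable.mul ?_ ?_
  · exact Finset.measurable_prod _ fun i _ =>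
      hf.comp ((measurable_pi_apply i).comp (measurable_snd.comp measurable_snd))
  · have h1 : Measurable (fun _ : (Fin q → E d) × (E d × (Fin q → E d)) => (1 : ℝ≥0∞)) :=
      measurable_const
    have h := h1.indicator (rep_closed_slab (d := d) (q := q) r)
    have h2 : (fun p : (Fin q → E d) × (E d × (Fin q → E d)) =>
        Set.indicator {X : Fin q → E d | ∀ l i, |⟪X l, p.2.2 i - p.2.1⟫| ≤ r}
          (1 : (Fin q → E d) → ℝ≥0∞) p.1) =
        Set.indicator {p : (Fin q → E d) × (E d × (Fin q → E d)) |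
          ∀ l i, |⟪p.1 l, p.2.2 i - p.2.1⟫| ≤ r} (fun _ => (1 : ℝ≥0∞)) := by
      funext p
      by_cases hp : ∀ l i, |⟪p.1 l, p.2.2 i - p.2.1⟫| ≤ r
      · have hp1 : p.1 ∈ {X : Fin q → E d | ∀ l i, |⟪X l, p.2.2 i - p.2.1⟫| ≤ r} := hp
        have hp2 : p ∈ {p : (Fin q → E d) × (E d × (Fin q → E d)) |
          ∀ l i, |⟪p.1 l, p.2.2 i - p.2.1⟫| ≤ r} := hp
        rw [Set.indicator_of_mem hp1, Set.indicator_of_mem hp2, Pi.one_apply]
      · have hp1 : p.1 ∉ {X : Fin q → E d | ∀ l i, |⟪X l, p.2.2 i - p.2.1⟫| ≤ r} := hp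
        have hp2 : p ∉ {p : (Fin q → E d) × (E d × (Fin q → E d)) |
          ∀ l i, |⟪p.1 l, p.2.2 i - p.2.1⟫| ≤ r} := hp
        rw [Set.indicator_of_notMem hp1, Set.indicator_of_notMem hp2]
    rw [h2]
    exact h

/-- abstract Tonelli computation. -/
theorem rep_tonelli {α β γ : Type*} [MeasurableSpace α] [MeasurableSpace β] [MeasurableSpace γ]
    {μ : Measure α} {ν : Measure β} {π : Measure γ} [SFinite μ] [SFinite ν] [SFinite π]
    {V : α → ℝ≥0∞} {f : β → ℝ≥0∞} {K : α → β → γ → ℝ≥0∞} (hV : Measurable V)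
    (hf : Measurable f) (hK : Measurable fun p : α × (β × γ) => K p.1 p.2.1 p.2.2) (c : ℝ≥0∞) :
    ∫⁻ X, V X * ∫⁻ s₀, f s₀ * ((∫⁻ s, K X s₀ s ∂π) * c) ∂ν ∂μ =
      ∫⁻ s₀, f s₀ * ((∫⁻ s, ∫⁻ X, V X * K X s₀ s ∂μ ∂π) * c) ∂ν := by
  have hIm : Measurable fun p : α × β => ∫⁻ s, K p.1 p.2 s ∂π := by
    have h3 : Measurable fun p : (α × β) × γ => K p.1.1 p.1.2 p.2 :=
      hK.comp ((measurable_fst.comp measurable_fst).prodMk
        ((measurable_snd.comp measurable_fst).prodMk measurable_snd))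
    exact h3.lintegral_prod_right'
  have hKXs : ∀ X s₀, Measurable fun s => K X s₀ s := fun X s₀ =>
    hK.comp (measurable_const.prodMk (measurable_const.prodMk measurable_id))
  have h1 : ∀ X, V X * ∫⁻ s₀, f s₀ * ((∫⁻ s, K X s₀ s ∂π) * c) ∂ν =
      ∫⁻ s₀, V X * (f s₀ * ((∫⁻ s, K X s₀ s ∂π) * c)) ∂ν := by
    intro X
    rw [lintegral_const_mul]
    have h4 : Measurable fun s₀ => ∫⁻ s, K X s₀ s ∂π :=
      hIm.comp (measurable_const.prodMk measurable_id)
    exact hf.mul (h4.mul_const c)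
  have h2 : ∫⁻ X, ∫⁻ s₀, V X * (f s₀ * ((∫⁻ s, K X s₀ s ∂π) * c)) ∂ν ∂μ =
      ∫⁻ s₀, ∫⁻ X, V X * (f s₀ * ((∫⁻ s, K X s₀ s ∂π) * c)) ∂μ ∂ν := by
    apply lintegral_lintegral_swap
    have h5 : Measurable fun p : α × β =>
        V p.1 * (f p.2 * ((∫⁻ s, K p.1 p.2 s ∂π) * c)) :=
      (hV.comp measurable_fst).mul ((hf.comp measurable_snd).mul (hIm.mul_const c))
    exact h5.aemeasurable
  simp only [h1]
  rw [h2]
  apply lintegral_congr
  intro s₀
  have hIX : Measurable fun X => ∫⁻ s, K X s₀ s ∂π :=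
    hIm.comp (measurable_id.prodMk measurable_const)
  calc ∫⁻ X, V X * (f s₀ * ((∫⁻ s, K X s₀ s ∂π) * c)) ∂μ
      = ∫⁻ X, f s₀ * ((∫⁻ s, V X * K X s₀ s ∂π) * c) ∂μ := by
        apply lintegral_congr
        intro X
        rw [lintegral_const_mul _ (hKXs X s₀)]
        ring
    _ = f s₀ * ∫⁻ X, (∫⁻ s, V X * K X s₀ s ∂π) * c ∂μ := by
        rw [lintegral_const_mul]
        have h7 : (fun X => ∫⁻ s, V X * K X s₀ s ∂π) = fun X => V X * ∫⁻ s, K X s₀ s ∂π := by
          funext X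
          rw [lintegral_const_mul _ (hKXs X s₀)]
        have h6 : Measurable fun X => ∫⁻ s, V X * K X s₀ s ∂π := by
          rw [h7]
          exact hV.mul hIX
        exact h6.mul_const c
    _ = f s₀ * ((∫⁻ s, ∫⁻ X, V X * K X s₀ s ∂μ ∂π) * c) := by
        congr 1
        have h8 : Measurable fun p : α × γ => V p.1 * K p.1 s₀ p.2 :=
          (hV.comp measurable_fst).mul
            (hK.comp (measurable_fst.prodMk (measurable_const.prodMk measurable_snd)))
        have h9 : ∫⁻ X, ∫⁻ s, V X * K X s₀ s ∂π ∂μ =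
            ∫⁻ s, ∫⁻ X, V X * K X s₀ s ∂μ ∂π :=
          lintegral_lintegral_swap h8.aemeasurable
        rw [lintegral_mul_const _ h8.lintegral_prod_right', h9]

/-- replica identity. -/
theorem repI_eq {d q : ℕ} (hq : 0 < q) {σ : Measure (E d)} [IsFiniteMeasure σ] {f : E d → ℝ≥0∞}
    (hf : Measurable f) (hf1 : ∀ s, f s ≤ 1) (H : Matrix (Fin d) (Fin d) ℝ)
    {r : ℝ} (hr0 : 0 < r) :
    repI σ f H q r = ∫⁻ s₀, f s₀ * ∫⁻ s : Fin q → E d,
      (∏ i, f (s i)) * hr H q r (fun i => s i - s₀) ∂(Measure.pi fun _ => σ) ∂σ := by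
  have hblk : IsProbabilityMeasure (blk q d) := by
    unfold blk
    infer_instance
  have h0 : repI σ f H q r = ∫⁻ X : Fin q → E d,
      ENNReal.ofReal ((vb q * √(vol2 H X)) ^ q) *
        ∫⁻ s₀, f s₀ * ((∫⁻ s : Fin q → E d, (∏ i, f (s i)) *
        Set.indicator {X : Fin q → E d | ∀ l i, |⟪X l, s i - s₀⟫| ≤ r} 1 X
          ∂(Measure.pi fun _ => σ)) * (ENNReal.ofReal ((2 * r) ^ (q * q)))⁻¹) ∂σ
      ∂(blk q d) := by
    unfold repI
    apply lintegral_congr
    intro X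
    rw [rep_inner hf hf1 X hr0]
  rw [h0, rep_tonelli (K := fun (X : Fin q → E d) s₀ (s : Fin q → E d) => (∏ i, f (s i)) *
    Set.indicator {X : Fin q → E d | ∀ l i, |⟪X l, s i - s₀⟫| ≤ r}
      (1 : (Fin q → E d) → ℝ≥0∞) X)
    (rep_measurable_V H q) hf (rep_measurable_K hf r)]
  apply lintegral_congr
  intro s₀
  congr 1
  have h3 : ∀ s : Fin q → E d, (∏ i, f (s i)) * hr H q r (fun i => s i - s₀) =
      (∫⁻ X : Fin q → E d, ENNReal.ofReal ((vb q * √(vol2 H X)) ^ q) * ((∏ i, f (s i)) *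
        Set.indicator {X : Fin q → E d | ∀ l i, |⟪X l, s i - s₀⟫| ≤ r} 1 X) ∂(blk q d)) *
        (ENNReal.ofReal ((2 * r) ^ (q * q)))⁻¹ := by
    intro s
    have hne : ∏ i, f (s i) ≠ ∞ := by
      apply ne_top_of_le_ne_top ENNReal.one_ne_top
      exact Finset.prod_le_one (fun i _ => bot_le) (fun i _ => hf1 (s i))
    unfold hr
    rw [div_eq_mul_inv, ← mul_assoc, ← lintegral_const_mul' _ _ hne]
    congr 1
    apply lintegral_congr
    intro X
    ring
  simp only [h3]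
  rw [lintegral_mul_const']
  rw [ENNReal.inv_ne_top, ENNReal.ofReal_ne_zero_iff]
  positivity

/-! ### the limit -/

theorem rep_indicator_mul {d : ℕ} (A : Set (E d)) (g h : E d → ℝ≥0∞) (s : E d) :
    A.indicator g s * h s = A.indicator (fun s => g s * h s) s := by
  by_cases hs : s ∈ A
  · rw [Set.indicator_of_mem hs, Set.indicator_of_mem hs]
  · rw [Set.indicator_of_notMem hs, Set.indicator_of_notMem hs, zero_mul]

theorem rep_c1_nonneg (q d : ℕ) : 0 ≤ c1 q d := by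
  unfold c1 vb
  positivity

theorem rep_mul_div_comm (a b c : ℝ≥0∞) : a * (b / c) = b * (a / c) := by
  rw [div_eq_mul_inv, div_eq_mul_inv]
  ring

/-- integral of a kernel `a / ‖P (s - s₀)‖^q` over the truncated function. -/
theorem rep_kernel_eq {d q : ℕ} {σ : Measure (E d)} {g : E d → ℝ≥0∞}
    (H : Matrix (Fin d) (Fin d) ℝ) (z : E d) (D : Submodule ℝ (E d)) (s₀ : E d) {a : ℝ≥0∞}
    (ha : a ≠ ∞) :
    ∫⁻ s, (ell z H).indicator g s * (a / ENNReal.ofReal ‖Dᗮ.starProjection (s - s₀)‖ ^ q) ∂σ =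
      a * ∫⁻ s in ell z H, g s / ENNReal.ofReal ‖Dᗮ.starProjection (s - s₀)‖ ^ q ∂σ := by
  rw [← lintegral_const_mul' _ _ ha, ← lintegral_indicator (isClosed_ell z H).measurableSet]
  apply lintegral_congr
  intro s
  rw [rep_indicator_mul (ell z H) g
    (fun s => a / ENNReal.ofReal ‖Dᗮ.starProjection (s - s₀)‖ ^ q) s]
  congr 1
  funext s
  rw [rep_mul_div_comm]

theorem repI_limsup {d q L : ℕ} (hq : 0 < q) (hd : 8 * q ≤ d) {W : ℝ}
    (hW : ((1 : ℝ) / 2 ^ L) ^ (d - 2 * q - 1) ≤ W)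
    {σ : Measure (E d)} (hσ : SphLike σ)
    {g : E d → ℝ≥0∞} (hgm : Measurable g) (hg1 : ∀ s, g s ≤ 1)
    (hg : WBdd σ (2 * q) (1 / 2 ^ L) W g)
    {H : Matrix (Fin d) (Fin d) ℝ} (hH : Adm (1 / 2 ^ L) H) (z : E d) {t : ℝ} (ht : 0 < t)
    {r : ℕ → ℝ} (hr0 : ∀ n, 0 < r n) (hrt : Tendsto r atTop (𝓝 0)) :
    limsup (fun n => repI σ ((ell z H).indicator g) H q (r n)) atTop ≤
      ENNReal.ofReal (W * √(size2 (2 * q) H t)) *
        (ENNReal.ofReal (c1 q d) *
          ENNReal.ofReal (16 ^ d * (L + 2) * W * √(size2 (2 * q) H t))) ^ q := by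
  have hprob := hσ.prob
  set f : E d → ℝ≥0∞ := (ell z H).indicator g with hf
  have hellm : MeasurableSet (ell z H) := (isClosed_ell z H).measurableSet
  have hfm : Measurable f := hgm.indicator hellm
  have hf1 : ∀ s, f s ≤ 1 := by
    intro s
    rw [hf]
    by_cases hs : s ∈ ell z H
    · rw [Set.indicator_of_mem hs]
      exact hg1 s
    · rw [Set.indicator_of_notMem hs]
      exact bot_le
  set B0 : ℝ≥0∞ := ENNReal.ofReal (16 ^ d * (L + 2) * W * √(size2 (2 * q) H t)) with hB0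
  set B : ℝ≥0∞ := ENNReal.ofReal (c1 q d) * B0 with hB
  -- kernel bound
  have hker : ∀ s₀ : E d, ‖s₀‖ = 1 → ∀ D : Submodule ℝ (E d), Module.finrank ℝ D < q →
      ENNReal.ofReal (√(Ek H (perpMat D) q)) *
        ∫⁻ s in ell z H, g s / ENNReal.ofReal ‖Dᗮ.starProjection (s - s₀)‖ ^ q ∂σ ≤ B0 :=
    fun s₀ hs₀ D hD => kernel_bound hq hd hW hσ hgm hg1 hg hH z ht D hD s₀ hs₀
  -- sharp kernel
  set κ : Submodule ℝ (E d) → E d → ℝ≥0∞ := fun D v =>
    ENNReal.ofReal (c1 q d * √(Ek H (perpMat D) q)) /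
      ENNReal.ofReal ‖Dᗮ.starProjection v‖ ^ q with hκ
  have hκB : ∀ s₀ : E d, ‖s₀‖ = 1 → ∀ D : Submodule ℝ (E d), Module.finrank ℝ D < q →
      ∫⁻ s, f s * κ D (s - s₀) ∂σ ≤ B := by
    intro s₀ hs₀ D hD
    rw [hf, hκ, rep_kernel_eq H z D s₀ ENNReal.ofReal_ne_top,
      ENNReal.ofReal_mul (rep_c1_nonneg q d), mul_assoc]
    exact mul_le_mul_right (hker s₀ hs₀ D hD) _
  -- crude kernel
  obtain ⟨C, hC⟩ := hr_dom (d := d) hq hH.posDef
  set κC : Submodule ℝ (E d) → E d → ℝ≥0∞ := fun D v =>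
    ENNReal.ofReal C / ENNReal.ofReal ‖Dᗮ.starProjection v‖ ^ q with hκC
  set ε : ℝ := 1 / 2 ^ L with hε
  have hε0 : 0 < ε := by positivity
  set B1 : ℝ≥0∞ := ENNReal.ofReal C * (B0 / ENNReal.ofReal (ε ^ q)) with hB1
  have hB1fin : B1 ≠ ∞ := by
    refine ENNReal.mul_ne_top ENNReal.ofReal_ne_top (ENNReal.div_ne_top ENNReal.ofReal_ne_top ?_)
    rw [ENNReal.ofReal_ne_zero_iff]
    positivity
  have hκC1 : ∀ s₀ : E d, ‖s₀‖ = 1 → ∀ D : Submodule ℝ (E d), Module.finrank ℝ D < q →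
      ∫⁻ s, f s * κC D (s - s₀) ∂σ ≤ B1 := by
    intro s₀ hs₀ D hD
    rw [hf, hκC, rep_kernel_eq H z D s₀ ENNReal.ofReal_ne_top]
    refine mul_le_mul_right ?_ _
    have hεE : ε ^ q ≤ √(Ek H (perpMat D) q) := by
      apply Real.le_sqrt_of_sq_le
      rw [← pow_mul, mul_comm q 2]
      exact pow_le_Ek hε0 hH D (by omega)
    have hεpos : ENNReal.ofReal (ε ^ q) ≠ 0 := by
      rw [ENNReal.ofReal_ne_zero_iff]
      positivity
    rw [ENNReal.le_div_iff_mul_le (Or.inl hεpos) (Or.inl ENNReal.ofReal_ne_top), mul_comm]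
    exact (mul_le_mul_left (ENNReal.ofReal_le_ofReal hεE) _).trans (hker s₀ hs₀ D hD)
  -- the inner integral
  set J : ℕ → E d → ℝ≥0∞ := fun n s₀ => ∫⁻ s : Fin q → E d,
      (∏ i, f (s i)) * hr H q (r n) (fun i => s i - s₀) ∂(Measure.pi fun _ => σ) with hJ
  have hsub : ∀ s₀ : E d, Measurable fun (s : Fin q → E d) (i : Fin q) => s i - s₀ := fun s₀ =>
    measurable_pi_iff.mpr fun i => (measurable_pi_apply i).sub measurable_const
  have hprodm : Measurable fun s : Fin q → E d => ∏ i, f (s i) :=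
    Finset.measurable_prod _ fun i _ => hfm.comp (measurable_pi_apply i)
  have hdom : ∀ n s₀ (s : Fin q → E d),
      (∏ i, f (s i)) * hr H q (r n) (fun i => s i - s₀) ≤
        ∏ i, (f (s i) * κC (Dlt (fun j => s j - s₀) i) (s i - s₀)) := by
    intro n s₀ s
    rw [Finset.prod_mul_distrib]
    exact mul_le_mul_right (hC (r n) (hr0 n) (fun i => s i - s₀)) _
  have hJdom : ∀ n s₀, ‖s₀‖ = 1 → J n s₀ ≤ B1 ^ q := by
    intro n s₀ hs₀
    calc J n s₀ ≤ ∫⁻ s : Fin q → E d,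
          ∏ i, (f (s i) * κC (Dlt (fun j => s j - s₀) i) (s i - s₀))
            ∂(Measure.pi fun _ => σ) := lintegral_mono (hdom n s₀)
      _ ≤ B1 ^ q := seq_integral_le hfm s₀ κC (hκC1 s₀ hs₀)
  have hJlim : ∀ s₀, ‖s₀‖ = 1 → limsup (fun n => J n s₀) atTop ≤ B ^ q := by
    intro s₀ hs₀
    calc limsup (fun n => J n s₀) atTop
        ≤ ∫⁻ s : Fin q → E d, limsup (fun n =>
            (∏ i, f (s i)) * hr H q (r n) (fun i => s i - s₀)) atTop
              ∂(Measure.pi fun _ => σ) := by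
          apply limsup_lintegral_le
            (fun s => ∏ i, (f (s i) * κC (Dlt (fun j => s j - s₀) i) (s i - s₀)))
          · intro n
            exact hprodm.mul ((measurable_hr H q (r n)).comp (hsub s₀))
          · intro n
            exact Eventually.of_forall (hdom n s₀)
          · exact ne_top_of_le_ne_top (ENNReal.pow_ne_top hB1fin)
              (seq_integral_le hfm s₀ κC (hκC1 s₀ hs₀))
      _ ≤ ∫⁻ s : Fin q → E d, ∏ i, (f (s i) * κ (Dlt (fun j => s j - s₀) i) (s i - s₀))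
            ∂(Measure.pi fun _ => σ) := by
          apply lintegral_mono
          intro s
          have hne : ∏ i, f (s i) ≠ ∞ := by
            apply ne_top_of_le_ne_top ENNReal.one_ne_top
            exact Finset.prod_le_one (fun i _ => bot_le) (fun i _ => hf1 (s i))
          simp only
          rw [ENNReal.limsup_const_mul_of_ne_top hne, Finset.prod_mul_distrib]
          exact mul_le_mul_right
            (hr_limsup hq (by omega) hH.posDef (fun i => s i - s₀) hr0 hrt) _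
      _ ≤ B ^ q := seq_integral_le hfm s₀ κ (hκB s₀ hs₀)
  -- outer integral
  have hrep : ∀ n, repI σ f H q (r n) = ∫⁻ s₀, f s₀ * J n s₀ ∂σ := fun n =>
    repI_eq hq hfm hf1 H (hr0 n)
  simp only [hrep]
  have hJm : ∀ n, Measurable (J n) := by
    intro n
    have h1 : Measurable fun p : E d × (Fin q → E d) =>
        (∏ i, f (p.2 i)) * hr H q (r n) (fun i => p.2 i - p.1) := by
      refine (hprodm.comp measurable_snd).mul ((measurable_hr H q (r n)).comp ?_)
      exact measurable_pi_iff.mpr fun i =>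
        ((measurable_pi_apply i).comp measurable_snd).sub measurable_fst
    exact h1.lintegral_prod_right'
  calc limsup (fun n => ∫⁻ s₀, f s₀ * J n s₀ ∂σ) atTop
      ≤ ∫⁻ s₀, limsup (fun n => f s₀ * J n s₀) atTop ∂σ := by
        apply limsup_lintegral_le (fun _ => B1 ^ q)
        · intro n
          exact hfm.mul (hJm n)
        · intro n
          filter_upwards [hσ.norm_one] with s₀ hs₀
          calc f s₀ * J n s₀ ≤ 1 * B1 ^ q := mul_le_mul' (hf1 s₀) (hJdom n s₀ hs₀)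
            _ = B1 ^ q := one_mul _
        · rw [lintegral_const]
          exact ENNReal.mul_ne_top (ENNReal.pow_ne_top hB1fin) (measure_ne_top σ _)
    _ ≤ ∫⁻ s₀, f s₀ * B ^ q ∂σ := by
        apply lintegral_mono_ae
        filter_upwards [hσ.norm_one] with s₀ hs₀
        rw [ENNReal.limsup_const_mul_of_ne_top (ne_top_of_le_ne_top ENNReal.one_ne_top (hf1 s₀))]
        exact mul_le_mul_right (hJlim s₀ hs₀) _
    _ = (∫⁻ s₀, f s₀ ∂σ) * B ^ q := lintegral_mul_const _ hfm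
    _ ≤ ENNReal.ofReal (W * √(size2 (2 * q) H t)) * B ^ q := by
        refine mul_le_mul_left ?_ _
        rw [hf, lintegral_indicator hellm]
        exact hg z H hH t ht

end P309
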