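import Mathlib
import Vale.Agent.P309.Rep
import Vale.Agent.P309.LemR
import Vale.Agent.P309.BlkAe

/-! P309 module Block: the block lemma. -/

open MeasureTheory ProbabilityTheory Metric Matrix Filter Topology
open scoped ENNReal RealInnerProductSpace

namespace P309

/-- the map `s ↦ (⟪X l, s⟫)_l`. -/
noncomputable def ip {d q : ℕ} (X : Fin q → E d) (s : E d) : Fin q → ℝ := fun l => ⟪X l, s⟫

theorem continuous_ip {d q : ℕ} : Continuous (fun p : (Fin q → E d) × E d => ip p.1 p.2) := by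
  unfold ip; fun_prop

theorem measurable_ip {d q : ℕ} (X : Fin q → E d) : Measurable (ip X) := by
  unfold ip; fun_prop

theorem imgMeas_eq {d q : ℕ} (σ : Measure (E d)) (f : E d → ℝ≥0∞) (X : Fin q → E d) :
    imgMeas σ f X = (σ.withDensity f).map (ip X) := rfl

theorem lintegral_imgMeas {d q : ℕ} (σ : Measure (E d)) {f : E d → ℝ≥0∞} (hf : Measurable f)
    (X : Fin q → E d) {u : (Fin q → ℝ) → ℝ≥0∞} (hu : Measurable u) :
    ∫⁻ Y, u Y ∂(imgMeas σ f X) = ∫⁻ s, f s * u (ip X s) ∂σ := by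
  rw [imgMeas_eq, lintegral_map hu (measurable_ip X)]
  exact lintegral_withDensity_eq_lintegral_mul _ hf (hu.comp (measurable_ip X))

theorem isFiniteMeasure_imgMeas {d q : ℕ} {σ : Measure (E d)} [IsFiniteMeasure σ]
    {f : E d → ℝ≥0∞} (hf1 : ∀ s, f s ≤ 1) (X : Fin q → E d) :
    IsFiniteMeasure (imgMeas σ f X) := by
  have : IsFiniteMeasure (σ.withDensity f) := by
    apply isFiniteMeasure_withDensity
    refine ne_of_lt (lt_of_le_of_lt (lintegral_mono hf1) ?_)
    simp
  rw [imgMeas_eq]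
  infer_instance

theorem measurable_closedBall_measure {q : ℕ} (m : Measure (Fin q → ℝ)) [SFinite m] (r : ℝ) :
    Measurable (fun Y => m (closedBall Y r)) := by
  have : MeasurableSet {p : (Fin q → ℝ) × (Fin q → ℝ) | dist p.2 p.1 ≤ r} :=
    measurableSet_le (by fun_prop) measurable_const
  exact measurable_measure_prodMk_left this

theorem imgMeas_closedBall {d q : ℕ} {σ : Measure (E d)} {f : E d → ℝ≥0∞} (hf : Measurable f)
    (X : Fin q → E d) (s₀ : E d) (r : ℝ) :
    imgMeas σ f X (closedBall (ip X s₀) r) =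
      ∫⁻ s, f s * Set.indicator {p : E d × (Fin q → E d) × E d |
        dist (ip p.2.1 p.1) (ip p.2.1 p.2.2) ≤ r} 1 (s, X, s₀) ∂σ := by
  have hm : MeasurableSet (closedBall (ip X s₀) r) := isClosed_closedBall.measurableSet
  rw [← lintegral_indicator_one hm, lintegral_imgMeas σ hf X (measurable_one.indicator hm)]
  rfl

theorem repInner_eq {d q : ℕ} {σ : Measure (E d)} [IsFiniteMeasure σ] {f : E d → ℝ≥0∞}
    (hf : Measurable f) (hf1 : ∀ s, f s ≤ 1) (X : Fin q → E d) (r : ℝ) (c : ℝ≥0∞) (p : ℕ) :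
    ∫⁻ Y, (imgMeas σ f X (closedBall Y r) / c) ^ p ∂(imgMeas σ f X) =
      ∫⁻ s₀, f s₀ * ((∫⁻ s, f s * Set.indicator {p : E d × (Fin q → E d) × E d |
        dist (ip p.2.1 p.1) (ip p.2.1 p.2.2) ≤ r} 1 (s, X, s₀) ∂σ) / c) ^ p ∂σ := by
  have := isFiniteMeasure_imgMeas (σ := σ) hf1 X
  rw [lintegral_imgMeas σ hf X
    (((measurable_closedBall_measure _ r).div_const c).pow_const p)]
  simp_rw [imgMeas_closedBall hf X]

theorem measurable_repInner {d q : ℕ} {σ : Measure (E d)} [IsFiniteMeasure σ] {f : E d → ℝ≥0∞}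
    (hf : Measurable f) (hf1 : ∀ s, f s ≤ 1) (r : ℝ) (c : ℝ≥0∞) (p : ℕ) :
    Measurable (fun X : Fin q → E d =>
      ∫⁻ Y, (imgMeas σ f X (closedBall Y r) / c) ^ p ∂(imgMeas σ f X)) := by
  simp_rw [repInner_eq hf hf1]
  have hms : MeasurableSet {p : E d × (Fin q → E d) × E d |
        dist (ip p.2.1 p.1) (ip p.2.1 p.2.2) ≤ r} := by
    refine measurableSet_le ?_ measurable_const
    have h1 : Continuous (fun p : E d × (Fin q → E d) × E d => ip p.2.1 p.1) := by
      unfold ip; fun_prop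
    have h2 : Continuous (fun p : E d × (Fin q → E d) × E d => ip p.2.1 p.2.2) := by
      unfold ip; fun_prop
    exact (h1.dist h2).measurable
  have hinner : Measurable (fun p : (Fin q → E d) × E d =>
      ∫⁻ s, f s * Set.indicator {p : E d × (Fin q → E d) × E d |
        dist (ip p.2.1 p.1) (ip p.2.1 p.2.2) ≤ r} 1 (s, p.1, p.2) ∂σ) := by
    apply Measurable.lintegral_prod_left'
      (f := fun w : E d × ((Fin q → E d) × E d) => f w.1 * Set.indicator
        {p : E d × (Fin q → E d) × E d | dist (ip p.2.1 p.1) (ip p.2.1 p.2.2) ≤ r} 1 w)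
    exact (hf.comp measurable_fst).mul (measurable_one.indicator hms)
  apply Measurable.lintegral_prod_right'
    (f := fun w : (Fin q → E d) × E d => f w.2 *
      ((∫⁻ s, f s * Set.indicator {p : E d × (Fin q → E d) × E d |
        dist (ip p.2.1 p.1) (ip p.2.1 p.2.2) ≤ r} 1 (s, w.1, w.2) ∂σ) / c) ^ p)
  exact (hf.comp measurable_snd).mul ((hinner.div_const c).pow_const p)

/-- the constant of one block with `N` labels. -/
noncomputable def Kc (N q d L : ℕ) : ℝ :=
  (N : ℝ) ^ ((1 : ℝ) / (q + 1)) * (max 1 (c1 q d) * (16 ^ d * (L + 2)))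

/-- pointwise (in `X`) estimate from `lemR`. -/
theorem block_pointwise {d q : ℕ} {σ : Measure (E d)} [IsFiniteMeasure σ]
    {ι : Type} [Fintype ι] {g : ι → E d → ℝ≥0∞} (hgm : ∀ j, Measurable (g j))
    (hg1 : ∀ j s, g j s ≤ 1)
    {c : (Fin q → E d) → (Fin q → ℝ) → ι}
    (hc : ∀ j, MeasurableSet {p : (Fin q → E d) × (Fin q → ℝ) | c p.1 p.2 = j})
    {H : Matrix (Fin d) (Fin d) ℝ} (hH : H.PosDef) (z : E d)
    {r : ℕ → ℝ} (hr0 : ∀ n, 0 < r n) (hrt : Tendsto r atTop (𝓝 0)) (X : Fin q → E d)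
    (hX : 0 < vol2 H X) :
    (∫⁻ s in ell z H, g (c X (ip X s)) s ∂σ) ^ (q + 1) ≤
      liminf (fun n => ∑ j, ENNReal.ofReal ((vb q * √(vol2 H X)) ^ q) *
        ∫⁻ Y, (imgMeas σ ((ell z H).indicator (g j)) X (closedBall Y (r n)) /
          ENNReal.ofReal ((2 * r n) ^ q)) ^ q
          ∂(imgMeas σ ((ell z H).indicator (g j)) X)) atTop := by
  classical
  have hQ : MeasurableSet (ell z H) := (isClosed_ell z H).measurableSet
  set f : ι → E d → ℝ≥0∞ := fun j => (ell z H).indicator (g j) with hf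
  have hfm : ∀ j, Measurable (f j) := fun j => (hgm j).indicator hQ
  have hf1 : ∀ j s, f j s ≤ 1 := by
    intro j s
    refine (Set.indicator_le_self _ _ _).trans (hg1 j s)
  have hcX : ∀ j, MeasurableSet {Y : Fin q → ℝ | c X Y = j} := fun j =>
    measurable_prodMk_left (hc j)
  set φ : ι → (Fin q → ℝ) → ℝ≥0∞ := fun j => Set.indicator {Y | c X Y = j} 1 with hφ
  have hφm : ∀ j, Measurable (φ j) := fun j => measurable_one.indicator (hcX j)
  have hsum : ∀ Y, ∑ j, φ j Y ≤ 1 := by
    intro Y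
    simp only [hφ, Set.indicator_apply, Set.mem_ofPred_eq, Pi.one_apply]
    rw [Finset.sum_ite_eq]
    simp
  have hfin : ∀ j, IsFiniteMeasure (imgMeas σ (f j) X) := fun j =>
    isFiniteMeasure_imgMeas (hf1 j) X
  set K : Set (Fin q → ℝ) := (ip X) '' ell z H with hK
  have hKc : IsCompact K := (isCompact_ell z hH).image (by unfold ip; fun_prop)
  have hmK : ∀ j, imgMeas σ (f j) X Kᶜ = 0 := by
    intro j
    have hKm : MeasurableSet Kᶜ := hKc.measurableSet.compl
    rw [← lintegral_indicator_one hKm, lintegral_imgMeas σ (hfm j) X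
      (measurable_one.indicator hKm)]
    have hz : ∀ s, f j s * Kᶜ.indicator 1 (ip X s) = 0 := by
      intro s
      by_cases hs : s ∈ ell z H
      · have : ip X s ∉ Kᶜ := by
          simp only [Set.mem_compl_iff, not_not]
          exact ⟨s, hs, rfl⟩
        simp [Set.indicator_of_notMem this]
      · simp [hf, Set.indicator_of_notMem hs]
    simp [hz]
  have hvol : volume K ≤ ENNReal.ofReal (vb q * √(vol2 H X)) := volume_image_le hH z X
  have hvb0 : 0 < vb q * √(vol2 H X) := mul_pos (vb_pos q) (Real.sqrt_pos.2 hX)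
  have hvb : 0 ≤ vb q * √(vol2 H X) := hvb0.le
  have hR := lemR' hKc.measurableSet hvol (ENNReal.ofReal_pos.2 hvb0).ne' (fun j => imgMeas σ (f j) X) hmK φ hφm hsum q r hr0 hrt
  have hS : ∑ j, ∫⁻ Y, φ j Y ∂(imgMeas σ (f j) X) = ∫⁻ s in ell z H, g (c X (ip X s)) s ∂σ := by
    have h1 : ∀ j, ∫⁻ Y, φ j Y ∂(imgMeas σ (f j) X) = ∫⁻ s, f j s * φ j (ip X s) ∂σ :=
      fun j => lintegral_imgMeas σ (hfm j) X (hφm j)
    simp_rw [h1]
    rw [← lintegral_finsetSum, ← lintegral_indicator hQ]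
    · refine lintegral_congr fun s => ?_
      by_cases hs : s ∈ ell z H
      · simp only [hf, hφ, Set.indicator_apply, hs, if_true, Set.mem_ofPred_eq, Pi.one_apply,
          mul_ite, mul_one, mul_zero]
        rw [Finset.sum_ite_eq]
        simp
      · simp [hf, Set.indicator_of_notMem hs]
    · exact fun j _ => (hfm j).mul ((hφm j).comp (measurable_ip X))
  rw [hS] at hR
  refine hR.trans ?_
  calc ENNReal.ofReal (vb q * √(vol2 H X)) ^ q * liminf (fun n => ∑ j, ∫⁻ Y,
        (imgMeas σ (f j) X (closedBall Y (r n)) / ENNReal.ofReal ((2 * r n) ^ q)) ^ q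
          ∂(imgMeas σ (f j) X)) atTop
      ≤ ENNReal.ofReal ((vb q * √(vol2 H X)) ^ q) * liminf (fun n => ∑ j, ∫⁻ Y,
        (imgMeas σ (f j) X (closedBall Y (r n)) / ENNReal.ofReal ((2 * r n) ^ q)) ^ q
          ∂(imgMeas σ (f j) X)) atTop := by
        rw [ENNReal.ofReal_pow hvb]
    _ = _ := by
        rw [← ENNReal.liminf_const_mul_of_ne_top]
        · congr 1
          ext n
          rw [Finset.mul_sum]
        · exact ENNReal.ofReal_ne_top

theorem jensen_pow {α : Type*} [MeasurableSpace α] (μ : Measure α) [IsProbabilityMeasure μ]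
    {S : α → ℝ≥0∞} (hS : Measurable S) {q : ℕ} (hq : 0 < q) :
    ∫⁻ a, S a ∂μ ≤ (∫⁻ a, S a ^ (q + 1) ∂μ) ^ ((1 : ℝ) / (q + 1)) := by
  have hq' : (0 : ℝ) < q := by exact_mod_cast hq
  have hconj : ((q : ℝ) + 1).HolderConjugate (((q : ℝ) + 1) / q) := by
    rw [Real.holderConjugate_iff]
    refine ⟨by linarith, ?_⟩
    field_simp
    ring
  have h := ENNReal.lintegral_mul_le_Lp_mul_Lq μ hconj hS.aemeasurable
    (g := fun _ => 1) aemeasurable_const
  simp only [ENNReal.one_rpow, lintegral_const, measure_univ, mul_one] at h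
  have h1 : ∫⁻ a, S a ∂μ = ∫⁻ a, ((S * (fun _ => (1 : ℝ≥0∞)) : α → ℝ≥0∞)) a ∂μ := by simp
  have h2 : ∀ a, S a ^ ((q:ℝ) + 1) = S a ^ (q + 1) := by
    intro a
    rw [← ENNReal.rpow_natCast]
    push_cast
    rfl
  simp_rw [h2] at h
  rw [h1]
  exact h

theorem liminf_sum_le {ι : Type} [Fintype ι] (a : ι → ℕ → ℝ≥0∞) {B : ℝ≥0∞}
    (h : ∀ j, limsup (a j) atTop ≤ B) (hB : B ≠ ∞) :
    liminf (fun n => ∑ j, a j n) atTop ≤ (Fintype.card ι : ℝ≥0∞) * B := by
  have hC : ∀ C, B < C → liminf (fun n => ∑ j, a j n) atTop ≤ (Fintype.card ι : ℝ≥0∞) * C := by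
    intro C hBC
    have h1 : ∀ᶠ n in atTop, ∀ j, a j n < C := by
      rw [eventually_all]
      intro j
      exact eventually_lt_of_limsup_lt ((h j).trans_lt hBC)
    apply liminf_le_of_frequently_le'
    apply Eventually.frequently
    filter_upwards [h1] with n hn
    calc ∑ j, a j n ≤ ∑ _j : ι, C := Finset.sum_le_sum fun j _ => (hn j).le
      _ = (Fintype.card ι : ℝ≥0∞) * C := by simp
  have hlim : Tendsto (fun C : ℝ≥0∞ => (Fintype.card ι : ℝ≥0∞) * C) (𝓝[>] B)
      (𝓝 ((Fintype.card ι : ℝ≥0∞) * B)) :=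
    (ENNReal.continuous_const_mul (ENNReal.natCast_ne_top _)).continuousWithinAt
  have hne : (𝓝[>] B).NeBot := by
    rw [← mem_closure_iff_nhdsWithin_neBot, closure_Ioi' ⟨∞, lt_top_iff_ne_top.2 hB⟩]
    exact Set.self_mem_Ici
  refine ge_of_tendsto hlim ?_
  filter_upwards [self_mem_nhdsWithin] with C hC'
  exact hC C hC'

theorem measurable_label {d q : ℕ} {ι : Type} [Fintype ι] {g : ι → E d → ℝ≥0∞}
    (hgm : ∀ j, Measurable (g j)) {c : (Fin q → E d) → (Fin q → ℝ) → ι}
    (hc : ∀ j, MeasurableSet {p : (Fin q → E d) × (Fin q → ℝ) | c p.1 p.2 = j}) :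
    Measurable (fun p : E d × (Fin q → E d) => g (c p.2 (ip p.2 p.1)) p.1) := by
  classical
  have h : (fun p : E d × (Fin q → E d) => g (c p.2 (ip p.2 p.1)) p.1) =
      fun p => ∑ j, Set.indicator {p : E d × (Fin q → E d) | c p.2 (ip p.2 p.1) = j}
        (fun p => g j p.1) p := by
    funext p
    simp only [Set.indicator_apply, Set.mem_ofPred_eq]
    rw [Finset.sum_ite_eq]
    simp
  rw [h]
  refine Finset.measurable_sum _ fun j _ => ?_
  apply Measurable.indicator
  · exact (hgm j).comp measurable_fst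
  · have : Measurable (fun p : E d × (Fin q → E d) => (p.2, ip p.2 p.1)) := by
      have h1 : Continuous (fun p : E d × (Fin q → E d) => ip p.2 p.1) := by
        unfold ip; fun_prop
      exact measurable_snd.prodMk h1.measurable
    exact this (hc j)

theorem block_lemma {d q L : ℕ} (hq : 0 < q) (hd : 8 * q ≤ d) {W : ℝ}
    (hW : ((1 : ℝ) / 2 ^ L) ^ (d - 2 * q - 1) ≤ W)
    {σ : Measure (E d)} (hσ : SphLike σ)
    {ι : Type} [Fintype ι]
    {g : ι → E d → ℝ≥0∞} (hgm : ∀ j, Measurable (g j)) (hg1 : ∀ j s, g j s ≤ 1)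
    (hg : ∀ j, WBdd σ (2 * q) (1 / 2 ^ L) W (g j))
    {c : (Fin q → E d) → (Fin q → ℝ) → ι}
    (hc : ∀ j, MeasurableSet {p : (Fin q → E d) × (Fin q → ℝ) | c p.1 p.2 = j}) :
    WBdd σ (2 * q) (1 / 2 ^ L) (Kc (Fintype.card ι) q d L * W)
      (fun s => ∫⁻ X, g (c X (fun l => ⟪X l, s⟫)) s ∂(blk q d)) := by
  have hprob := hσ.prob
  have hprobX : IsProbabilityMeasure (blk q d) := by unfold blk; infer_instance
  intro z H hHa t ht
  have hH := hHa.posDef
  have hW0 : 0 ≤ W := le_trans (by positivity) hW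
  have hmeas := measurable_label hgm hc
  set S : (Fin q → E d) → ℝ≥0∞ := fun X => ∫⁻ s in ell z H, g (c X (ip X s)) s ∂σ with hS
  have hSm : Measurable S := by
    rw [hS]
    exact Measurable.lintegral_prod_left' hmeas
  -- Tonelli
  have hton : ∫⁻ s in ell z H, (∫⁻ X, g (c X (fun l => ⟪X l, s⟫)) s ∂(blk q d)) ∂σ =
      ∫⁻ X, S X ∂(blk q d) := by
    rw [hS]
    exact lintegral_lintegral_swap hmeas.aemeasurable
  rw [hton]
  set r : ℕ → ℝ := fun n => 1 / ((n : ℝ) + 1) with hr
  have hr0 : ∀ n, 0 < r n := fun n => by rw [hr]; positivity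
  have hrt : Tendsto r atTop (𝓝 0) := tendsto_one_div_add_atTop_nhds_zero_nat
  set Bq : ℝ≥0∞ := ENNReal.ofReal (W * √(size2 (2 * q) H t)) *
        (ENNReal.ofReal (c1 q d) *
          ENNReal.ofReal (16 ^ d * (L + 2) * W * √(size2 (2 * q) H t))) ^ q with hBq
  have hpow : ∫⁻ X, S X ^ (q + 1) ∂(blk q d) ≤ (Fintype.card ι : ℝ≥0∞) * Bq := by
    calc ∫⁻ X, S X ^ (q + 1) ∂(blk q d)
        ≤ ∫⁻ X, liminf (fun n => ∑ j, ENNReal.ofReal ((vb q * √(vol2 H X)) ^ q) *
        ∫⁻ Y, (imgMeas σ ((ell z H).indicator (g j)) X (closedBall Y (r n)) /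
          ENNReal.ofReal ((2 * r n) ^ q)) ^ q
          ∂(imgMeas σ ((ell z H).indicator (g j)) X)) atTop ∂(blk q d) :=
          lintegral_mono_ae ((vol2_pos_ae (by omega) hH).mono fun X hX =>
            block_pointwise hgm hg1 hc hH z hr0 hrt X hX)
      _ ≤ liminf (fun n => ∫⁻ X, ∑ j, ENNReal.ofReal ((vb q * √(vol2 H X)) ^ q) *
        ∫⁻ Y, (imgMeas σ ((ell z H).indicator (g j)) X (closedBall Y (r n)) /
          ENNReal.ofReal ((2 * r n) ^ q)) ^ q
          ∂(imgMeas σ ((ell z H).indicator (g j)) X) ∂(blk q d)) atTop := by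
          apply lintegral_liminf_le
          intro n
          refine Finset.measurable_sum _ fun j _ => ?_
          apply Measurable.mul
          · apply ENNReal.measurable_ofReal.comp
            have := (continuous_vol2 (k := q) H).measurable
            exact ((measurable_const.mul this.sqrt).pow_const q)
          · refine measurable_repInner ((hgm j).indicator (isClosed_ell z H).measurableSet)
              (fun s => (Set.indicator_le_self _ _ _).trans (hg1 j s)) _ _ _
      _ = liminf (fun n => ∑ j, repI σ ((ell z H).indicator (g j)) H q (r n)) atTop := by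
          congr 1
          funext n
          rw [lintegral_finsetSum]
          · rfl
          · intro j _
            apply Measurable.mul
            · apply ENNReal.measurable_ofReal.comp
              have := (continuous_vol2 (k := q) H).measurable
              exact ((measurable_const.mul this.sqrt).pow_const q)
            · refine measurable_repInner ((hgm j).indicator (isClosed_ell z H).measurableSet)
                (fun s => (Set.indicator_le_self _ _ _).trans (hg1 j s)) _ _ _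
      _ ≤ (Fintype.card ι : ℝ≥0∞) * Bq := by
          apply liminf_sum_le (fun j n => repI σ ((ell z H).indicator (g j)) H q (r n))
          · exact fun j => repI_limsup hq hd hW hσ (hgm j) (hg1 j) (hg j) hHa z ht hr0 hrt
          · rw [hBq]
            exact ENNReal.mul_ne_top ENNReal.ofReal_ne_top (ENNReal.pow_ne_top
              (ENNReal.mul_ne_top ENNReal.ofReal_ne_top ENNReal.ofReal_ne_top))
  refine (jensen_pow (blk q d) hSm hq).trans ?_
  refine (ENNReal.rpow_le_rpow hpow (by positivity)).trans ?_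
  -- numerical
  set w : ℝ := W * √(size2 (2 * q) H t) with hw
  have hw0 : 0 ≤ w := by positivity
  set b : ℝ := max 1 (c1 q d) * (16 ^ d * (L + 2)) with hb
  have hb1 : 1 ≤ 16 ^ d * ((L:ℝ) + 2) := by
    have ha : (1:ℝ) ≤ 16 ^ d := one_le_pow₀ (by norm_num)
    have hb : (1:ℝ) ≤ (L:ℝ) + 2 := by
      have : (0:ℝ) ≤ L := Nat.cast_nonneg L
      linarith
    nlinarith
  have hb2 : 1 ≤ b := by
    have h2 : (1:ℝ) ≤ max 1 (c1 q d) := le_max_left _ _
    rw [hb]; nlinarith
  have hBle : Bq ≤ ENNReal.ofReal (b * w) ^ (q + 1) := by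
    rw [hBq, pow_succ']
    have h1 : ENNReal.ofReal w ≤ ENNReal.ofReal (b * w) := by
      apply ENNReal.ofReal_le_ofReal; nlinarith
    have h2 : ENNReal.ofReal (c1 q d) * ENNReal.ofReal (16 ^ d * (L + 2) * W *
        √(size2 (2 * q) H t)) ≤ ENNReal.ofReal (b * w) := by
      have hm : 0 ≤ max 1 (c1 q d) := le_trans zero_le_one (le_max_left _ _)
      calc _ ≤ ENNReal.ofReal (max 1 (c1 q d)) * ENNReal.ofReal (16 ^ d * (L + 2) * W *
            √(size2 (2 * q) H t)) := by
            gcongr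
            exact le_max_right _ _
        _ = ENNReal.ofReal (b * w) := by
            rw [← ENNReal.ofReal_mul hm]
            congr 1
            rw [hb, hw]; ring
    gcongr
  have hN : ((Fintype.card ι : ℝ≥0∞) * Bq) ^ ((1:ℝ) / (q + 1)) ≤
      ENNReal.ofReal ((Fintype.card ι : ℝ) ^ ((1:ℝ) / (q + 1))) * ENNReal.ofReal (b * w) := by
    rw [ENNReal.mul_rpow_of_nonneg _ _ (by positivity)]
    apply mul_le_mul'
    · rw [← ENNReal.ofReal_rpow_of_nonneg (by positivity) (by positivity)]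
      simp
    · calc Bq ^ ((1:ℝ) / (q + 1)) ≤ (ENNReal.ofReal (b * w) ^ (q + 1)) ^ ((1:ℝ) / (q + 1)) := by
            apply ENNReal.rpow_le_rpow hBle (by positivity)
        _ = ENNReal.ofReal (b * w) := by
            rw [← ENNReal.rpow_natCast, ← ENNReal.rpow_mul]
            have : ((q + 1 : ℕ) : ℝ) * (1 / ((q:ℝ) + 1)) = 1 := by
              push_cast; field_simp
            rw [this, ENNReal.rpow_one]
  refine hN.trans ?_
  rw [← ENNReal.ofReal_mul (by positivity)]
  apply ENNReal.ofReal_le_ofReal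
  unfold Kc
  apply le_of_eq
  rw [hb, hw]; ring

end P309
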