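import Mathlib
import Vale.Agent.P309.Defs

/-! P309 module Red: backward recursion for a deterministic learner and block representation. -/

open MeasureTheory ProbabilityTheory Metric Matrix Filter Topology
open scoped ENNReal RealInnerProductSpace

namespace P309

/-- `G m t v s`: the expected value of the terminal function, with `m` steps left, index `t`,
state `v`, signal `s`. -/
noncomputable def G {d n : ℕ} (st : ℕ → Fin n × E d × ℝ → Fin n × Bool)
    (F : ℕ → Fin n → E d → ℝ≥0∞) : ℕ → ℕ → Fin n → E d → ℝ≥0∞
  | 0, t, v, s => F t v s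
  | m + 1, t, v, s => ∫⁻ x,
      (if (st t (v, x, ⟪x, s⟫)).2 then F (t + 1) (st t (v, x, ⟪x, s⟫)).1 s
        else G st F m (t + 1) (st t (v, x, ⟪x, s⟫)).1 s) ∂(stdGaussian (E d))

theorem Red_measurable_step {d n : ℕ} {st : ℕ → Fin n × E d × ℝ → Fin n × Bool}
    (hst : ∀ t, Measurable (st t)) (t : ℕ) (v : Fin n) :
    Measurable (fun p : E d × E d => st t (v, p.2, ⟪p.2, p.1⟫)) := by
  apply (hst t).comp
  have h : Continuous (fun p : E d × E d => (p.2, (⟪p.2, p.1⟫ : ℝ))) := by fun_prop
  exact measurable_const.prodMk h.measurable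

theorem Red_measurable_index {n : ℕ} {α β : Type*} [MeasurableSpace α] [MeasurableSpace β]
    {a : α → Fin n} (ha : Measurable a) {b : α → β} (hb : Measurable b)
    {u : Fin n → β → ℝ≥0∞} (hu : ∀ v, Measurable (u v)) :
    Measurable (fun x => u (a x) (b x)) := by
  have h : Measurable (fun p : Fin n × β => u p.1 p.2) :=
    measurable_from_prod_countable_right fun v => hu v
  exact h.comp (ha.prodMk hb)

theorem measurable_G {d n : ℕ} {st : ℕ → Fin n × E d × ℝ → Fin n × Bool}
    (hst : ∀ t, Measurable (st t)) {F : ℕ → Fin n → E d → ℝ≥0∞}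
    (hF : ∀ t v, Measurable (F t v)) (m t : ℕ) (v : Fin n) : Measurable (G st F m t v) := by
  induction m generalizing t v with
  | zero => exact hF t v
  | succ m ih =>
    have hs := Red_measurable_step hst t v
    have h : Measurable (fun p : E d × E d =>
        if (st t (v, p.2, ⟪p.2, p.1⟫)).2 then F (t + 1) (st t (v, p.2, ⟪p.2, p.1⟫)).1 p.1
        else G st F m (t + 1) (st t (v, p.2, ⟪p.2, p.1⟫)).1 p.1) := by
      refine Measurable.ite ?_ ?_ ?_
      · exact hs.snd (measurableSet_singleton true)
      · exact Red_measurable_index hs.fst measurable_fst (hF (t + 1))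
      · exact Red_measurable_index hs.fst measurable_fst (ih (t + 1))
    exact h.lintegral_prod_right'

theorem G_le_one {d n : ℕ} {st : ℕ → Fin n × E d × ℝ → Fin n × Bool}
    {F : ℕ → Fin n → E d → ℝ≥0∞} (hF : ∀ t v s, F t v s ≤ 1) (m t : ℕ) (v : Fin n) (s : E d) :
    G st F m t v s ≤ 1 := by
  induction m generalizing t v with
  | zero => exact hF t v s
  | succ m ih =>
    calc G st F (m + 1) t v s ≤ ∫⁻ _x, 1 ∂(stdGaussian (E d)) := by
          apply lintegral_mono
          intro x
          dsimp only
          split_ifs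
          · exact hF _ _ _
          · exact ih _ _
      _ = 1 := by simp

theorem G_le_sum {d n : ℕ} {st : ℕ → Fin n × E d × ℝ → Fin n × Bool}
    {F : ℕ → Fin n → E d → ℝ≥0∞} (m t : ℕ) (v : Fin n) (s : E d) :
    G st F m t v s ≤ ∑ τ ∈ Finset.range (m + 1), ∑ v', F (t + τ) v' s := by
  induction m generalizing t v with
  | zero =>
    have h1 : G st F 0 t v s = F t v s := rfl
    rw [h1]
    simp only [zero_add, Finset.range_one, Finset.sum_singleton, add_zero]
    exact Finset.single_le_sum (f := fun v' => F t v' s) (fun _ _ => zero_le) (Finset.mem_univ v)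
  | succ m ih =>
    have hstep : ∑ τ ∈ Finset.range (m + 1), ∑ v', F (t + 1 + τ) v' s ≤
        ∑ τ ∈ Finset.range (m + 1 + 1), ∑ v', F (t + τ) v' s := by
      rw [Finset.sum_range_succ' _ (m + 1)]
      have : ∑ τ ∈ Finset.range (m + 1), ∑ v', F (t + 1 + τ) v' s =
          ∑ τ ∈ Finset.range (m + 1), ∑ v', F (t + (τ + 1)) v' s := by
        refine Finset.sum_congr rfl fun τ _ => ?_
        have : t + 1 + τ = t + (τ + 1) := by ring
        rw [this]
      rw [this]
      exact le_self_add
    have hone : ∀ w : Fin n, F (t + 1) w s ≤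
        ∑ τ ∈ Finset.range (m + 1), ∑ v', F (t + 1 + τ) v' s := by
      intro w
      calc F (t + 1) w s ≤ ∑ v', F (t + 1 + 0) v' s :=
            Finset.single_le_sum (f := fun v' => F (t + 1) v' s) (fun _ _ => zero_le)
              (Finset.mem_univ w)
        _ ≤ _ := Finset.single_le_sum (f := fun τ => ∑ v', F (t + 1 + τ) v' s)
              (fun _ _ => zero_le) (Finset.mem_range.2 (Nat.succ_pos m))
    calc G st F (m + 1) t v s ≤ ∫⁻ _x, ∑ τ ∈ Finset.range (m + 1), ∑ v', F (t + 1 + τ) v' s
            ∂(stdGaussian (E d)) := by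
          apply lintegral_mono
          intro x
          dsimp only
          split_ifs
          · exact hone _
          · exact ih _ _
      _ = ∑ τ ∈ Finset.range (m + 1), ∑ v', F (t + 1 + τ) v' s := by simp
      _ ≤ _ := hstep

/-- label functions of a block of `q` rows. -/
noncomputable def labF {d n : ℕ} (st : ℕ → Fin n × E d × ℝ → Fin n × Bool)
    (F : ℕ → Fin n → E d → ℝ≥0∞) (q m t : ℕ) : Option (Fin (q + 1)) × Fin n → E d → ℝ≥0∞
  | (some i, v) => F (t + i) v
  | (none, v) => G st F (m - q) (t + q) v

/-- shift of labels. -/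
def Red_shift {n q : ℕ} (j : Option (Fin (q + 1)) × Fin n) : Option (Fin (q + 1 + 1)) × Fin n :=
  (j.1.map Fin.succ, j.2)

theorem labF_shift {d n : ℕ} (st : ℕ → Fin n × E d × ℝ → Fin n × Bool)
    (F : ℕ → Fin n → E d → ℝ≥0∞) (q m t : ℕ) (j : Option (Fin (q + 1)) × Fin n) :
    labF st F (q + 1) (m + 1) t (Red_shift j) = labF st F q m (t + 1) j := by
  obtain ⟨_ | i, v⟩ := j
  · simp only [Red_shift, Option.map_none, labF]
    rw [Nat.add_sub_add_right, show t + (q + 1) = t + 1 + q by ring]
  · simp only [Red_shift, Option.map_some, labF, Fin.val_succ]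
    rw [show t + ((i : ℕ) + 1) = t + 1 + i by ring]

theorem Red_measurable_lab {d q n : ℕ}
    {c : (Fin q → E d) → (Fin q → ℝ) → Option (Fin (q + 1)) × Fin n}
    (hc : ∀ j, MeasurableSet {p : (Fin q → E d) × (Fin q → ℝ) | c p.1 p.2 = j}) (s : E d)
    (u : Option (Fin (q + 1)) × Fin n → ℝ≥0∞) :
    Measurable (fun X : Fin q → E d => u (c X (fun l => ⟪X l, s⟫))) := by
  classical
  have h : (fun X : Fin q → E d => u (c X (fun l => ⟪X l, s⟫))) =
      fun X => ∑ j, Set.indicator {X : Fin q → E d | c X (fun l => ⟪X l, s⟫) = j}
        (fun _ => u j) X := by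
    funext X
    simp only [Set.indicator_apply, Set.mem_ofPred_eq]
    rw [Finset.sum_ite_eq]
    simp
  rw [h]
  refine Finset.measurable_sum _ fun j _ => ?_
  apply Measurable.indicator measurable_const
  have : Measurable (fun X : Fin q → E d => (X, fun l => (⟪X l, s⟫ : ℝ))) := by
    have h1 : Continuous (fun X : Fin q → E d => fun l => (⟪X l, s⟫ : ℝ)) := by fun_prop
    exact measurable_id.prodMk h1.measurable
  exact this (hc j)

theorem G_block {d n : ℕ} {st : ℕ → Fin n × E d × ℝ → Fin n × Bool}
    (hst : ∀ t, Measurable (st t)) {F : ℕ → Fin n → E d → ℝ≥0∞}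
    (hF : ∀ t v, Measurable (F t v)) (q m t : ℕ) (v : Fin n) :
    ∃ c : (Fin q → E d) → (Fin q → ℝ) → Option (Fin (q + 1)) × Fin n,
      (∀ j, MeasurableSet {p : (Fin q → E d) × (Fin q → ℝ) | c p.1 p.2 = j}) ∧
      ∀ s, G st F m t v s = ∫⁻ X, labF st F q m t (c X (fun l => ⟪X l, s⟫)) s ∂(blk q d) := by
  classical
  induction q generalizing m t v with
  | zero =>
    have hprob : IsProbabilityMeasure (blk 0 d) := by unfold blk; infer_instance
    refine ⟨fun _ _ => (none, v), fun j => by simp, fun s => ?_⟩
    simp [labF]
  | succ q ih =>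
    have hprob : IsProbabilityMeasure (blk (q + 1) d) := by unfold blk; infer_instance
    have hprob' : IsProbabilityMeasure (blk q d) := by unfold blk; infer_instance
    cases m with
    | zero =>
      refine ⟨fun _ _ => (some 0, v), fun j => by simp, fun s => ?_⟩
      simp [labF, G]
    | succ m =>
      choose c hc hcG using fun w => ih m (t + 1) w
      set C : (Fin (q + 1) → E d) → (Fin (q + 1) → ℝ) → Option (Fin (q + 1 + 1)) × Fin n :=
        fun X Y => if (st t (v, X 0, Y 0)).2 then (some 1, (st t (v, X 0, Y 0)).1)
          else Red_shift (c (st t (v, X 0, Y 0)).1 (fun l => X l.succ) (fun l => Y l.succ)) with hC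
      refine ⟨C, fun j => ?_, fun s => ?_⟩
      · -- measurability
        have hp0 : Measurable (fun p : (Fin (q + 1) → E d) × (Fin (q + 1) → ℝ) =>
            st t (v, p.1 0, p.2 0)) := by
          apply (hst t).comp
          exact measurable_const.prodMk (((measurable_pi_apply 0).comp measurable_fst).prodMk
            ((measurable_pi_apply 0).comp measurable_snd))
        have hp1 : Measurable (fun p : (Fin (q + 1) → E d) × (Fin (q + 1) → ℝ) =>
            ((fun l : Fin q => p.1 l.succ), (fun l : Fin q => p.2 l.succ))) := by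
          refine Measurable.prodMk ?_ ?_
          · exact measurable_pi_lambda _ fun l => (measurable_pi_apply _).comp measurable_fst
          · exact measurable_pi_lambda _ fun l => (measurable_pi_apply _).comp measurable_snd
        have heq : {p : (Fin (q + 1) → E d) × (Fin (q + 1) → ℝ) | C p.1 p.2 = j} =
            ⋃ w : Fin n, (({p | st t (v, p.1 0, p.2 0) = (w, true)} ∩
                {_p | (some 1, w) = j}) ∪
              ({p | st t (v, p.1 0, p.2 0) = (w, false)} ∩
                ⋃ i : Option (Fin (q + 1)) × Fin n, ({_p | Red_shift i = j} ∩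
                  {p | c w (fun l => p.1 l.succ) (fun l => p.2 l.succ) = i}))) := by
          ext p
          simp only [hC, Set.mem_ofPred_eq, Set.mem_iUnion, Set.mem_union, Set.mem_inter_iff]
          constructor
          · intro h
            refine ⟨(st t (v, p.1 0, p.2 0)).1, ?_⟩
            by_cases hb : (st t (v, p.1 0, p.2 0)).2 = true
            · rw [if_pos hb] at h
              exact Or.inl ⟨Prod.ext rfl hb, h⟩
            · rw [if_neg hb] at h
              refine Or.inr ⟨Prod.ext rfl (by simpa using hb), _, h, rfl⟩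
          · rintro ⟨w, ⟨h1, h2⟩ | ⟨h1, i, h2, h3⟩⟩
            · rw [h1]; simpa using h2
            · rw [h1]
              simp only [Bool.false_eq_true, if_false]
              rw [h3, h2]
        rw [heq]
        refine MeasurableSet.iUnion fun w => MeasurableSet.union ?_ ?_
        · exact (hp0 (measurableSet_singleton _)).inter (MeasurableSet.const _)
        · refine (hp0 (measurableSet_singleton _)).inter (MeasurableSet.iUnion fun i => ?_)
          exact (MeasurableSet.const _).inter (hp1 (hc w i))
      · -- the integral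
        have hmp := measurePreserving_piFinSuccAbove (fun _ : Fin (q + 1) => stdGaussian (E d)) 0
        set h' : E d × (Fin q → E d) → ℝ≥0∞ := fun p =>
          if (st t (v, p.1, ⟪p.1, s⟫)).2 then F (t + 1) (st t (v, p.1, ⟪p.1, s⟫)).1 s
          else labF st F q m (t + 1)
            (c (st t (v, p.1, ⟪p.1, s⟫)).1 p.2 (fun l => ⟪p.2 l, s⟫)) s with hh'
        have hst1 : Measurable (fun x : E d => st t (v, x, ⟪x, s⟫)) := by
          apply (hst t).comp
          have h : Continuous (fun x : E d => (x, (⟪x, s⟫ : ℝ))) := by fun_prop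
          exact measurable_const.prodMk h.measurable
        have hst2 : Measurable (fun p : E d × (Fin q → E d) => st t (v, p.1, ⟪p.1, s⟫)) :=
          hst1.comp measurable_fst
        have hh'm : Measurable h' := by
          refine Measurable.ite ?_ ?_ ?_
          · exact hst2.snd (measurableSet_singleton true)
          · exact (measurable_of_finite (fun w : Fin n => F (t + 1) w s)).comp hst2.fst
          · exact Red_measurable_index hst2.fst measurable_snd
              (u := fun w X => labF st F q m (t + 1) (c w X (fun l => ⟪X l, s⟫)) s)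
              (fun w => Red_measurable_lab (hc w) s (fun j => labF st F q m (t + 1) j s))
        have hfun : (fun X : Fin (q + 1) → E d =>
            labF st F (q + 1) (m + 1) t (C X (fun l => ⟪X l, s⟫)) s) =
            fun X => h' (MeasurableEquiv.piFinSuccAbove (fun _ => E d) 0 X) := by
          funext X
          have e1 : (MeasurableEquiv.piFinSuccAbove (fun _ => E d) 0 X).1 = X 0 := rfl
          have e2 : (MeasurableEquiv.piFinSuccAbove (fun _ => E d) 0 X).2 =
              fun l => X l.succ := by
            funext l
            rfl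
          simp only [hh', e1, e2, hC]
          by_cases hb : (st t (v, X 0, ⟪X 0, s⟫)).2 = true
          · rw [if_pos hb, if_pos hb]
            simp only [labF]
            rfl
          · rw [if_neg hb, if_neg hb, labF_shift]
        rw [hfun]
        have h3 : ∫⁻ X, h' (MeasurableEquiv.piFinSuccAbove (fun _ => E d) 0 X) ∂(blk (q + 1) d) =
            ∫⁻ p, h' p ∂((stdGaussian (E d)).prod (blk q d)) := hmp.lintegral_comp hh'm
        rw [h3, lintegral_prod _ hh'm.aemeasurable]
        change ∫⁻ x, _ ∂(stdGaussian (E d)) = _
        refine lintegral_congr fun x => ?_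
        simp only [hh']
        by_cases hb : (st t (v, x, ⟪x, s⟫)).2 = true
        · simp only [hb, if_true]
          simp
        · simp only [hb, if_false]
          simp only [Bool.false_eq_true, if_false]
          exact hcG _ s

end P309
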