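import Mathlib
import Vale.Agent.P309.Red

/-! P309 module Red2: the success probability as an integral. -/

open MeasureTheory ProbabilityTheory Metric Matrix Filter Topology
open scoped ENNReal RealInnerProductSpace

namespace P309

/-- terminal functions of a learner with seed `ω`. -/
noncomputable def term {d n : ℕ} {Ω : Type} [MeasurableSpace Ω] (A : Learner d Ω n) (ε : ℝ)
    (ω : Ω) (τ : ℕ) (v : Fin n) (s : E d) : ℝ≥0∞ :=
  if Real.arccos ⟪((A.out τ (ω, v) : Sph d) : E d), s⟫ ≤ ε then 1 else 0

/-! ### the shift on sequences -/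

/-- prepend a term to a sequence. -/
def Red2_cons {X : Type*} (p : X × (ℕ → X)) : ℕ → X
  | 0 => p.1
  | i + 1 => p.2 i

theorem Red2_measurable_cons {X : Type*} [MeasurableSpace X] :
    Measurable (Red2_cons : X × (ℕ → X) → ℕ → X) := by
  rw [measurable_pi_iff]
  rintro (_ | i)
  · exact measurable_fst
  · exact (measurable_pi_apply i).comp measurable_snd

theorem Red2_map_cons {X : Type*} [MeasurableSpace X] (μ : Measure X) [IsProbabilityMeasure μ] :
    (μ.prod (Measure.infinitePi fun _ : ℕ => μ)).map Red2_cons =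
      Measure.infinitePi fun _ : ℕ => μ := by
  apply Measure.eq_infinitePi
  intro s t ht
  classical
  obtain ⟨N, hN⟩ : ∃ N, s ⊆ Finset.range (N + 1) := by
    refine ⟨s.sup id, fun i hi => ?_⟩
    rw [Finset.mem_range]
    exact Nat.lt_succ_of_le (Finset.le_sup (f := id) hi)
  set t' : ℕ → Set X := fun i => if i ∈ s then t i else Set.univ with ht'
  have ht'm : ∀ i, MeasurableSet (t' i) := by
    intro i
    simp only [ht']
    split_ifs
    · exact ht i
    · exact MeasurableSet.univ
  have h1 : ∏ i ∈ s, μ (t i) = ∏ i ∈ Finset.range (N + 1), μ (t' i) := by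
    rw [← Finset.prod_subset hN (fun i _ hi => by simp [ht', hi])]
    exact Finset.prod_congr rfl fun i hi => by simp [ht', hi]
  have h2 : (s : Set ℕ).pi t = (Finset.range (N + 1) : Set ℕ).pi t' := by
    ext x
    simp only [Set.mem_pi, Finset.mem_coe]
    constructor
    · intro h i _
      by_cases hi : i ∈ s
      · simpa [ht', hi] using h i hi
      · simp [ht', hi]
    · intro h i hi
      simpa [ht', hi] using h i (hN hi)
  have hm : MeasurableSet ((Finset.range (N + 1) : Set ℕ).pi t') :=
    MeasurableSet.pi (Finset.countable_toSet _) fun i _ => ht'm i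
  rw [h1, h2, Measure.map_apply Red2_measurable_cons hm]
  have h3 : (Red2_cons : X × (ℕ → X) → ℕ → X) ⁻¹' ((Finset.range (N + 1) : Set ℕ).pi t') =
      (t' 0) ×ˢ ((Finset.range N : Set ℕ).pi fun i => t' (i + 1)) := by
    ext ⟨x, y⟩
    simp only [Set.mem_preimage, Set.mem_pi, Finset.mem_coe, Finset.mem_range, Set.mem_prod]
    constructor
    · intro h
      exact ⟨h 0 (Nat.succ_pos N), fun i hi => h (i + 1) (by omega)⟩
    · rintro ⟨h0, h⟩ (_ | i) hi
      · exact h0
      · exact h i (by omega)
  rw [h3, Measure.prod_prod, Measure.infinitePi_pi _ (fun i _ => ht'm (i + 1)),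
    Finset.prod_range_succ', mul_comm]

theorem Red2_rows_cons (d : ℕ) :
    ((stdGaussian (E d)).prod (rows d)).map Red2_cons = rows d := Red2_map_cons _

/-! ### the backward recursion along a sequence of rows -/

/-- the terminal value as a function of the rows, by recursion on the first row. -/
noncomputable def Red2_val {d n : ℕ} (st : ℕ → Fin n × E d × ℝ → Fin n × Bool)
    (F : ℕ → Fin n → E d → ℝ≥0∞) (s : E d) : ℕ → ℕ → Fin n → (ℕ → E d) → ℝ≥0∞
  | 0, t, v, _ => F t v s
  | m + 1, t, v, x =>
      if (st t (v, x 0, ⟪x 0, s⟫)).2 then F (t + 1) (st t (v, x 0, ⟪x 0, s⟫)).1 s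
      else Red2_val st F s m (t + 1) (st t (v, x 0, ⟪x 0, s⟫)).1 (fun i => x (i + 1))

theorem Red2_measurable_val {d n : ℕ} {st : ℕ → Fin n × E d × ℝ → Fin n × Bool}
    (hst : ∀ t, Measurable (st t)) (F : ℕ → Fin n → E d → ℝ≥0∞) (s : E d) (m t : ℕ) (v : Fin n) :
    Measurable (Red2_val st F s m t v) := by
  induction m generalizing t v with
  | zero => exact measurable_const
  | succ m ih =>
    have h1 : Measurable (fun x : ℕ → E d => st t (v, x 0, ⟪x 0, s⟫)) := by
      apply (hst t).comp
      have h : Continuous (fun x : E d => (x, (⟪x, s⟫ : ℝ))) := by fun_prop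
      exact measurable_const.prodMk (h.measurable.comp (measurable_pi_apply 0))
    have h2 : Measurable (fun x : ℕ → E d => fun i => x (i + 1)) :=
      measurable_pi_lambda _ fun i => measurable_pi_apply _
    refine Measurable.ite (h1.snd (measurableSet_singleton true)) ?_ ?_
    · exact (measurable_of_finite (fun w : Fin n => F (t + 1) w s)).comp h1.fst
    · exact Red_measurable_index h1.fst h2 (ih (t + 1))

theorem Red2_lintegral_val {d n : ℕ} {st : ℕ → Fin n × E d × ℝ → Fin n × Bool}
    (hst : ∀ t, Measurable (st t)) (F : ℕ → Fin n → E d → ℝ≥0∞) (s : E d) (m t : ℕ) (v : Fin n) :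
    ∫⁻ x, Red2_val st F s m t v x ∂(rows d) = G st F m t v s := by
  have hprob : IsProbabilityMeasure (rows d) := by unfold rows; infer_instance
  induction m generalizing t v with
  | zero => simp [Red2_val, G]
  | succ m ih =>
    have hm := Red2_measurable_val hst F s (m + 1) t v
    conv_lhs => rw [← Red2_rows_cons d]
    rw [lintegral_map hm Red2_measurable_cons,
      lintegral_prod (fun p => Red2_val st F s (m + 1) t v (Red2_cons p))
        (hm.comp Red2_measurable_cons).aemeasurable]
    change _ = ∫⁻ x, _ ∂(stdGaussian (E d))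
    refine lintegral_congr fun x => ?_
    by_cases hb : (st t (v, x, ⟪x, s⟫)).2 = true
    · have h1 : ∀ y : ℕ → E d, Red2_val st F s (m + 1) t v (Red2_cons (x, y)) =
          F (t + 1) (st t (v, x, ⟪x, s⟫)).1 s := by
        intro y
        exact if_pos hb
      simp_rw [h1]
      rw [if_pos hb]
      simp
    · have h1 : ∀ y : ℕ → E d, Red2_val st F s (m + 1) t v (Red2_cons (x, y)) =
          Red2_val st F s m (t + 1) (st t (v, x, ⟪x, s⟫)).1 y := by
        intro y
        exact if_neg hb
      simp_rw [h1]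
      rw [if_neg hb]
      exact ih _ _

/-! ### the forward recursion -/

/-- forward run started at time `t` in state `v`. -/
noncomputable def Red2_run {d n : ℕ} (st : ℕ → Fin n × E d × ℝ → Fin n × Bool)
    (s : E d) (t : ℕ) (v : Fin n) (x : ℕ → E d) : ℕ → Fin n × Option ℕ
  | 0 => (v, none)
  | k + 1 =>
    match Red2_run st s t v x k with
    | (w, some τ) => (w, some τ)
    | (w, none) => ((st (t + k) (w, x k, ⟪x k, s⟫)).1,
        if (st (t + k) (w, x k, ⟪x k, s⟫)).2 then some (t + k + 1) else none)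

theorem Red2_run_succ {d n : ℕ} (st : ℕ → Fin n × E d × ℝ → Fin n × Bool)
    (s : E d) (t : ℕ) (v : Fin n) (x : ℕ → E d) (m : ℕ) :
    Red2_run st s t v x (m + 1) =
      if (st t (v, x 0, ⟪x 0, s⟫)).2 then ((st t (v, x 0, ⟪x 0, s⟫)).1, some (t + 1))
      else Red2_run st s (t + 1) (st t (v, x 0, ⟪x 0, s⟫)).1 (fun i => x (i + 1)) m := by
  induction m with
  | zero =>
    simp only [Red2_run, Nat.add_zero]
    split_ifs <;> rfl
  | succ m ih =>
    rw [Red2_run, ih]
    by_cases hb : (st t (v, x 0, ⟪x 0, s⟫)).2 = true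
    · rw [if_pos hb, if_pos hb]
    · rw [if_neg hb, if_neg hb]
      have hk : t + (m + 1) = t + 1 + m := by ring
      rw [hk]
      rfl

theorem Red2_val_eq {d n : ℕ} (st : ℕ → Fin n × E d × ℝ → Fin n × Bool)
    (F : ℕ → Fin n → E d → ℝ≥0∞) (s : E d) (m t : ℕ) (v : Fin n) (x : ℕ → E d) :
    Red2_val st F s m t v x =
      F ((Red2_run st s t v x m).2.getD (t + m)) (Red2_run st s t v x m).1 s := by
  induction m generalizing t v x with
  | zero => simp [Red2_val, Red2_run]
  | succ m ih =>
    rw [Red2_run_succ, Red2_val]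
    by_cases hb : (st t (v, x 0, ⟪x 0, s⟫)).2 = true
    · rw [if_pos hb, if_pos hb]; rfl
    · rw [if_neg hb, if_neg hb, ih]
      have hk : t + (m + 1) = t + 1 + m := by ring
      rw [hk]

theorem Red2_run_eq {d n : ℕ} {Ω : Type} [MeasurableSpace Ω] (A : Learner d Ω n) (ω : Ω)
    (s : Sph d) (x : ℕ → E d) (m : ℕ) :
    A.run ω s x m = Red2_run (fun t p => A.step t (ω, p)) (s : E d) 0 (A.init ω) x m := by
  induction m with
  | zero => rfl
  | succ m ih =>
    rw [Learner.run, Red2_run, ih]
    simp only [Nat.zero_add]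
    rcases Red2_run (fun t p => A.step t (ω, p)) (s : E d) 0 (A.init ω) x m with ⟨w, _ | τ⟩ <;> rfl

theorem Red2_indicator {d n : ℕ} {Ω : Type} [MeasurableSpace Ω] (A : Learner d Ω n) (ε : ℝ)
    (T : ℕ) (ω : Ω) (s : Sph d) (x : ℕ → E d) :
    (if Real.arccos ⟪((A.output T ω s x : Sph d) : E d), (s : E d)⟫ ≤ ε then (1 : ℝ≥0∞) else 0) =
      Red2_val (fun t p => A.step t (ω, p)) (term A ε ω) (s : E d) T 0 (A.init ω) x := by
  rw [Red2_val_eq, ← Red2_run_eq, Nat.zero_add]
  rfl

/-! ### measurability -/

theorem Red2_measurable_run {d n : ℕ} {Ω : Type} [MeasurableSpace Ω] (A : Learner d Ω n)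
    (m : ℕ) (c : Fin n × Option ℕ) :
    MeasurableSet {w : Ω × Sph d × (ℕ → E d) | A.run w.1 w.2.1 w.2.2 m = c} := by
  let _ : MeasurableSpace (Option ℕ) := ⊤
  have : MeasurableSingletonClass (Option ℕ) := ⟨fun _ => trivial⟩
  have : DiscreteMeasurableSpace (Option ℕ) := ⟨fun _ => trivial⟩
  have key : Measurable (fun w : Ω × Sph d × (ℕ → E d) => A.run w.1 w.2.1 w.2.2 m) := by
    induction m with
    | zero =>
      exact (A.measurable_init.comp measurable_fst).prodMk measurable_const
    | succ m ih =>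
      let g : (Fin n × Option ℕ) × (Fin n → Fin n × Bool) → Fin n × Option ℕ := fun p =>
        match p.1 with
        | (w, some τ) => (w, some τ)
        | (w, none) => ((p.2 w).1, if (p.2 w).2 then some (m + 1) else none)
      have hg : Measurable g := by
        have : Countable (Fin n → Fin n × Bool) := inferInstance
        exact measurable_of_countable g
      have h2 : Measurable (fun w : Ω × Sph d × (ℕ → E d) => fun v : Fin n =>
          A.step m (w.1, v, w.2.2 m, ⟪w.2.2 m, (w.2.1 : E d)⟫)) := by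
        refine measurable_pi_lambda _ fun v => (A.measurable_step m).comp ?_
        refine measurable_fst.prodMk (measurable_const.prodMk ?_)
        have hx : Measurable (fun w : Ω × Sph d × (ℕ → E d) => w.2.2 m) :=
          (measurable_pi_apply m).comp (measurable_snd.comp measurable_snd)
        have hs : Measurable (fun w : Ω × Sph d × (ℕ → E d) => (w.2.1 : E d)) :=
          measurable_subtype_coe.comp (measurable_fst.comp measurable_snd)
        exact hx.prodMk (hx.inner hs)
      have h3 : (fun w : Ω × Sph d × (ℕ → E d) => A.run w.1 w.2.1 w.2.2 (m + 1)) =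
          fun w => g (A.run w.1 w.2.1 w.2.2 m, fun v : Fin n =>
            A.step m (w.1, v, w.2.2 m, ⟪w.2.2 m, (w.2.1 : E d)⟫)) := by
        funext w
        rw [Learner.run]
        simp only [g]
        rcases A.run w.1 w.2.1 w.2.2 m with ⟨w', _ | τ⟩ <;> rfl
      rw [h3]
      exact hg.comp (ih.prodMk h2)
  exact key (measurableSet_singleton c)

theorem Red2_measurableSet {d n : ℕ} {Ω : Type} [MeasurableSpace Ω] (A : Learner d Ω n) (T : ℕ)
    (ε : ℝ) :
    MeasurableSet {w : Ω × Sph d × (ℕ → E d) |
      Real.arccos ⟪((A.output T w.1 w.2.1 w.2.2 : Sph d) : E d), (w.2.1 : E d)⟫ ≤ ε} := by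
  have h1 : {w : Ω × Sph d × (ℕ → E d) |
      Real.arccos ⟪((A.output T w.1 w.2.1 w.2.2 : Sph d) : E d), (w.2.1 : E d)⟫ ≤ ε} =
      ⋃ c : Fin n × Option ℕ, ({w | A.run w.1 w.2.1 w.2.2 T = c} ∩
        {w | Real.arccos ⟪((A.out (c.2.getD T) (w.1, c.1) : Sph d) : E d), (w.2.1 : E d)⟫ ≤
          ε}) := by
    ext w
    simp only [Set.mem_ofPred_eq, Set.mem_iUnion, Set.mem_inter_iff, Learner.output]
    constructor
    · intro h
      exact ⟨_, rfl, h⟩
    · rintro ⟨c, h1, h2⟩
      rw [h1]; exact h2
  rw [h1]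
  refine MeasurableSet.iUnion fun c => (Red2_measurable_run A T c).inter ?_
  have hs : Measurable (fun w : Ω × Sph d × (ℕ → E d) => (w.2.1 : E d)) :=
    measurable_subtype_coe.comp (measurable_fst.comp measurable_snd)
  have ho : Measurable (fun w : Ω × Sph d × (ℕ → E d) =>
      ((A.out (c.2.getD T) (w.1, c.1) : Sph d) : E d)) :=
    measurable_subtype_coe.comp ((A.measurable_out _).comp
      (measurable_fst.prodMk measurable_const))
  exact measurableSet_le (Real.measurable_arccos.comp (ho.inner hs)) measurable_const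

/-- the success probability. -/
theorem success_eq {d n : ℕ} (hd : 0 < d) {Ω : Type} [MeasurableSpace Ω] (A : Learner d Ω n)
    (P : Measure Ω) [IsProbabilityMeasure P] (T : ℕ) (ε : ℝ) :
    (P.prod ((unif d).prod (rows d))) {w : Ω × Sph d × (ℕ → E d) |
      Real.arccos ⟪((A.output T w.1 w.2.1 w.2.2 : Sph d) : E d), (w.2.1 : E d)⟫ ≤ ε} =
    ∫⁻ ω, ∫⁻ s : E d, G (fun t p => A.step t (ω, p)) (term A ε ω) T 0 (A.init ω) s
      ∂((unif d).map (Subtype.val : Sph d → E d)) ∂P := by
  have hprob : IsProbabilityMeasure (rows d) := by unfold rows; infer_instance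
  have hunif : IsProbabilityMeasure (unif d) := by
    constructor
    have h0 : (volume : Measure (E d)).toSphere Set.univ ≠ 0 := by
      rw [Measure.toSphere_apply_univ]
      have : volume (ball (0 : E d) 1) ≠ 0 := (measure_ball_pos _ _ one_pos).ne'
      simp [hd.ne', this]
    rw [unif, Measure.smul_apply, smul_eq_mul]
    exact ENNReal.inv_mul_cancel h0 (measure_ne_top _ _)
  have hS := Red2_measurableSet A T ε
  rw [Measure.prod_apply hS]
  refine lintegral_congr fun ω => ?_
  have hS1 := measurable_prodMk_left (x := ω) hS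
  rw [Measure.prod_apply hS1]
  have hemb : MeasurableEmbedding (Subtype.val : Sph d → E d) :=
    MeasurableEmbedding.subtype_coe isClosed_sphere.measurableSet
  rw [hemb.lintegral_map]
  refine lintegral_congr fun s => ?_
  have hS2 := measurable_prodMk_left (x := s) hS1
  have hst : ∀ t, Measurable (fun p : Fin n × E d × ℝ => A.step t (ω, p)) := fun t =>
    (A.measurable_step t).comp measurable_prodMk_left
  rw [← lintegral_indicator_one hS2, ← Red2_lintegral_val hst (term A ε ω) (s : E d) T 0 (A.init ω)]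
  refine lintegral_congr fun x => ?_
  rw [← Red2_indicator]
  by_cases hx : Real.arccos ⟪((A.output T ω s x : Sph d) : E d), (s : E d)⟫ ≤ ε
  · rw [if_pos hx]
    exact Set.indicator_of_mem (s := Prod.mk s ⁻¹' (Prod.mk ω ⁻¹' _)) hx 1
  · rw [if_neg hx]
    exact Set.indicator_of_notMem (s := Prod.mk s ⁻¹' (Prod.mk ω ⁻¹' _)) hx 1

/-- success probability: some seed does at least as well as the average. -/
theorem exists_seed {d n : ℕ} (hd : 0 < d) {Ω : Type} [MeasurableSpace Ω] (A : Learner d Ω n)
    (P : Measure Ω) [IsProbabilityMeasure P] (T : ℕ) (ε : ℝ) (hA : A.Succeeds P T ε) :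
    ∃ ω : Ω, 2 / 3 ≤ ∫⁻ s : E d, G (fun t p => A.step t (ω, p)) (term A ε ω) T 0 (A.init ω) s
      ∂((unif d).map (Subtype.val : Sph d → E d)) := by
  have h := success_eq hd A P T ε
  have hA' : (2 / 3 : ℝ≥0∞) ≤ ∫⁻ ω, ∫⁻ s : E d,
      G (fun t p => A.step t (ω, p)) (term A ε ω) T 0 (A.init ω) s
        ∂((unif d).map (Subtype.val : Sph d → E d)) ∂P := by
    rw [← h]; exact hA
  obtain ⟨ω, hω⟩ := exists_lintegral_le (μ := P) (f := fun ω => ∫⁻ s : E d,
      G (fun t p => A.step t (ω, p)) (term A ε ω) T 0 (A.init ω) s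
        ∂((unif d).map (Subtype.val : Sph d → E d))) (by
    rw [← h]
    have hprob : IsProbabilityMeasure (rows d) := by unfold rows; infer_instance
    have hfin : IsFiniteMeasure (unif d) := by
      unfold unif
      exact Measure.smul_finite _ (by
        rw [ENNReal.inv_ne_top, Measure.toSphere_apply_univ]
        have : volume (ball (0 : E d) 1) ≠ 0 := (measure_ball_pos _ _ one_pos).ne'
        simp [hd.ne', this])
    exact measure_ne_top _ _)
  exact ⟨ω, hA'.trans hω⟩

end P309
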