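import Mathlib
import Vale.Agent.P309.Block
import Vale.Agent.P309.Red2

/-! P309 module Final: iteration and constants. -/

open MeasureTheory ProbabilityTheory Metric Matrix Filter Topology
open scoped ENNReal RealInnerProductSpace

namespace P309

theorem one_le_Kc {N q d L : ℕ} (hN : 0 < N) : 1 ≤ Kc N q d L := by
  unfold Kc
  have h1 : (1:ℝ) ≤ (N : ℝ) ^ ((1 : ℝ) / (q + 1)) :=
    Real.one_le_rpow (by exact_mod_cast hN) (by positivity)
  have h2 : (1:ℝ) ≤ max 1 (c1 q d) := le_max_left _ _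
  have h3 : (1:ℝ) ≤ 16 ^ d * ((L:ℝ) + 2) := by
    have ha : (1:ℝ) ≤ 16 ^ d := one_le_pow₀ (by norm_num)
    have hb : (1:ℝ) ≤ (L:ℝ) + 2 := by
      have : (0:ℝ) ≤ L := Nat.cast_nonneg L
      linarith
    nlinarith
  have h4 : (1:ℝ) ≤ max 1 (c1 q d) * (16 ^ d * ((L:ℝ) + 2)) := by nlinarith
  nlinarith

theorem WBdd.mono {d κ : ℕ} {σ : Measure (E d)} {ε W W' : ℝ} {g : E d → ℝ≥0∞} 
    (h : WBdd σ κ ε W g) (hW : W ≤ W') : WBdd σ κ ε W' g := by
  intro z H hH t ht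
  exact (h z H hH t ht).trans (ENNReal.ofReal_le_ofReal
    (mul_le_mul_of_nonneg_right hW (Real.sqrt_nonneg _)))

theorem G_WBdd {d q L n : ℕ} (hq : 0 < q) (hd : 8 * q ≤ d) {σ : Measure (E d)}
    (hσ : SphLike σ) (hn : 0 < n)
    {st : ℕ → Fin n × E d × ℝ → Fin n × Bool} (hst : ∀ t, Measurable (st t))
    {F : ℕ → Fin n → E d → ℝ≥0∞} (hF : ∀ t v, Measurable (F t v)) (hF1 : ∀ t v s, F t v s ≤ 1)
    {W : ℝ} (hW : ((1 : ℝ) / 2 ^ L) ^ (d - 2 * q - 1) ≤ W)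
    (hFW : ∀ t v, WBdd σ (2 * q) (1 / 2 ^ L) W (F t v)) (N m : ℕ) (hm : m ≤ N * q) (t : ℕ)
    (v : Fin n) :
    WBdd σ (2 * q) (1 / 2 ^ L) (Kc ((q + 2) * n) q d L ^ N * W) (G st F m t v) := by
  have hK : 1 ≤ Kc ((q + 2) * n) q d L := one_le_Kc (by positivity)
  have hW0 : 0 ≤ W := le_trans (by positivity) hW
  induction N generalizing m t v with
  | zero =>
    have : m = 0 := by simpa using hm
    subst this
    have h := hFW t v
    simpa [G] using h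
  | succ N ih =>
    obtain ⟨c, hc, hG⟩ := G_block hst hF q m t v
    have hGf : G st F m t v = fun s => ∫⁻ X, labF st F q m t (c X (fun l => ⟪X l, s⟫)) s
        ∂(blk q d) := funext hG
    have hKN : 1 ≤ Kc ((q + 2) * n) q d L ^ N := one_le_pow₀ hK
    have hW' : W ≤ Kc ((q + 2) * n) q d L ^ N * W := by nlinarith
    have hcard : Fintype.card (Option (Fin (q + 1)) × Fin n) = (q + 2) * n := by
      simp [Fintype.card_prod, Fintype.card_option]
    have hblock := block_lemma hq hd (hW.trans hW') hσ (ι := Option (Fin (q + 1)) × Fin n)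
      (g := labF st F q m t) ?_ ?_ ?_ hc
    · rw [hGf, pow_succ, mul_comm (_ ^ N) _, mul_assoc]
      rw [hcard] at hblock
      exact hblock
    · rintro ⟨_ | i, v'⟩
      · exact measurable_G hst hF _ _ _
      · exact hF _ _
    · rintro ⟨_ | i, v'⟩ s
      · exact G_le_one hF1 _ _ _ _
      · exact hF1 _ _ _
    · rintro ⟨_ | i, v'⟩
      · apply ih
        have : (N + 1) * q = N * q + q := by ring
        omega
      · exact (hFW _ _).mono hW'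

theorem vb_two_mul {h : ℕ} (hh : 0 < h) : vb (2 * h) = Real.pi ^ h / (h.factorial : ℝ) := by
  unfold vb
  have : Nontrivial (E (2 * h)) := by
    apply Module.nontrivial_of_finrank_pos (R := ℝ)
    simp [hh]
  rw [InnerProductSpace.volume_closedBall_of_dim_even (k := h) (by simp)]
  simp
  positivity

theorem c1_le {h d : ℕ} (hh : 0 < h) : c1 (2 * h) d ≤ 10 ^ (2 * h) * √2 ^ d := by
  unfold c1
  rw [vb_two_mul hh]
  apply mul_le_mul_of_nonneg_right _ (by positivity)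
  have h1 : (2 * √((2 * h : ℕ) : ℝ)) ^ (2 * h) = (8 * (h:ℝ)) ^ h := by
    rw [pow_mul, mul_pow, Real.sq_sqrt (by positivity)]
    push_cast
    ring
  rw [h1]
  have h2 : (h : ℝ) ^ h / (h.factorial : ℝ) ≤ Real.exp h :=
    Real.pow_div_factorial_le_exp (h:ℝ) (by positivity) h
  have h3 : Real.pi ^ h / (h.factorial : ℝ) * (8 * (h:ℝ)) ^ h
      = (8 * Real.pi) ^ h * ((h : ℝ) ^ h / (h.factorial : ℝ)) := by
    rw [mul_pow, mul_pow]; ring
  rw [h3]
  have h4 : Real.exp (h:ℝ) = (Real.exp 1) ^ h := by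
    rw [← Real.exp_nat_mul]; simp
  calc (8 * Real.pi) ^ h * ((h : ℝ) ^ h / (h.factorial : ℝ)) ≤ (8 * Real.pi) ^ h * (Real.exp 1) ^ h := by
        rw [← h4]; exact mul_le_mul_of_nonneg_left h2 (by positivity)
    _ = (8 * Real.pi * Real.exp 1) ^ h := by rw [← mul_pow]
    _ ≤ (100:ℝ) ^ h := by
        apply pow_le_pow_left₀ (by positivity)
        have := Real.pi_lt_d2
        have := Real.exp_one_lt_d9
        have hp := Real.pi_pos
        nlinarith [Real.exp_pos 1]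
    _ = 10 ^ (2 * h) := by rw [pow_mul]; norm_num

/-- numerical facts -/
theorem Kc_le {A : ℝ} (hA : 0 < A) {h d L n : ℕ} (hh : 0 < h) (hhd : 16 * h ≤ d)
    (hdh : d ≤ 24 * h) (hn0 : 0 < n) (hn : (n : ℝ) ≤ (2 : ℝ) ^ (A * (d : ℝ) ^ 2))
    (hL : (L : ℝ) + 2 ≤ 2 ^ d) :
    Kc ((2 * h + 2) * n) (2 * h) d L ≤ (2 : ℝ) ^ ((12 * A + 8) * (d : ℝ)) := by
  have hd1 : (1 : ℝ) ≤ d := by
    have : 1 ≤ d := by omega
    exact_mod_cast this
  have h2 : (0:ℝ) < 2 := by norm_num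
  have hh' : (1:ℝ) ≤ h := by exact_mod_cast hh
  have hdh' : (d:ℝ) ≤ 24 * h := by exact_mod_cast hdh
  have hhd' : 16 * (h:ℝ) ≤ d := by exact_mod_cast hhd
  unfold Kc
  -- first factor
  have f1 : (((2 * h + 2) * n : ℕ) : ℝ) ≤ (2:ℝ) ^ ((2 * h + 1 : ℝ) + A * (d : ℝ) ^ 2) := by
    rw [Real.rpow_add h2]
    push_cast
    have : (2 * (h:ℝ) + 2) ≤ (2:ℝ) ^ (2 * (h:ℝ) + 1) := by
      have h3 : (2:ℝ) ^ (2 * (h:ℝ) + 1) = ((2 ^ (2 * h + 1) : ℕ) : ℝ) := by
        rw [Nat.cast_pow, ← Real.rpow_natCast]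
        push_cast
        rfl
      rw [h3]
      have h4 : 2 * h + 1 < 2 ^ (2 * h + 1) := Nat.lt_two_pow_self
      have h5 : 2 * h + 2 ≤ 2 ^ (2 * h + 1) := h4
      exact_mod_cast h5
    exact mul_le_mul this hn (by positivity) (by positivity)
  have f2 : (((2 * h + 2) * n : ℕ) : ℝ) ^ ((1:ℝ) / (((2 * h : ℕ) : ℝ) + 1)) ≤
      (2:ℝ) ^ (1 + 12 * A * (d:ℝ)) := by
    calc (((2 * h + 2) * n : ℕ) : ℝ) ^ ((1:ℝ) / (((2 * h : ℕ) : ℝ) + 1))
        ≤ ((2:ℝ) ^ ((2 * h + 1 : ℝ) + A * (d : ℝ) ^ 2)) ^ ((1:ℝ) / (((2 * h : ℕ) : ℝ) + 1)) :=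
          Real.rpow_le_rpow (by positivity) f1 (by positivity)
      _ = (2:ℝ) ^ (((2 * h + 1 : ℝ) + A * (d : ℝ) ^ 2) * ((1:ℝ) / (((2 * h : ℕ) : ℝ) + 1))) := by
          rw [← Real.rpow_mul h2.le]
      _ ≤ (2:ℝ) ^ (1 + 12 * A * (d:ℝ)) := by
          apply Real.rpow_le_rpow_of_exponent_le (by norm_num)
          push_cast
          rw [mul_one_div, div_le_iff₀ (by positivity)]
          have : A * (d:ℝ) ^ 2 ≤ 12 * A * d * (2 * h + 1) := by
            have : (d:ℝ) ≤ 12 * (2 * h + 1) := by linarith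
            calc A * (d:ℝ) ^ 2 = A * d * d := by ring
              _ ≤ A * d * (12 * (2 * h + 1)) := by gcongr
              _ = 12 * A * d * (2 * h + 1) := by ring
          nlinarith
  have f3 : max 1 (c1 (2 * h) d) ≤ (2:ℝ) ^ (2 * (d:ℝ)) := by
    apply max_le
    · exact Real.one_le_rpow (by norm_num) (by positivity)
    · refine (c1_le hh).trans ?_
      have g1 : (10:ℝ) ^ (2 * h) ≤ (2:ℝ) ^ d := by
        calc (10:ℝ) ^ (2 * h) ≤ (16:ℝ) ^ (2 * h) := pow_le_pow_left₀ (by norm_num) (by norm_num) _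
          _ = (2:ℝ) ^ (8 * h) := by
            rw [show (16:ℝ) = 2 ^ 4 by norm_num, ← pow_mul]; congr 1; ring
          _ ≤ (2:ℝ) ^ d := pow_le_pow_right₀ (by norm_num) (by omega)
      have g2 : √(2:ℝ) ^ d ≤ 2 ^ d := by
        apply pow_le_pow_left₀ (by positivity)
        rw [Real.sqrt_le_left (by norm_num)]
        norm_num
      calc (10:ℝ) ^ (2 * h) * √2 ^ d ≤ 2 ^ d * 2 ^ d := by gcongr
        _ = (2:ℝ) ^ (2 * (d:ℝ)) := by
          rw [← pow_add, ← Real.rpow_natCast]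
          congr 1
          push_cast
          ring
  have f4 : (16:ℝ) ^ d = (2:ℝ) ^ (4 * (d:ℝ)) := by
    rw [show (16:ℝ) = 2 ^ 4 by norm_num, ← pow_mul, ← Real.rpow_natCast]
    push_cast
    rfl
  have f5 : (L:ℝ) + 2 ≤ (2:ℝ) ^ (d:ℝ) := by rw [Real.rpow_natCast]; exact hL
  have hL0 : (0:ℝ) ≤ (L:ℝ) + 2 := by positivity
  calc (((2 * h + 2) * n : ℕ) : ℝ) ^ ((1:ℝ) / (((2 * h : ℕ) : ℝ) + 1)) *
        (max 1 (c1 (2 * h) d) * (16 ^ d * ((L:ℝ) + 2)))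
      ≤ (2:ℝ) ^ (1 + 12 * A * (d:ℝ)) * ((2:ℝ) ^ (2 * (d:ℝ)) * ((2:ℝ) ^ (4 * (d:ℝ)) *
          (2:ℝ) ^ (d:ℝ))) := by
        rw [f4]
        have hm : (0:ℝ) ≤ max 1 (c1 (2 * h) d) := le_trans zero_le_one (le_max_left _ _)
        exact mul_le_mul f2 (mul_le_mul f3 (mul_le_mul_of_nonneg_left f5 (by positivity))
          (by positivity) (by positivity)) (by positivity) (by positivity)
    _ = (2:ℝ) ^ (1 + 12 * A * (d:ℝ) + (2 * d + (4 * d + d))) := by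
        rw [← Real.rpow_add h2, ← Real.rpow_add h2, ← Real.rpow_add h2]
    _ ≤ (2 : ℝ) ^ ((12 * A + 8) * (d : ℝ)) := by
        apply Real.rpow_le_rpow_of_exponent_le (by norm_num)
        nlinarith

/-- numerical conclusion in the main case. -/
theorem numeric1 {A : ℝ} (hA : 0 < A) {h d L N T : ℕ} (hh : 0 < h) (hhd : 16 * h ≤ d)
    (hdh : d ≤ 24 * h) {K : ℝ} (hK0 : 0 ≤ K) (hK : K ≤ (2 : ℝ) ^ ((12 * A + 8) * (d : ℝ)))
    (hLC : 8 * (12 * A + 8) ≤ L)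
    (hN : (N : ℝ) ≤ T / (2 * h) + 1)
    (hmain : (2 / 3 : ℝ) ≤ K ^ N * (2 ^ d * (1 / 2 ^ L) ^ (d - 2 * (2 * h) - 1)) * √(2 ^ d)) :
    (d : ℝ) * L / (96 * (12 * A + 8)) ≤ T := by
  set C : ℝ := 12 * A + 8 with hC
  have hC8 : 8 ≤ C := by linarith
  have h2 : (0:ℝ) < 2 := by norm_num
  have hd16 : 16 ≤ d := by omega
  have hd16' : (16:ℝ) ≤ d := by exact_mod_cast hd16
  have hhd' : 16 * (h:ℝ) ≤ d := by exact_mod_cast hhd
  have hdh' : (d:ℝ) ≤ 24 * h := by exact_mod_cast hdh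
  have hh' : (1:ℝ) ≤ h := by exact_mod_cast hh
  have e1 : K ^ N ≤ (2:ℝ) ^ (C * d * N) := by
    calc K ^ N ≤ ((2 : ℝ) ^ (C * (d : ℝ))) ^ N := pow_le_pow_left₀ hK0 hK N
      _ = (2:ℝ) ^ (C * d * N) := by
        rw [← Real.rpow_natCast, ← Real.rpow_mul h2.le]
  have e2 : √((2:ℝ) ^ d) ≤ 2 ^ d := by
    rw [Real.sqrt_le_left (by positivity)]
    have : (1:ℝ) ≤ 2 ^ d := one_le_pow₀ (by norm_num)
    nlinarith
  set m : ℕ := d - 2 * (2 * h) - 1 with hm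
  have hm' : (d:ℝ) / 2 ≤ m := by
    have : (d:ℝ) ≤ 2 * m := by
      have : d ≤ 2 * m := by omega
      exact_mod_cast this
    linarith
  have e3 : ((1:ℝ) / 2 ^ L) ^ m = (2:ℝ) ^ (-((L:ℝ) * m)) := by
    rw [Real.rpow_neg h2.le, one_div, inv_pow, ← pow_mul, ← Real.rpow_natCast]
    push_cast
    rfl
  have e4 : (2:ℝ) ^ (-(1:ℝ)) ≤ (2:ℝ) ^ (C * d * N + 2 * d - L * m) := by
    calc (2:ℝ) ^ (-(1:ℝ)) = 1 / 2 := by rw [Real.rpow_neg h2.le, Real.rpow_one]; norm_num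
      _ ≤ 2 / 3 := by norm_num
      _ ≤ K ^ N * (2 ^ d * (1 / 2 ^ L) ^ m) * √(2 ^ d) := hmain
      _ ≤ (2:ℝ) ^ (C * d * N) * (2 ^ d * (2:ℝ) ^ (-((L:ℝ) * m))) * 2 ^ d := by
        rw [e3]
        gcongr
      _ = (2:ℝ) ^ (C * d * N + 2 * d - L * m) := by
        have : (2:ℝ) ^ d = (2:ℝ) ^ (d:ℝ) := (Real.rpow_natCast 2 d).symm
        rw [this, ← Real.rpow_add h2, ← Real.rpow_add h2, ← Real.rpow_add h2]
        congr 1
        ring
  have e5 : -(1:ℝ) ≤ C * d * N + 2 * d - L * m :=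
    (Real.rpow_le_rpow_left_iff (by norm_num : (1:ℝ) < 2)).1 e4
  have hL0 : (0:ℝ) ≤ L := Nat.cast_nonneg L
  have e6 : (L:ℝ) * (d / 2) ≤ C * d * N + 3 * d := by
    have : (L:ℝ) * (d / 2) ≤ L * m := by gcongr
    linarith
  have e7 : (L:ℝ) / 2 ≤ C * N + 3 := by
    have hdpos : (0:ℝ) < d := by linarith
    have : (d:ℝ) * ((L:ℝ) / 2) ≤ d * (C * N + 3) := by nlinarith
    exact le_of_mul_le_mul_left this hdpos
  have e8 : (L:ℝ) / 4 ≤ C * N := by linarith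
  have e9 : (L:ℝ) / 4 ≤ C * (T / (2 * h) + 1) := e8.trans (by gcongr)
  have e10 : (L:ℝ) / 8 ≤ C * (T / (2 * h)) := by linarith
  have e11 : (L:ℝ) / 8 * (2 * h) ≤ C * T := by
    have : C * ((T:ℝ) / (2 * h)) * (2 * h) = C * T := by field_simp
    rw [← this]
    gcongr
  rw [div_le_iff₀ (by positivity)]
  nlinarith

/-- numerical conclusion when `L` is huge. -/
theorem numeric2 {A x : ℝ} (hA : 0 < A) {d n T : ℕ} (hd : 4 ≤ d)
    (hn : (n : ℝ) ≤ (2 : ℝ) ^ (A * (d : ℝ) ^ 2)) (hx : (4 * A + 8) * d ≤ x)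
    (hmain : (2 / 3 : ℝ) ≤ (T + 1) * n * (2 ^ d * (Real.exp (-x)) ^ (d - 1))) :
    (d : ℝ) * x / 2 ≤ T := by
  have hd' : (4:ℝ) ≤ d := by exact_mod_cast hd
  have hT0 : (0:ℝ) ≤ T := Nat.cast_nonneg T
  have h2e : (2:ℝ) ≤ Real.exp 1 := by
    have := Real.exp_one_gt_d9; linarith
  have e1 : (n:ℝ) ≤ Real.exp (A * (d : ℝ) ^ 2) := by
    refine hn.trans ?_
    calc (2 : ℝ) ^ (A * (d : ℝ) ^ 2) ≤ (Real.exp 1) ^ (A * (d : ℝ) ^ 2) :=
          Real.rpow_le_rpow (by norm_num) h2e (by positivity)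
      _ = Real.exp (A * (d : ℝ) ^ 2) := by rw [Real.exp_one_rpow]
  have e2 : (2:ℝ) ^ d ≤ Real.exp d := by
    calc (2:ℝ) ^ d ≤ (Real.exp 1) ^ d := pow_le_pow_left₀ (by norm_num) h2e d
      _ = Real.exp d := by rw [← Real.exp_nat_mul]; simp
  have hc : ((d - 1 : ℕ) : ℝ) = d - 1 := by
    rw [Nat.cast_sub (by omega)]; simp
  have e3 : (Real.exp (-x)) ^ (d - 1) = Real.exp (-(x * (d - 1))) := by
    rw [← Real.exp_nat_mul, hc]; ring_nf
  have e4 : (2 / 3 : ℝ) ≤ (T + 1) * Real.exp (A * (d : ℝ) ^ 2 + d - x * (d - 1)) := by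
    calc (2 / 3 : ℝ) ≤ (T + 1) * n * (2 ^ d * (Real.exp (-x)) ^ (d - 1)) := hmain
      _ ≤ (T + 1) * Real.exp (A * (d : ℝ) ^ 2) * (Real.exp d * Real.exp (-(x * (d - 1)))) := by
        rw [e3]; gcongr
      _ = (T + 1) * Real.exp (A * (d : ℝ) ^ 2 + d - x * (d - 1)) := by
        rw [mul_assoc, ← Real.exp_add, ← Real.exp_add]; ring_nf
  have hx0 : 0 ≤ x := le_trans (by positivity) hx
  have e5 : A * (d : ℝ) ^ 2 + d - x * (d - 1) ≤ -(d * x / 2 + 1) := by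
    have h1 : x * (d - 1) ≥ x * (3 / 4 * d) := by
      apply mul_le_mul_of_nonneg_left _ hx0; linarith
    have h2 : x * d ≥ (4 * A + 8) * d * d := by
      apply mul_le_mul_of_nonneg_right hx; linarith
    nlinarith
  have e6 : (2 / 3 : ℝ) ≤ (T + 1) * Real.exp (-(d * x / 2 + 1)) :=
    e4.trans (by gcongr)
  have e7 : (2 / 3 : ℝ) * Real.exp (d * x / 2 + 1) ≤ T + 1 := by
    rw [Real.exp_neg] at e6
    have hpos := Real.exp_pos (d * x / 2 + 1)
    have := mul_le_mul_of_nonneg_right e6 hpos.le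
    rw [mul_assoc, inv_mul_cancel₀ hpos.ne', mul_one] at this
    exact this
  have e8 : Real.exp (d * x / 2 + 1) ≥ 2 * (d * x / 2 + 1) := by
    rw [Real.exp_add]
    have h1 : Real.exp (d * x / 2) ≥ d * x / 2 + 1 := Real.add_one_le_exp _
    have hpos : 0 ≤ d * x / 2 + 1 := by positivity
    nlinarith
  have hdx : 0 ≤ d * x := by positivity
  nlinarith

theorem measurable_term {d n : ℕ} {Ω : Type} [MeasurableSpace Ω] (A : Learner d Ω n) (ε : ℝ)
    (ω : Ω) (τ : ℕ) (v : Fin n) : Measurable (term A ε ω τ v) := by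
  unfold term
  refine Measurable.ite ?_ measurable_const measurable_const
  exact measurableSet_le (Real.measurable_arccos.comp (by fun_prop)) measurable_const

theorem term_le_one {d n : ℕ} {Ω : Type} [MeasurableSpace Ω] (A : Learner d Ω n) (ε : ℝ)
    (ω : Ω) (τ : ℕ) (v : Fin n) (s : E d) : term A ε ω τ v s ≤ 1 := by
  unfold term; split_ifs <;> simp

theorem lintegral_term_le {d n : ℕ} (hd : 0 < d) {Ω : Type} [MeasurableSpace Ω]
    (A : Learner d Ω n) {ε ε' : ℝ} (hε' : 0 < ε') (hεε : ε ≤ ε') (hε1 : ε' ≤ 1)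
    (ω : Ω) (τ : ℕ) (v : Fin n) {σ : Measure (E d)} (hσ : SphLike σ) :
    ∫⁻ s, term A ε ω τ v s ∂σ ≤ ENNReal.ofReal (2 ^ d * ε' ^ (d - 1)) := by
  set o : E d := ((A.out τ (ω, v) : Sph d) : E d) with ho
  have hno : ‖o‖ = 1 := by
    simp [ho]
  refine le_trans ?_ (cap_le hd hσ o hε' hε1)
  have hmeas : MeasurableSet {s : E d | ‖s - o‖ ≤ ε'} :=
    measurableSet_le (by fun_prop) measurable_const
  rw [← lintegral_indicator_one hmeas]
  apply lintegral_mono_ae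
  filter_upwards [hσ.norm_one] with s hs
  unfold term
  split_ifs with h
  · have : ‖s - o‖ ≤ ε' := (norm_sub_le_of_arccos hno hs h).trans hεε
    have hmem : s ∈ {s : E d | ‖s - o‖ ≤ ε'} := this
    simp [Set.indicator_of_mem hmem]
  · exact zero_le

theorem key1 {d q L n : ℕ} (hq : 0 < q) (hd : 8 * q ≤ d) {σ : Measure (E d)}
    (hσ : SphLike σ) (hn : 0 < n) {Ω : Type} [MeasurableSpace Ω] (A : Learner d Ω n) {ε : ℝ}
    (hε : ε ≤ 1 / 2 ^ L) (ω : Ω) {N T : ℕ} (hT : T ≤ N * q) (v : Fin n)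
    (h : 2 / 3 ≤ ∫⁻ s : E d, G (fun t p => A.step t (ω, p)) (term A ε ω) T 0 v s ∂σ) :
    (2 / 3 : ℝ) ≤ Kc ((q + 2) * n) q d L ^ N * (2 ^ d * (1 / 2 ^ L) ^ (d - 2 * q - 1)) *
      √(2 ^ d) := by
  have hd0 : 0 < d := by omega
  set η : ℝ := 1 / 2 ^ L with hη
  have hη0 : 0 < η := by positivity
  have hη1 : η ≤ 1 := by
    rw [hη, div_le_one (by positivity)]
    exact one_le_pow₀ (by norm_num)
  have hst : ∀ t, Measurable (fun p : Fin n × E d × ℝ => A.step t (ω, p)) := fun t =>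
    (A.measurable_step t).comp (measurable_const.prodMk measurable_id)
  set W : ℝ := 2 ^ d * η ^ (d - 2 * q - 1) with hW
  have hWge : η ^ (d - 2 * q - 1) ≤ W := by
    rw [hW]
    exact le_mul_of_one_le_left (by positivity) (one_le_pow₀ (by norm_num))
  have hFW : ∀ t v, WBdd σ (2 * q) η W (term A ε ω t v) := by
    intro τ v z H hH t ht
    refine le_trans (setLIntegral_le_lintegral _ _) ?_
    refine (lintegral_term_le hd0 A hη0 hε hη1 ω τ v hσ).trans ?_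
    apply ENNReal.ofReal_le_ofReal
    have h1 : η ^ (2 * (2 * q)) ≤ size2 (2 * q) H t :=
      pow_le_size2 (by omega) hη0 hH ht
    have h2 : η ^ (2 * q) ≤ √(size2 (2 * q) H t) := by
      apply Real.le_sqrt_of_sq_le
      rw [← pow_mul, mul_comm (2 * q) 2]
      exact h1
    have h3 : η ^ (d - 1) = η ^ (d - 2 * q - 1) * η ^ (2 * q) := by
      rw [← pow_add]; congr 1; omega
    rw [h3, hW, mul_assoc]
    gcongr
  have hG := G_WBdd (L := L) hq hd hσ hn hst (measurable_term A ε ω) (term_le_one A ε ω)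
    hWge hFW N T hT 0 v
  have hadm : Adm η (1 : Matrix (Fin d) (Fin d) ℝ) := by
    refine ⟨Matrix.PosDef.one, ?_⟩
    have h1 : 1 ≤ η⁻¹ ^ 2 := by
      apply one_le_pow₀
      exact (one_le_inv₀ hη0).2 hη1
    have h2 : (η⁻¹ ^ 2 • (1 : Matrix (Fin d) (Fin d) ℝ) - 1) =
        (η⁻¹ ^ 2 - 1) • (1 : Matrix (Fin d) (Fin d) ℝ) := by
      rw [sub_smul, one_smul]
    rw [h2]
    exact Matrix.PosSemidef.one.smul (by linarith)
  have hfin := hG 0 1 hadm 1 one_pos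
  rw [size2_one, ell_one_eq] at hfin
  have hfull : ∫⁻ s in closedBall 0 1, G (fun t p => A.step t (ω, p)) (term A ε ω) T 0 v s ∂σ
      = ∫⁻ s, G (fun t p => A.step t (ω, p)) (term A ε ω) T 0 v s ∂σ := by
    rw [Measure.restrict_eq_self_of_ae_mem]
    filter_upwards [hσ.norm_one] with s hs
    simp [hs]
  rw [hfull] at hfin
  have h3 := h.trans hfin
  have h4 : (2 / 3 : ℝ≥0∞) = ENNReal.ofReal (2 / 3) := by
    rw [ENNReal.ofReal_div_of_pos (by norm_num)]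
    norm_num
  rw [h4] at h3
  have hK : 0 ≤ Kc ((q + 2) * n) q d L ^ N * W * √(2 ^ d) := by
    have := one_le_Kc (N := (q + 2) * n) (q := q) (d := d) (L := L) (by positivity)
    positivity
  exact (ENNReal.ofReal_le_ofReal_iff hK).1 h3

theorem key2 {d n : ℕ} (hd : 0 < d) {σ : Measure (E d)}
    (hσ : SphLike σ) {Ω : Type} [MeasurableSpace Ω] (A : Learner d Ω n) {ε : ℝ}
    (hε0 : 0 < ε) (hε1 : ε ≤ 1) (ω : Ω) {T : ℕ} (v : Fin n)
    (h : 2 / 3 ≤ ∫⁻ s : E d, G (fun t p => A.step t (ω, p)) (term A ε ω) T 0 v s ∂σ) :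
    (2 / 3 : ℝ) ≤ (T + 1) * n * (2 ^ d * ε ^ (d - 1)) := by
  have h1 : ∫⁻ s : E d, G (fun t p => A.step t (ω, p)) (term A ε ω) T 0 v s ∂σ ≤
      ENNReal.ofReal ((T + 1) * n * (2 ^ d * ε ^ (d - 1))) := by
    calc ∫⁻ s : E d, G (fun t p => A.step t (ω, p)) (term A ε ω) T 0 v s ∂σ
        ≤ ∫⁻ s : E d, ∑ τ ∈ Finset.range (T + 1), ∑ v', term A ε ω (0 + τ) v' s ∂σ :=
          lintegral_mono fun s => G_le_sum T 0 v s
      _ = ∑ τ ∈ Finset.range (T + 1), ∑ v', ∫⁻ s : E d, term A ε ω (0 + τ) v' s ∂σ := by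
          rw [lintegral_finsetSum _ (fun τ _ => Finset.measurable_sum _
            (fun v' _ => measurable_term A ε ω _ v'))]
          refine Finset.sum_congr rfl fun τ _ => ?_
          rw [lintegral_finsetSum _ (fun v' _ => measurable_term A ε ω _ v')]
      _ ≤ ∑ τ ∈ Finset.range (T + 1), ∑ v' : Fin n, ENNReal.ofReal (2 ^ d * ε ^ (d - 1)) :=
          Finset.sum_le_sum fun τ _ => Finset.sum_le_sum fun v' _ =>
            lintegral_term_le hd A hε0 le_rfl hε1 ω _ v' hσ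
      _ = ENNReal.ofReal ((T + 1) * n * (2 ^ d * ε ^ (d - 1))) := by
          have e1 : ENNReal.ofReal (((T:ℝ) + 1) * n * (2 ^ d * ε ^ (d - 1))) =
              ((T + 1 : ℕ) : ℝ≥0∞) * ((n : ℕ) : ℝ≥0∞) * ENNReal.ofReal (2 ^ d * ε ^ (d - 1)) := by
            have e2 : ((T:ℝ) + 1) = ((T + 1 : ℕ) : ℝ) := by push_cast; ring
            rw [e2, ENNReal.ofReal_mul (by positivity), ENNReal.ofReal_mul (by positivity),
              ENNReal.ofReal_natCast, ENNReal.ofReal_natCast]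
          rw [e1]
          simp only [Finset.sum_const, Finset.card_range, Finset.card_univ, Fintype.card_fin,
            nsmul_eq_mul]
          rw [mul_assoc]
  have h3 := h.trans h1
  have h4 : (2 / 3 : ℝ≥0∞) = ENNReal.ofReal (2 / 3) := by
    rw [ENNReal.ofReal_div_of_pos (by norm_num)]
    norm_num
  rw [h4] at h3
  exact (ENNReal.ofReal_le_ofReal_iff (by positivity)).1 h3

theorem exists_d1 (A : ℝ) (hA : 0 < A) : ∃ d₁ : ℕ, ∀ d : ℕ, d₁ ≤ d →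
    (8 * A + 18) * (d : ℝ) + 2 ≤ 2 ^ d := by
  have h := tendsto_pow_const_div_const_pow_of_one_lt 1 (r := (2:ℝ)) (by norm_num)
  have hpos : 0 < 1 / (8 * A + 20) := by positivity
  obtain ⟨d₁, hd₁⟩ := ((h.eventually (gt_mem_nhds hpos)).and (eventually_ge_atTop 1)).exists_forall_of_atTop
  refine ⟨d₁, fun d hd => ?_⟩
  obtain ⟨h1, h2⟩ := hd₁ d hd
  have h2' : (1:ℝ) ≤ d := by exact_mod_cast h2
  rw [pow_one, div_lt_div_iff₀ (by positivity) (by positivity)] at h1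
  nlinarith

end P309
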