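import Mathlib
import Vale.Agent.P309.Red

/-! P309: definitions for the matching upper bound (quantized Kaczmarz iteration). -/

open MeasureTheory ProbabilityTheory Metric Matrix Filter Topology
open scoped ENNReal RealInnerProductSpace

namespace P309

/-- Kaczmarz update. -/
noncomputable def kz {d : ℕ} (z x : E d) (y : ℝ) : E d := z + ((y - ⟪x, z⟫) / ‖x‖ ^ 2) • x

/-- step of the quantized Kaczmarz learner. -/
noncomputable def kzStep {d n : ℕ} (enc : E d → Fin n) (dec : Fin n → E d) :
    ℕ → Fin n × E d × ℝ → Fin n × Bool :=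
  fun _ p => (enc (kz (dec p.1) p.2.1 p.2.2), false)

/-- squared error as terminal function. -/
noncomputable def sqErr {d n : ℕ} (dec : Fin n → E d) : ℕ → Fin n → E d → ℝ≥0∞ :=
  fun _ v s => ENNReal.ofReal (‖dec v - s‖ ^ 2)

end P309
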