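import Mathlib
import Vale.Agent.P309.UDefs

/-! P309 module U1: second moment of the Kaczmarz step. -/

open MeasureTheory ProbabilityTheory Metric Matrix Filter Topology
open scoped ENNReal RealInnerProductSpace

namespace P309

/-- the standard Gaussian has no mass at the origin -/
theorem U1_zero {d : ℕ} (hd : 0 < d) : stdGaussian (E d) ({0} : Set (E d)) = 0 := by
  unfold E
  rw [← map_pi_eq_stdGaussian, Measure.map_apply (by fun_prop) (measurableSet_singleton _)]
  have h : (WithLp.toLp 2) ⁻¹' ({0} : Set (EuclideanSpace ℝ (Fin d))) =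
      ({0} : Set (Fin d → ℝ)) := by
    ext x
    simp
  rw [h, Measure.pi_singleton]
  have : NullSingletonClass (gaussianReal 0 1) := nullSingletonClass_gaussianReal (by simp)
  exact Finset.prod_eq_zero (Finset.mem_univ (⟨0, hd⟩ : Fin d)) (measure_singleton _)

/-- the quotient -/
noncomputable def U1q {d : ℕ} (u x : E d) : ℝ := ⟪x, u⟫ ^ 2 / ‖x‖ ^ 2

theorem U1q_nonneg {d : ℕ} (u x : E d) : 0 ≤ U1q u x := by
  unfold U1q; positivity

theorem U1q_le {d : ℕ} (u x : E d) : U1q u x ≤ ‖u‖ ^ 2 := by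
  unfold U1q
  rcases eq_or_ne x 0 with rfl | hx
  · simp
  · have hx' : 0 < ‖x‖ ^ 2 := by positivity
    rw [div_le_iff₀ hx', ← mul_pow]
    have := abs_real_inner_le_norm x u
    rw [← sq_abs]
    rw [mul_comm ‖u‖]
    gcongr

theorem U1q_meas {d : ℕ} (u : E d) : Measurable (U1q u) := by
  unfold U1q
  fun_prop

theorem U1q_int {d : ℕ} (u : E d) : Integrable (U1q u) (stdGaussian (E d)) := by
  refine Integrable.of_bound (U1q_meas u).aestronglyMeasurable (‖u‖ ^ 2) ?_
  refine Eventually.of_forall fun x => ?_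
  rw [Real.norm_of_nonneg (U1q_nonneg u x)]
  exact U1q_le u x

theorem U1q_congr {d : ℕ} (u v : E d) (h : ‖u‖ = ‖v‖) :
    ∫ x, U1q u x ∂(stdGaussian (E d)) = ∫ x, U1q v x ∂(stdGaussian (E d)) := by
  set f : E d ≃ₗᵢ[ℝ] E d := (ℝ ∙ (u - v))ᗮ.reflection with hf
  have hfu : f u = v := Submodule.reflection_sub h
  have hm : (stdGaussian (E d)).map f = stdGaussian (E d) := stdGaussian_map f
  conv_rhs => rw [← hm]
  rw [integral_map (by fun_prop) (U1q_meas v).aestronglyMeasurable]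
  refine integral_congr_ae (Eventually.of_forall fun x => ?_)
  simp only [U1q]
  rw [← hfu, f.inner_map_map, f.norm_map]

theorem U1q_sum {d : ℕ} (x : E d) (hx : x ≠ 0) :
    ∑ i, U1q (EuclideanSpace.basisFun (Fin d) ℝ i) x = 1 := by
  unfold U1q
  rw [← Finset.sum_div]
  have h := (EuclideanSpace.basisFun (Fin d) ℝ).sum_sq_inner_left x
  rw [h]
  exact div_self (by positivity)

theorem U1q_smul {d : ℕ} (c : ℝ) (u x : E d) : U1q (c • u) x = c ^ 2 * U1q u x := by
  unfold U1q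
  rw [real_inner_smul_right]
  ring

theorem U1q_integral {d : ℕ} (hd : 0 < d) (e : E d) :
    ∫ x, U1q e x ∂(stdGaussian (E d)) = ‖e‖ ^ 2 / d := by
  have hd' : (d : ℝ) ≠ 0 := by positivity
  rw [eq_div_iff hd']
  have h1 : ∀ i : Fin d, ∫ x, U1q e x ∂(stdGaussian (E d)) =
      ‖e‖ ^ 2 * ∫ x, U1q (EuclideanSpace.basisFun (Fin d) ℝ i) x ∂(stdGaussian (E d)) := by
    intro i
    rw [U1q_congr e (‖e‖ • (EuclideanSpace.basisFun (Fin d) ℝ i)) (by simp [norm_smul]),
      ← integral_const_mul]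
    refine integral_congr_ae (Eventually.of_forall fun x => ?_)
    exact U1q_smul _ _ _
  have h2 : ∑ i : Fin d, ∫ x, U1q (EuclideanSpace.basisFun (Fin d) ℝ i) x ∂(stdGaussian (E d))
      = 1 := by
    rw [← integral_finsetSum _ (fun i _ => U1q_int _)]
    have : (fun x : E d => ∑ i, U1q (EuclideanSpace.basisFun (Fin d) ℝ i) x) =ᵐ[stdGaussian (E d)]
        fun _ => (1 : ℝ) := by
      have h0 : ∀ᵐ x ∂(stdGaussian (E d)), x ≠ 0 := by
        rw [ae_iff]
        simpa using U1_zero hd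
      filter_upwards [h0] with x hx
      exact U1q_sum x hx
    rw [integral_congr_ae this]
    simp
  calc (∫ x, U1q e x ∂(stdGaussian (E d))) * (d : ℝ)
      = ∑ _i : Fin d, ∫ x, U1q e x ∂(stdGaussian (E d)) := by simp [mul_comm]
    _ = ∑ i : Fin d,
        ‖e‖ ^ 2 * ∫ x, U1q (EuclideanSpace.basisFun (Fin d) ℝ i) x ∂(stdGaussian (E d)) :=
        Finset.sum_congr rfl fun i _ => h1 i
    _ = ‖e‖ ^ 2 := by rw [← Finset.mul_sum, h2, mul_one]

theorem U1_norm {d : ℕ} (e x : E d) :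
    ‖e - (⟪x, e⟫ / ‖x‖ ^ 2) • x‖ ^ 2 = ‖e‖ ^ 2 - U1q e x := by
  unfold U1q
  rcases eq_or_ne x 0 with rfl | hx
  · simp
  · have hx' : ‖x‖ ^ 2 ≠ 0 := by positivity
    rw [@norm_sub_sq_real, real_inner_smul_right, norm_smul, mul_pow, Real.norm_eq_abs, sq_abs,
      real_inner_comm]
    field_simp
    ring

/-- by symmetry `E ⟪x,e⟫² / |x|² = |e|² / d` (at `x = 0` the quotient is `0`, a null set). -/
theorem U1_second_moment {d : ℕ} (hd : 0 < d) (e : E d) :
    ∫⁻ x, ENNReal.ofReal (‖e - (⟪x, e⟫ / ‖x‖ ^ 2) • x‖ ^ 2) ∂(stdGaussian (E d)) ≤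
      ENNReal.ofReal ((1 - 1 / (d : ℝ)) * ‖e‖ ^ 2) := by
  have hint : Integrable (fun x : E d => ‖e‖ ^ 2 - U1q e x) (stdGaussian (E d)) :=
    (integrable_const _).sub (U1q_int e)
  simp_rw [U1_norm]
  rw [← ofReal_integral_eq_lintegral_ofReal hint
    (Eventually.of_forall fun x => sub_nonneg.2 (U1q_le e x))]
  refine ENNReal.ofReal_le_ofReal ?_
  rw [integral_sub (integrable_const _) (U1q_int e), U1q_integral hd]
  simp
  apply le_of_eq
  ring

end P309
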