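import Mathlib
import Vale.Agent.P309.UDefs

/-! P309 module U2: a finite grid with measurable rounding. -/

open MeasureTheory ProbabilityTheory Metric Matrix Filter Topology
open scoped ENNReal RealInnerProductSpace

namespace P309

theorem U2_grid (d : ℕ) (hd : 0 < d) {η : ℝ} (hη : 0 < η) (hη1 : η ≤ 1) :
    ∃ (n : ℕ) (enc : E d → Fin n) (dec : Fin n → E d), Measurable enc ∧
      (∀ z, ‖z‖ ≤ 3 → ‖dec (enc z) - z‖ ≤ η) ∧ (n : ℝ) ≤ (16 * d / η) ^ d := by
  have hd' : (0 : ℝ) < d := by exact_mod_cast hd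
  have hd1 : (1 : ℝ) ≤ d := by exact_mod_cast hd
  set h : ℝ := η / d with hh
  have hh0 : 0 < h := by positivity
  set K : ℕ := ⌈3 / h⌉₊ with hK
  let cl : ℤ → Fin (2 * K + 1) := fun k => ⟨min (k + K).toNat (2 * K), by omega⟩
  let e0 : E d → (Fin d → Fin (2 * K + 1)) := fun z i => cl ⌊z i / h⌋
  let enc : E d → Fin ((2 * K + 1) ^ d) := fun z => finFunctionFinEquiv (e0 z)
  let dec : Fin ((2 * K + 1) ^ d) → E d := fun v =>
    WithLp.toLp 2 fun i => h * (((finFunctionFinEquiv.symm v i : Fin (2 * K + 1)) : ℕ) - (K : ℝ))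
  refine ⟨(2 * K + 1) ^ d, enc, dec, ?_, ?_, ?_⟩
  · have h1 : Measurable e0 := by
      apply measurable_pi_lambda
      intro i
      have h2 : Measurable fun z : E d => ⌊z i / h⌋ := by
        apply Int.measurable_floor.comp
        exact (by fun_prop : Continuous fun z : E d => z i / h).measurable
      exact (Measurable.of_discrete (f := cl)).comp h2
    exact (Measurable.of_discrete (f := (finFunctionFinEquiv :
      (Fin d → Fin (2 * K + 1)) → Fin ((2 * K + 1) ^ d)))).comp h1
  · intro z hz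
    have hzi : ∀ i, |z i| ≤ 3 := by
      intro i
      have := PiLp.norm_apply_le z i
      rw [Real.norm_eq_abs] at this
      linarith
    have hcoord : ∀ i, ‖(dec (enc z) - z) i‖ ≤ h := by
      intro i
      have h1 : (dec (enc z) - z) i = h * (((cl ⌊z i / h⌋ : Fin (2 * K + 1)) : ℕ) - (K : ℝ)) -
          z i := by
        change h * (((finFunctionFinEquiv.symm (finFunctionFinEquiv (e0 z)) i :
          Fin (2 * K + 1)) : ℕ) - (K : ℝ)) - z i = _
        rw [Equiv.symm_apply_apply]
      rw [h1]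
      have hKle : 3 / h ≤ K := Nat.le_ceil _
      have hz1 := abs_le.1 (hzi i)
      have h2 : -(K : ℤ) ≤ ⌊z i / h⌋ := by
        rw [Int.le_floor]
        push_cast
        have : -(3 / h) ≤ z i / h := by
          rw [← neg_div]; gcongr; exact hz1.1
        linarith
      have h3 : ⌊z i / h⌋ ≤ K := by
        have : (⌊z i / h⌋ : ℝ) ≤ K := by
          calc (⌊z i / h⌋ : ℝ) ≤ z i / h := Int.floor_le _
            _ ≤ 3 / h := by gcongr; exact hz1.2
            _ ≤ K := hKle
        exact_mod_cast this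
      have h4 : ((cl ⌊z i / h⌋ : Fin (2 * K + 1)) : ℕ) = (⌊z i / h⌋ + K).toNat := by
        change min (⌊z i / h⌋ + K).toNat (2 * K) = _
        apply min_eq_left
        omega
      rw [h4]
      have h5 : (((⌊z i / h⌋ + K).toNat : ℕ) : ℝ) = (⌊z i / h⌋ : ℝ) + K := by
        have h6 : (((⌊z i / h⌋ + K).toNat : ℕ) : ℤ) = ⌊z i / h⌋ + K :=
          Int.toNat_of_nonneg (by omega)
        have h7 : ((((⌊z i / h⌋ + K).toNat : ℕ) : ℤ) : ℝ) = ((⌊z i / h⌋ + K : ℤ) : ℝ) := by
          rw [h6]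
        push_cast at h7
        exact h7
      rw [h5]
      have h8 : h * ((⌊z i / h⌋ : ℝ) + K - K) - z i = -(h * (z i / h - ⌊z i / h⌋)) := by
        field_simp
        ring
      rw [h8, norm_neg, Real.norm_eq_abs, abs_of_nonneg]
      · have h9 := Int.lt_floor_add_one (z i / h)
        calc h * (z i / h - ⌊z i / h⌋) ≤ h * 1 := by gcongr; linarith
          _ = h := mul_one h
      · exact mul_nonneg hh0.le (by linarith [Int.floor_le (z i / h)])
    rw [EuclideanSpace.norm_eq]
    have h1 : ∑ i, ‖(dec (enc z) - z) i‖ ^ 2 ≤ η ^ 2 := by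
      calc ∑ i, ‖(dec (enc z) - z) i‖ ^ 2 ≤ ∑ _i : Fin d, h ^ 2 :=
            Finset.sum_le_sum fun i _ => by
              have := hcoord i
              gcongr
        _ = d * h ^ 2 := by simp
        _ ≤ d * d * h ^ 2 := by nlinarith [sq_nonneg h, mul_nonneg hd'.le (sq_nonneg h)]
        _ = η ^ 2 := by rw [hh]; field_simp
    calc Real.sqrt (∑ i, ‖(dec (enc z) - z) i‖ ^ 2) ≤ Real.sqrt (η ^ 2) := Real.sqrt_le_sqrt h1
      _ = η := Real.sqrt_sq hη.le
  · push_cast
    have h1 : (K : ℝ) ≤ 3 / h + 1 := (Nat.ceil_lt_add_one (by positivity)).le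
    have h2 : 3 / h = 3 * d / η := by rw [hh]; field_simp
    have h3 : 1 ≤ d / η := by
      rw [le_div_iff₀ hη]; linarith
    have h4 : 2 * (K : ℝ) + 1 ≤ 16 * d / η := by
      rw [h2] at h1
      have h5 : 3 * (d : ℝ) / η = 3 * (d / η) := by ring
      have h6 : 16 * (d : ℝ) / η = 16 * (d / η) := by ring
      rw [h5] at h1
      rw [h6]
      linarith
    gcongr

end P309
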