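import Mathlib
import Vale.Agent.P309.U1

/-! P309 module U3: the error recursion of the quantized Kaczmarz iteration. -/

open MeasureTheory ProbabilityTheory Metric Matrix Filter Topology
open scoped ENNReal RealInnerProductSpace

namespace P309

theorem U3_kz_sub {d : ℕ} (z x s : E d) :
    kz z x ⟪x, s⟫ - s = (z - s) - (⟪x, z - s⟫ / ‖x‖ ^ 2) • x := by
  unfold kz
  rw [inner_sub_right]
  have h : (⟪x, s⟫ - ⟪x, z⟫) / ‖x‖ ^ 2 = -((⟪x, z⟫ - ⟪x, s⟫) / ‖x‖ ^ 2) := by ring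
  rw [h, neg_smul]
  abel

theorem U3_norm_sq {d : ℕ} (e x : E d) :
    ‖e - (⟪x, e⟫ / ‖x‖ ^ 2) • x‖ ^ 2 = ‖e‖ ^ 2 - ⟪x, e⟫ ^ 2 / ‖x‖ ^ 2 := by
  by_cases hx : x = 0
  · simp [hx]
  · have hx' : ‖x‖ ≠ 0 := norm_ne_zero_iff.2 hx
    rw [norm_sub_sq_real, norm_smul, inner_smul_right, real_inner_comm, mul_pow,
      Real.norm_eq_abs, sq_abs]
    field_simp
    ring

theorem U3_contract {d : ℕ} (z x s : E d) : ‖kz z x ⟪x, s⟫ - s‖ ≤ ‖z - s‖ := by
  rw [U3_kz_sub]
  apply le_of_sq_le_sq _ (norm_nonneg _)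
  rw [U3_norm_sq]
  have : 0 ≤ ⟪x, z - s⟫ ^ 2 / ‖x‖ ^ 2 := by positivity
  linarith

/-- second moment of the Kaczmarz error as a real-valued `ℝ≥0∞` integral. -/
theorem U3_second {d : ℕ} (hd : 0 < d) (z s : E d) :
    ∫⁻ x, ENNReal.ofReal (‖kz z x ⟪x, s⟫ - s‖ ^ 2) ∂(stdGaussian (E d)) ≤
      ENNReal.ofReal ((1 - 1 / (d : ℝ)) * ‖z - s‖ ^ 2) := by
  simp_rw [U3_kz_sub]
  exact U1_second_moment hd (z - s)

/-- `∫ (a |e| + b)² ≤ (a α |e₀| + b)²` when `∫ |e|² ≤ α² |e₀|²`. -/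
theorem U3_minkowski {d : ℕ} {u : E d → ℝ} (hu0 : ∀ x, 0 ≤ u x) (hu : Measurable u)
    {a b c : ℝ} (ha : 0 ≤ a) (hb : 0 ≤ b) (hc : 0 ≤ c)
    (h : ∫⁻ x, ENNReal.ofReal (u x ^ 2) ∂(stdGaussian (E d)) ≤ ENNReal.ofReal (c ^ 2)) :
    ∫⁻ x, ENNReal.ofReal ((a * u x + b) ^ 2) ∂(stdGaussian (E d)) ≤
      ENNReal.ofReal ((a * c + b) ^ 2) := by
  -- `(a u + b)² ≤ (1 + t) a² u² + (1 + 1/t) b²` is avoided: use `2 u ≤ u²/c + c`
  rcases hc.eq_or_lt with hc0 | hcpos
  · -- c = 0: u = 0 a.e.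
    rw [← hc0] at h ⊢
    simp only [ne_eq, OfNat.ofNat_ne_zero, not_false_eq_true, zero_pow, ENNReal.ofReal_zero,
      nonpos_iff_eq_zero] at h
    rw [lintegral_eq_zero_iff (by fun_prop)] at h
    have h2 : ∀ᵐ x ∂(stdGaussian (E d)), ENNReal.ofReal ((a * u x + b) ^ 2) =
        ENNReal.ofReal ((a * 0 + b) ^ 2) := by
      filter_upwards [h] with x hx
      have h3 : u x ^ 2 ≤ 0 := by simpa using hx
      have h4 : u x = 0 := by nlinarith [hu0 x, sq_nonneg (u x)]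
      rw [h4]
    rw [lintegral_congr_ae h2]
    simp
  · have hpt : ∀ x, (a * u x + b) ^ 2 ≤ (a ^ 2 + a * b / c) * u x ^ 2 + (a * b * c + b ^ 2) := by
      intro x
      have h5 : 2 * u x ≤ u x ^ 2 / c + c := by
        rw [← sub_nonneg]
        have : u x ^ 2 / c + c - 2 * u x = (u x - c) ^ 2 / c := by field_simp; ring
        rw [this]; positivity
      have h6 : a * b * (2 * u x) ≤ a * b * (u x ^ 2 / c + c) :=
        mul_le_mul_of_nonneg_left h5 (by positivity)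
      calc (a * u x + b) ^ 2 = a ^ 2 * u x ^ 2 + a * b * (2 * u x) + b ^ 2 := by ring
        _ ≤ a ^ 2 * u x ^ 2 + a * b * (u x ^ 2 / c + c) + b ^ 2 := by linarith
        _ = (a ^ 2 + a * b / c) * u x ^ 2 + (a * b * c + b ^ 2) := by ring
    have hk : 0 ≤ a ^ 2 + a * b / c := by positivity
    calc ∫⁻ x, ENNReal.ofReal ((a * u x + b) ^ 2) ∂(stdGaussian (E d))
        ≤ ∫⁻ x, (ENNReal.ofReal (a ^ 2 + a * b / c) * ENNReal.ofReal (u x ^ 2) +
            ENNReal.ofReal (a * b * c + b ^ 2)) ∂(stdGaussian (E d)) := by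
          apply lintegral_mono
          intro x
          dsimp only
          rw [← ENNReal.ofReal_mul hk, ← ENNReal.ofReal_add (by positivity) (by positivity)]
          exact ENNReal.ofReal_le_ofReal (hpt x)
      _ = ENNReal.ofReal (a ^ 2 + a * b / c) *
            ∫⁻ x, ENNReal.ofReal (u x ^ 2) ∂(stdGaussian (E d)) +
            ENNReal.ofReal (a * b * c + b ^ 2) := by
          rw [lintegral_add_right _ measurable_const, lintegral_const_mul _ (by fun_prop)]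
          simp
      _ ≤ ENNReal.ofReal (a ^ 2 + a * b / c) * ENNReal.ofReal (c ^ 2) +
            ENNReal.ofReal (a * b * c + b ^ 2) := by gcongr
      _ = ENNReal.ofReal ((a * c + b) ^ 2) := by
          rw [← ENNReal.ofReal_mul hk, ← ENNReal.ofReal_add (by positivity) (by positivity)]
          congr 1
          field_simp

/-- by induction on `m` (backward): Minkowski in `L²(γ)`. -/
theorem U3_recursion {d n : ℕ} (hd : 0 < d) {enc : E d → Fin n} {dec : Fin n → E d}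
    (henc : Measurable enc) {η : ℝ} (hη : 0 < η)
    (hround : ∀ z, ‖z‖ ≤ 3 → ‖dec (enc z) - z‖ ≤ η) {s : E d} (hs : ‖s‖ = 1)
    (m t : ℕ) (v : Fin n) (hv : ‖dec v - s‖ ≤ 2 - m * η) :
    G (kzStep enc dec) (sqErr dec) m t v s ≤
      ENNReal.ofReal ((√(1 - 1 / (d : ℝ)) ^ m * ‖dec v - s‖ +
        η * ∑ i ∈ Finset.range m, √(1 - 1 / (d : ℝ)) ^ i) ^ 2) := by
  have hd' : (1 : ℝ) ≤ d := by exact_mod_cast hd
  have hα : (0 : ℝ) ≤ 1 - 1 / (d : ℝ) := by
    rw [sub_nonneg, div_le_one (by positivity)]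
    exact hd'
  set α : ℝ := √(1 - 1 / (d : ℝ)) with hαdef
  have hα0 : 0 ≤ α := Real.sqrt_nonneg _
  induction m generalizing t v with
  | zero =>
    simp [G, sqErr]
  | succ m ih =>
    set S : ℝ := ∑ i ∈ Finset.range m, α ^ i with hS
    have hS0 : 0 ≤ S := Finset.sum_nonneg fun i _ => pow_nonneg hα0 i
    have hv2 : ‖dec v - s‖ ≤ 2 := by
      push_cast at hv
      nlinarith [mul_nonneg (Nat.cast_nonneg m : (0:ℝ) ≤ m) hη.le]
    have hnew : ∀ x : E d, ‖dec (enc (kz (dec v) x ⟪x, s⟫)) - s‖ ≤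
        ‖kz (dec v) x ⟪x, s⟫ - s‖ + η := by
      intro x
      have h3 : ‖kz (dec v) x ⟪x, s⟫‖ ≤ 3 := by
        calc ‖kz (dec v) x ⟪x, s⟫‖ = ‖(kz (dec v) x ⟪x, s⟫ - s) + s‖ := by simp
          _ ≤ ‖kz (dec v) x ⟪x, s⟫ - s‖ + ‖s‖ := norm_add_le _ _
          _ ≤ 2 + 1 := by
            rw [hs]
            have := U3_contract (dec v) x s
            linarith
          _ = 3 := by norm_num
      calc ‖dec (enc (kz (dec v) x ⟪x, s⟫)) - s‖
          = ‖(dec (enc (kz (dec v) x ⟪x, s⟫)) - kz (dec v) x ⟪x, s⟫) +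
              (kz (dec v) x ⟪x, s⟫ - s)‖ := by simp
        _ ≤ ‖dec (enc (kz (dec v) x ⟪x, s⟫)) - kz (dec v) x ⟪x, s⟫‖ +
              ‖kz (dec v) x ⟪x, s⟫ - s‖ := norm_add_le _ _
        _ ≤ η + ‖kz (dec v) x ⟪x, s⟫ - s‖ := by gcongr; exact hround _ h3
        _ = _ := by ring
    have hle : ∀ x : E d, ‖dec (enc (kz (dec v) x ⟪x, s⟫)) - s‖ ≤ 2 - m * η := by
      intro x
      have := U3_contract (dec v) x s
      have := hnew x
      push_cast at hv
      linarith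
    have hG : G (kzStep enc dec) (sqErr dec) (m + 1) t v s =
        ∫⁻ x, G (kzStep enc dec) (sqErr dec) m (t + 1) (enc (kz (dec v) x ⟪x, s⟫)) s
          ∂(stdGaussian (E d)) := by
      simp [G, kzStep]
    rw [hG]
    set u : E d → ℝ := fun x => ‖kz (dec v) x ⟪x, s⟫ - s‖ with hu
    have hum : Measurable u := by
      rw [hu]; unfold kz; fun_prop
    have hsum : ∑ i ∈ Finset.range (m + 1), α ^ i = S + α ^ m := Finset.sum_range_succ _ _
    calc ∫⁻ x, G (kzStep enc dec) (sqErr dec) m (t + 1) (enc (kz (dec v) x ⟪x, s⟫)) s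
          ∂(stdGaussian (E d))
        ≤ ∫⁻ x, ENNReal.ofReal ((α ^ m * u x + (α ^ m * η + η * S)) ^ 2)
          ∂(stdGaussian (E d)) := by
          apply lintegral_mono
          intro x
          refine (ih (t + 1) _ (hle x)).trans ?_
          apply ENNReal.ofReal_le_ofReal
          apply pow_le_pow_left₀ (by positivity)
          have h7 : α ^ m * ‖dec (enc (kz (dec v) x ⟪x, s⟫)) - s‖ ≤ α ^ m * (u x + η) :=
            mul_le_mul_of_nonneg_left (hnew x) (by positivity)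
          linarith
      _ ≤ ENNReal.ofReal ((α ^ m * (α * ‖dec v - s‖) + (α ^ m * η + η * S)) ^ 2) := by
          apply U3_minkowski (fun x => norm_nonneg _) hum (by positivity) (by positivity)
            (by positivity)
          refine (U3_second hd (dec v) s).trans ?_
          apply ENNReal.ofReal_le_ofReal
          rw [mul_pow, hαdef, Real.sq_sqrt hα]
      _ = _ := by
          rw [hsum]
          congr 1
          ring

end P309
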