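import Mathlib
import Vale.Agent.P309.UDefs

/-! P309 module U4: from Euclidean error to angle; elementary estimates. -/

open MeasureTheory ProbabilityTheory Metric Matrix Filter Topology
open scoped ENNReal RealInnerProductSpace

namespace P309

theorem U4_angle {d : ℕ} {z s : E d} {ε : ℝ} (hε : 0 < ε) (hε1 : ε ≤ 1 / 2) (hs : ‖s‖ = 1)
    (h : ‖z - s‖ ≤ ε / 2) : Real.arccos ⟪(‖z‖⁻¹) • z, s⟫ ≤ ε := by
  have hpi := Real.pi_gt_three
  have hpi4 := Real.pi_le_four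
  -- the inner product of `z` and `s`
  have h0 : ⟪z, s⟫ = 1 + ⟪z - s, s⟫ := by
    rw [inner_sub_left, real_inner_self_eq_norm_sq, hs]; ring
  have h1 : -(ε / 2) ≤ ⟪z - s, s⟫ := by
    have := abs_real_inner_le_norm (z - s) s
    rw [hs, mul_one] at this
    exact (abs_le.1 (this.trans h)).1
  have hpos : 0 < ⟪z, s⟫ := by rw [h0]; linarith
  have hz : 0 < ‖z‖ := by
    rw [norm_pos_iff]
    rintro rfl
    rw [inner_zero_left] at hpos
    exact lt_irrefl _ hpos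
  obtain ⟨c, hc⟩ : ∃ c : ℝ, c = ⟪(‖z‖⁻¹) • z, s⟫ := ⟨_, rfl⟩
  have hc1 : ⟪z, s⟫ = ‖z‖ * c := by
    rw [hc, real_inner_smul_left]
    field_simp
  have hcpos : 0 < c := by
    rw [hc, real_inner_smul_left]
    positivity
  have h2 : ‖z - s‖ ^ 2 = ‖z‖ ^ 2 - 2 * (‖z‖ * c) + 1 := by
    rw [@norm_sub_sq_real, hs, hc1]; ring
  have h3 : ‖z - s‖ ^ 2 ≤ (ε / 2) ^ 2 := by
    exact pow_le_pow_left₀ (norm_nonneg _) h 2
  have h4 : 1 - c ^ 2 ≤ (ε / 2) ^ 2 := by nlinarith [sq_nonneg (‖z‖ - c)]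
  have hsin : ε / 2 ≤ Real.sin ε := by
    have := Real.mul_le_sin hε.le (by linarith : ε ≤ Real.pi / 2)
    refine le_trans ?_ this
    have h5 : (1 : ℝ) / 2 ≤ 2 / Real.pi := by
      rw [div_le_div_iff₀ (by norm_num) Real.pi_pos]; linarith
    nlinarith
  have hcos : Real.cos ε ^ 2 ≤ c ^ 2 := by
    have h6 := Real.sin_sq_add_cos_sq ε
    have h7 : (ε / 2) ^ 2 ≤ Real.sin ε ^ 2 := pow_le_pow_left₀ (by positivity) hsin 2
    linarith
  have hcos' : Real.cos ε ≤ c := by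
    have := abs_le_of_sq_le_sq hcos hcpos.le
    exact (le_abs_self _).trans this
  rw [← hc]
  have h8 : Real.arccos (Real.cos ε) = ε := Real.arccos_cos hε.le (by linarith)
  rw [← h8]
  exact Real.arccos_le_arccos hcos'

theorem sqrt_one_sub_inv_le {d : ℕ} (hd : 0 < d) : √(1 - 1 / (d : ℝ)) ≤ 1 - 1 / (2 * d) := by
  have hd' : (1 : ℝ) ≤ d := by exact_mod_cast hd
  have h1 : (1 : ℝ) / (2 * d) ≤ 1 := by
    rw [div_le_one (by positivity)]; linarith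
  rw [Real.sqrt_le_left (by linarith)]
  have h2 : (1 - 1 / (2 * (d : ℝ))) ^ 2 = 1 - 1 / d + (1 / (2 * d)) ^ 2 := by
    field_simp
    ring
  rw [h2]
  nlinarith [sq_nonneg (1 / (2 * (d : ℝ)))]

/-- `√(1-1/d)^m ≤ e^{-m/(2d)}` and the geometric sum is at most `2d`. -/
theorem U4_pow_le {d : ℕ} (hd : 0 < d) (m : ℕ) :
    √(1 - 1 / (d : ℝ)) ^ m ≤ Real.exp (-(m / (2 * d))) := by
  have h1 : √(1 - 1 / (d : ℝ)) ≤ Real.exp (-(1 / (2 * d))) := by
    refine (sqrt_one_sub_inv_le hd).trans ?_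
    have := Real.add_one_le_exp (-(1 / (2 * (d : ℝ))))
    linarith
  refine (pow_le_pow_left₀ (Real.sqrt_nonneg _) h1 m).trans ?_
  rw [← Real.exp_nat_mul]
  apply le_of_eq
  congr 1
  ring

theorem U4_sum_le {d : ℕ} (hd : 0 < d) (m : ℕ) :
    ∑ i ∈ Finset.range m, √(1 - 1 / (d : ℝ)) ^ i ≤ 2 * d := by
  have hd' : (0 : ℝ) < d := by exact_mod_cast hd
  have h1 := sqrt_one_sub_inv_le hd
  have h2 : (∑ i ∈ Finset.range m, √(1 - 1 / (d : ℝ)) ^ i) * (1 - √(1 - 1 / (d : ℝ))) =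
      1 - √(1 - 1 / (d : ℝ)) ^ m := by
    have := geom_sum_mul (√(1 - 1 / (d : ℝ))) m
    linarith
  have h3 : 0 ≤ √(1 - 1 / (d : ℝ)) ^ m := by positivity
  have h4 : 1 / (2 * (d : ℝ)) ≤ 1 - √(1 - 1 / (d : ℝ)) := by linarith
  have h5 : 0 ≤ ∑ i ∈ Finset.range m, √(1 - 1 / (d : ℝ)) ^ i :=
    Finset.sum_nonneg fun i _ => by positivity
  have h6 : (∑ i ∈ Finset.range m, √(1 - 1 / (d : ℝ)) ^ i) * (1 / (2 * (d : ℝ))) ≤ 1 :=
    calc _ ≤ (∑ i ∈ Finset.range m, √(1 - 1 / (d : ℝ)) ^ i) * (1 - √(1 - 1 / (d : ℝ))) :=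
          mul_le_mul_of_nonneg_left h4 h5
      _ ≤ 1 := by rw [h2]; linarith
  rw [mul_one_div, div_le_one (by positivity)] at h6
  exact h6

end P309
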