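import Mathlib
import Vale.Agent.P309.U2
import Vale.Agent.P309.U3
import Vale.Agent.P309.U4
import Vale.Agent.P309.Red2
import Vale.Agent.P309.Sphere

/-! P309 module U5: the quantized Kaczmarz learner. -/

open MeasureTheory ProbabilityTheory Metric Matrix Filter Topology
open scoped ENNReal RealInnerProductSpace

namespace P309

/-- superadditivity: if `1 ≤ F + c F'` pointwise then `1 ≤ G F + c G F'`. -/
theorem G_one_le_add {d n : ℕ} {st : ℕ → Fin n × E d × ℝ → Fin n × Bool}
    (hst : ∀ t, Measurable (st t)) {F F' : ℕ → Fin n → E d → ℝ≥0∞}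
    (hF : ∀ t v, Measurable (F t v)) (c : ℝ≥0∞) (hc : c ≠ ∞) (s : E d)
    (h : ∀ t v, 1 ≤ F t v s + c * F' t v s) (m t : ℕ) (v : Fin n) :
    1 ≤ G st F m t v s + c * G st F' m t v s := by
  induction m generalizing t v with
  | zero => exact h t v
  | succ m ih =>
    have hst1 : Measurable (fun x : E d => st t (v, x, ⟪x, s⟫)) := by
      apply (hst t).comp
      have h : Continuous (fun x : E d => (x, (⟪x, s⟫ : ℝ))) := by fun_prop
      exact measurable_const.prodMk h.measurable
    have hmeas : Measurable (fun x : E d =>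
        if (st t (v, x, ⟪x, s⟫)).2 then F (t + 1) (st t (v, x, ⟪x, s⟫)).1 s
        else G st F m (t + 1) (st t (v, x, ⟪x, s⟫)).1 s) := by
      refine Measurable.ite ?_ ?_ ?_
      · exact hst1.snd (measurableSet_singleton true)
      · exact (measurable_of_finite (fun w : Fin n => F (t + 1) w s)).comp hst1.fst
      · exact (measurable_of_finite (fun w : Fin n => G st F m (t + 1) w s)).comp hst1.fst
    calc (1 : ℝ≥0∞) = ∫⁻ _x, 1 ∂(stdGaussian (E d)) := by simp
      _ ≤ ∫⁻ x, ((if (st t (v, x, ⟪x, s⟫)).2 then F (t + 1) (st t (v, x, ⟪x, s⟫)).1 s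
        else G st F m (t + 1) (st t (v, x, ⟪x, s⟫)).1 s) +
          c * (if (st t (v, x, ⟪x, s⟫)).2 then F' (t + 1) (st t (v, x, ⟪x, s⟫)).1 s
        else G st F' m (t + 1) (st t (v, x, ⟪x, s⟫)).1 s)) ∂(stdGaussian (E d)) := by
          apply lintegral_mono
          intro x
          dsimp only
          split_ifs
          · exact h _ _
          · exact ih _ _
      _ = G st F (m + 1) t v s + c * G st F' (m + 1) t v s := by
          rw [lintegral_add_left hmeas, lintegral_const_mul' _ _ hc]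
          rfl

/-- normalisation to the sphere. -/
noncomputable def nrm {d : ℕ} (hd : 0 < d) (z : E d) : Sph d :=
  if h : z = 0 then ⟨EuclideanSpace.single ⟨0, hd⟩ 1, by simp⟩
  else ⟨(‖z‖⁻¹) • z, by
    have : ‖z‖ ≠ 0 := norm_ne_zero_iff.2 h
    simp [norm_smul, this]⟩

theorem measurable_kz {d n : ℕ} (dec : Fin n → E d) :
    Measurable (fun p : Fin n × E d × ℝ => kz (dec p.1) p.2.1 p.2.2) := by
  have h : ∀ v : Fin n, Measurable (fun p : E d × ℝ => kz (dec v) p.1 p.2) := by
    intro v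
    unfold kz
    fun_prop
  exact measurable_from_prod_countable_right h

/-- the quantized Kaczmarz learner. -/
noncomputable def kzLearner {d n : ℕ} (hd : 0 < d) (enc : E d → Fin n) (dec : Fin n → E d)
    (henc : Measurable enc) : Learner d Unit n where
  init := fun _ => enc 0
  step := fun t p => kzStep enc dec t p.2
  out := fun _ p => nrm hd (dec p.2)
  measurable_init := measurable_const
  measurable_step := fun t => by
    unfold kzStep
    exact ((henc.comp ((measurable_kz dec).comp measurable_snd))).prodMk measurable_const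
  measurable_out := fun _ => by
    exact (measurable_of_finite (fun v : Fin n => nrm hd (dec v))).comp measurable_snd

theorem measurable_kzStep {d n : ℕ} {enc : E d → Fin n} (dec : Fin n → E d)
    (henc : Measurable enc) (t : ℕ) : Measurable (kzStep enc dec t) := by
  unfold kzStep
  exact (henc.comp (measurable_kz dec)).prodMk measurable_const

theorem one_le_term_add {d n : ℕ} (hd : 0 < d) {enc : E d → Fin n} {dec : Fin n → E d}
    (henc : Measurable enc) {ε : ℝ} (hε : 0 < ε) (hε1 : ε ≤ 1 / 2) {s : E d} (hs : ‖s‖ = 1)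
    (τ : ℕ) (v : Fin n) :
    1 ≤ term (kzLearner hd enc dec henc) ε () τ v s +
      ENNReal.ofReal (4 / ε ^ 2) * sqErr dec τ v s := by
  by_cases hclose : ‖dec v - s‖ ≤ ε / 2
  · have hne : dec v ≠ 0 := by
      intro h0
      rw [h0, zero_sub, norm_neg, hs] at hclose
      linarith
    have h1 : Real.arccos ⟪(‖dec v‖⁻¹) • dec v, s⟫ ≤ ε := U4_angle hε hε1 hs hclose
    have h2 : term (kzLearner hd enc dec henc) ε () τ v s = 1 := by
      unfold term kzLearner nrm
      simp only [hne, dif_neg, not_false_iff]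
      rw [if_pos h1]
    rw [h2]
    exact le_self_add
  · push Not at hclose
    have h3 : (1 : ℝ) ≤ 4 / ε ^ 2 * ‖dec v - s‖ ^ 2 := by
      rw [div_mul_eq_mul_div, le_div_iff₀ (by positivity)]
      nlinarith [norm_nonneg (dec v - s)]
    have h4 : (1 : ℝ≥0∞) ≤ ENNReal.ofReal (4 / ε ^ 2) * sqErr dec τ v s := by
      unfold sqErr
      rw [← ENNReal.ofReal_mul (by positivity), ← ENNReal.ofReal_one]
      exact ENNReal.ofReal_le_ofReal h3
    exact h4.trans le_add_self

theorem measurable_term' {d n : ℕ} {Ω : Type} [MeasurableSpace Ω] (A : Learner d Ω n) (ε : ℝ)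
    (ω : Ω) (τ : ℕ) (v : Fin n) : Measurable (term A ε ω τ v) := by
  unfold term
  refine Measurable.ite ?_ measurable_const measurable_const
  exact measurableSet_le (Real.measurable_arccos.comp (by fun_prop)) measurable_const

/-- pointwise in the signal: success probability at least `2/3`. -/
theorem kz_success {d n : ℕ} (hd : 0 < d) {enc : E d → Fin n} {dec : Fin n → E d}
    (henc : Measurable enc) {ε : ℝ} (hε : 0 < ε) (hε1 : ε ≤ 1 / 2)
    (hround : ∀ z, ‖z‖ ≤ 3 → ‖dec (enc z) - z‖ ≤ ε / (20 * d)) {T : ℕ}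
    (hT1 : 2 * d * Real.log (20 / ε) ≤ T) (hT2 : ((T : ℝ) + 1) * (ε / (20 * d)) ≤ 1)
    {s : E d} (hs : ‖s‖ = 1) :
    2 / 3 ≤ G (kzStep enc dec) (term (kzLearner hd enc dec henc) ε ()) T 0 (enc 0) s := by
  have hd' : (1 : ℝ) ≤ d := by exact_mod_cast hd
  set η : ℝ := ε / (20 * d) with hη
  have hη0 : 0 < η := by positivity
  have hc : ENNReal.ofReal (4 / ε ^ 2) ≠ ∞ := ENNReal.ofReal_ne_top
  have h1 := G_one_le_add (measurable_kzStep dec henc)
    (measurable_term' (kzLearner hd enc dec henc) ε ()) (ENNReal.ofReal (4 / ε ^ 2)) hc s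
    (fun t v => one_le_term_add hd henc hε hε1 hs t v) T 0 (enc 0)
  have h0 : ‖dec (enc 0)‖ ≤ η := by
    have := hround 0 (by simp)
    simpa using this
  have h2 : ‖dec (enc 0) - s‖ ≤ 1 + η := by
    calc ‖dec (enc 0) - s‖ ≤ ‖dec (enc 0)‖ + ‖s‖ := norm_sub_le _ _
      _ ≤ η + 1 := by rw [hs]; linarith
      _ = 1 + η := by ring
  have hTη : T * η + η ≤ 1 := by
    have : ((T : ℝ) + 1) * η = T * η + η := by ring
    linarith
  have h3 := U3_recursion hd henc hη0 hround hs T 0 (enc 0) (by linarith)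
  set u : ℝ := √(1 - 1 / (d : ℝ)) ^ T * ‖dec (enc 0) - s‖ +
        η * ∑ i ∈ Finset.range T, √(1 - 1 / (d : ℝ)) ^ i with hu
  have hu0 : 0 ≤ u := by positivity
  have hexp : Real.exp (-(T / (2 * d))) ≤ ε / 20 := by
    have : Real.log (20 / ε) ≤ T / (2 * d) := by
      rw [le_div_iff₀ (by positivity)]
      linarith
    calc Real.exp (-(T / (2 * d))) ≤ Real.exp (-Real.log (20 / ε)) := by
          apply Real.exp_le_exp.2; linarith
      _ = ε / 20 := by
          rw [Real.exp_neg, Real.exp_log (by positivity), inv_div]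
  have hu1 : u ≤ ε / 5 := by
    have e1 : √(1 - 1 / (d : ℝ)) ^ T * ‖dec (enc 0) - s‖ ≤ ε / 20 * 2 := by
      apply mul_le_mul ((U4_pow_le hd T).trans hexp) _ (norm_nonneg _) (by positivity)
      have : (0:ℝ) ≤ T * η := by positivity
      linarith
    have e2 : η * ∑ i ∈ Finset.range T, √(1 - 1 / (d : ℝ)) ^ i ≤ ε / 10 := by
      calc η * ∑ i ∈ Finset.range T, √(1 - 1 / (d : ℝ)) ^ i ≤ η * (2 * d) := by
            gcongr
            exact U4_sum_le hd T
        _ = ε / 10 := by rw [hη]; field_simp; norm_num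
    linarith
  have h4 : ENNReal.ofReal (4 / ε ^ 2) * G (kzStep enc dec) (sqErr dec) T 0 (enc 0) s ≤
      ENNReal.ofReal (1 / 3) := by
    calc ENNReal.ofReal (4 / ε ^ 2) * G (kzStep enc dec) (sqErr dec) T 0 (enc 0) s
        ≤ ENNReal.ofReal (4 / ε ^ 2) * ENNReal.ofReal (u ^ 2) := by gcongr
      _ = ENNReal.ofReal (4 / ε ^ 2 * u ^ 2) := by rw [ENNReal.ofReal_mul (by positivity)]
      _ ≤ ENNReal.ofReal (1 / 3) := by
          apply ENNReal.ofReal_le_ofReal
          have : u ^ 2 ≤ (ε / 5) ^ 2 := pow_le_pow_left₀ hu0 hu1 2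
          calc 4 / ε ^ 2 * u ^ 2 ≤ 4 / ε ^ 2 * (ε / 5) ^ 2 := by gcongr
            _ = 4 / 25 := by field_simp; norm_num
            _ ≤ 1 / 3 := by norm_num
  have h5 : (1 : ℝ≥0∞) ≤ G (kzStep enc dec) (term (kzLearner hd enc dec henc) ε ()) T 0
      (enc 0) s + ENNReal.ofReal (1 / 3) := h1.trans (by gcongr)
  have h6 : (2 / 3 : ℝ≥0∞) + ENNReal.ofReal (1 / 3) = 1 := by
    have : (2 / 3 : ℝ≥0∞) = ENNReal.ofReal (2 / 3) := by
      rw [ENNReal.ofReal_div_of_pos (by norm_num)]
      norm_num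
    rw [this, ← ENNReal.ofReal_add (by norm_num) (by norm_num)]
    norm_num
  rw [← h6] at h5
  exact (ENNReal.add_le_add_iff_right ENNReal.ofReal_ne_top).1 h5

/-- matching upper bound. -/
theorem upper {d : ℕ} (hd : 2 ≤ d) {ε : ℝ} (hε : 0 < ε) (hε1 : ε ≤ 1 / 2) :
    ∃ T n : ℕ, (T : ℝ) ≤ 20 * d * Real.log (1 / ε) ∧
      (n : ℝ) ≤ (320 * (d : ℝ) ^ 2 / ε) ^ d ∧
      ∃ B : Learner d Unit n, B.Succeeds (Measure.dirac ()) T ε := by
  have hd0 : 0 < d := by omega
  have hd' : (2 : ℝ) ≤ d := by exact_mod_cast hd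
  have hη0 : 0 < ε / (20 * d) := by positivity
  have hη1 : ε / (20 * d) ≤ 1 := by
    rw [div_le_one (by positivity)]; linarith
  obtain ⟨n, enc, dec, henc, hround, hn⟩ := U2_grid d hd0 hη0 hη1
  have hlog2 : 0.69 < Real.log 2 := by
    have := Real.log_two_gt_d9; linarith
  have hlog2' : Real.log 2 < 0.70 := by
    have := Real.log_two_lt_d9; linarith
  set ℓ : ℝ := Real.log (1 / ε) with hℓ
  have hℓ2 : Real.log 2 ≤ ℓ := by
    apply Real.log_le_log (by norm_num)
    rw [le_div_iff₀ hε]; linarith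
  have hlog20 : Real.log (20 / ε) ≤ 6 * ℓ := by
    have h1 : Real.log (20 / ε) = Real.log 20 + ℓ := by
      rw [hℓ, ← Real.log_mul (by norm_num) (by positivity)]
      congr 1; ring
    have h2 : Real.log 20 ≤ 5 * Real.log 2 := by
      rw [← Real.log_rpow (by norm_num)]
      apply Real.log_le_log (by norm_num)
      norm_num
    linarith
  have hlog0 : 0 ≤ Real.log (20 / ε) := by
    apply Real.log_nonneg
    rw [le_div_iff₀ hε]; linarith
  set T : ℕ := ⌈2 * d * Real.log (20 / ε)⌉₊ with hT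
  have hT1 : 2 * d * Real.log (20 / ε) ≤ T := Nat.le_ceil _
  have hT2 : (T : ℝ) < 2 * d * Real.log (20 / ε) + 1 := Nat.ceil_lt_add_one (by positivity)
  have hT3 : (T : ℝ) ≤ 12 * d * ℓ + 1 := by nlinarith
  have hdl : 1.38 ≤ d * ℓ := by nlinarith
  refine ⟨T, n, ?_, ?_, kzLearner hd0 enc dec henc, ?_⟩
  · nlinarith
  · have h5 : 16 * (d:ℝ) / (ε / (20 * d)) = 320 * (d : ℝ) ^ 2 / ε := by field_simp; ring
    rw [h5] at hn
    exact hn
  · unfold Learner.Succeeds
    rw [success_eq hd0]
    have hprob := isProbabilityMeasure_unif hd0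
    have hσ := sphLike_unif hd0
    have hprob2 := hσ.prob
    have hTη : ((T : ℝ) + 1) * (ε / (20 * d)) ≤ 1 := by
      have hεℓ : ε * ℓ ≤ 1 := by
        have : ℓ ≤ 1 / ε - 1 := Real.log_le_sub_one_of_pos (by positivity)
        calc ε * ℓ ≤ ε * (1 / ε - 1) := by gcongr
          _ = 1 - ε := by field_simp
          _ ≤ 1 := by linarith
      have h8 : ((T : ℝ) + 1) * ε ≤ 20 * d := by
        calc ((T : ℝ) + 1) * ε ≤ (12 * d * ℓ + 2) * ε :=
              mul_le_mul_of_nonneg_right (by linarith) hε.le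
          _ = 12 * d * (ε * ℓ) + 2 * ε := by ring
          _ ≤ 12 * d * 1 + 2 * ε := by gcongr
          _ ≤ 20 * d := by linarith
      rw [← mul_div_assoc, div_le_one (by positivity)]
      exact h8
    have hmain : ∀ ω : Unit, (2 / 3 : ℝ≥0∞) ≤ ∫⁻ s, G (fun t p => (kzLearner hd0 enc dec henc).step t (ω, p))
        (term (kzLearner hd0 enc dec henc) ε ω) T 0 ((kzLearner hd0 enc dec henc).init ω) s
      ∂((unif d).map (Subtype.val : Sph d → E d)) := by
      intro ω
      calc (2 / 3 : ℝ≥0∞) = ∫⁻ _s : E d, (2 / 3 : ℝ≥0∞) ∂((unif d).map (Subtype.val : Sph d → E d)) := by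
            simp
        _ ≤ _ := by
            apply lintegral_mono_ae
            filter_upwards [hσ.norm_one] with s hs
            exact kz_success hd0 henc hε hε1 hround hT1 hTη hs
    calc (2 / 3 : ℝ≥0∞) = ∫⁻ _ω : Unit, (2 / 3 : ℝ≥0∞) ∂(Measure.dirac ()) := by simp
      _ ≤ _ := lintegral_mono hmain

end P309
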